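import Vale.Agent.P161.Ortho

/-!
# The finite-volume samplers converge
-/

open MeasureTheory Set Filter Topology
open scoped unitInterval ENNReal

namespace Vale.Agent.P161

universe u

variable {V : Type u}

/-- The hypotheses on the influence kernels. -/
structure KerHyp (a : ℝ) (μ : Measure (V → Bool)) (κ H : V → V → ℝ) (C : ℝ) : Prop where
  a0 : 0 < a
  a1 : a ≤ 1 / 5
  κ0 : ∀ v w, 0 ≤ κ v w
  H0 : ∀ v w, 0 ≤ H v w
  H1 : ∀ v, 1 ≤ H v v
  conv : ∀ (D : Finset V) (v z : V), ∑ w ∈ D, κ v w * H w z ≤ C * H v z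
  H2 : ∀ v, Summable fun z => H v z ^ 2
  lip : ∀ (D : Finset V) (v : V) (Y Y' : V → ℝ),
    |mean μ D v Y - mean μ D v Y'| ≤ ∑ w ∈ D, κ v w * |Y w - Y' w|
  C0 : 0 ≤ C
  C1 : a ^ 2 * C ≤ 1 / 2

theorem integral_inn {a : ℝ} (ha0 : 0 ≤ a) (ha : a ≤ 1 / 5) (μ : Measure (V → Bool))
    [IsProbabilityMeasure μ] (D : Finset V) {U : V → I} (hU : Function.Injective U) (k : ℕ)
    {F : (ℕ × V → I) → ℝ} (hF : Measurable F) (h0 : ∀ s, 0 ≤ F s)
    (hdep : DependsOn F (sites k D : Set (ℕ × V))) :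
    ∫ ω, F (inn a μ D U (xs a ω)) ∂(PP μ) = ∫ s, F s ∂(iid (ℕ × V)) := by
  have hm : Measurable (fun ω : (V → Bool) × (ℕ × V → I) => inn a μ D U (xs a ω)) :=
    measurable_inn a μ D measurable_const (measurable_xs a)
  rw [integral_eq_lintegral_of_nonneg_ae (ae_of_all _ fun ω => h0 _)
    (hF.comp hm).aestronglyMeasurable,
    integral_eq_lintegral_of_nonneg_ae (ae_of_all _ fun ω => h0 _) hF.aestronglyMeasurable,
    lintegral_inn ha0 ha μ D hU k (F := fun s => ENNReal.ofReal (F s)) hF.ennreal_ofReal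
      (fun x x' h => by
        show ENNReal.ofReal (F x) = ENNReal.ofReal (F x')
        rw [hdep h])]

/-- The signals are the solution driven by the innovations. -/
theorem sol_inn {a : ℝ} (ha0 : 0 ≤ a) (ha : a ≤ 1 / 5) (μ : Measure (V → Bool))
    [IsProbabilityMeasure μ] (D : Finset V) (U : V → I) (x : ℕ × V → I) (k : ℕ) {v : V}
    (hv : v ∈ D) : sol a μ D U (inn a μ D U x) (k, v) = x (k, v) := by
  apply sol_eq _ k v hv
  intro k v _
  unfold inn
  rw [sig_cdfI (abs_param_le ha0 ha μ D U x (k, v))]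

theorem abs_coe_sub_le (p q : I) : |(p : ℝ) - q| ≤ 1 := by
  rw [abs_le]; constructor <;> linarith [p.2.1, p.2.2, q.2.1, q.2.2]

theorem dependsOn_of_lip {ι : Type u} {f : (ι → I) → ℝ} {A : Finset ι} {c : ι → ℝ}
    (h : ∀ x y : ι → I, |f x - f y| ≤ ∑ i ∈ A, c i * |(x i : ℝ) - y i|) :
    DependsOn f (A : Set ι) := by
  intro x y hxy
  have h1 := h x y
  rw [Finset.sum_eq_zero] at h1
  · have := abs_eq_zero.mp (le_antisymm h1 (abs_nonneg _))
    linarith
  · intro i hi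
    rw [hxy i (Finset.mem_coe.mpr hi)]
    simp

theorem sites_mono {k : ℕ} {D D' : Finset V} (h : D ⊆ D') : sites k D ⊆ sites k D' :=
  Finset.product_subset_product_right h

theorem measurable_coe_sol (a : ℝ) (μ : Measure (V → Bool)) [IsProbabilityMeasure μ]
    (D : Finset V) (U : V → I) (j : ℕ × V) :
    Measurable (fun s : ℕ × V → I => (sol a μ D U s j : ℝ)) := by
  have h : Measurable (fun s : ℕ × V → I => sol a μ D ((fun _ => U) s) (id s)) :=
    measurable_sol a μ D measurable_const measurable_id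
  exact measurable_subtype_coe.comp (measurable_pi_iff.mp h j)

/-- The finite-volume samplers form a Cauchy net, for fixed labels. -/
theorem sol_cauchy {a : ℝ} {μ : Measure (V → Bool)} [IsProbabilityMeasure μ]
    {κ H : V → V → ℝ} {C : ℝ} (h : KerHyp a μ κ H C) {U : V → I} (hU : Function.Injective U)
    (k : ℕ) (v : V) {ε : ℝ} (hε : 0 < ε) :
    ∃ D₀ : Finset V, v ∈ D₀ ∧ ∀ D D' : Finset V, D₀ ⊆ D → D ⊆ D' →
      ∫ s, ((sol a μ D U s (k, v) : ℝ) - sol a μ D' U s (k, v)) ^ 2 ∂(iid (ℕ × V)) ≤ ε := by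
  classical
  have ha0 := h.a0.le
  have ha := h.a1
  -- the constants
  set K : ℝ := (k + 1) * (3 ^ (k + 1)) ^ 2 with hK
  have hK0 : 0 < K := by positivity
  obtain ⟨B₀, hB₀⟩ := summable_iff_vanishing_norm.mp (h.H2 v) (ε / (9 * K)) (by positivity)
  set B := sites k B₀ with hB
  set c : ℕ × V → ℝ := coef H k v with hc
  have hc0 : ∀ j, 0 ≤ c j := fun j => mul_nonneg (by positivity) (h.H0 _ _)
  set Q : ℝ := ∑ j ∈ B, c j ^ 2 with hQ
  have hQ0 : 0 ≤ Q := Finset.sum_nonneg fun _ _ => sq_nonneg _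
  set ε2 : ℝ := ε / (9 * (Q * B.card + 1)) with hε2
  have hε2pos : 0 < ε2 := by positivity
  choose T hT using fun j : ℕ × V => exists_pm_cauchy ha0 ha μ U j hε2pos
  refine ⟨insert v (B₀ ∪ B.biUnion T), Finset.mem_insert_self _ _, fun D D' h0 h1 => ?_⟩
  have hvD : v ∈ D := h0 (Finset.mem_insert_self _ _)
  have hBD : B₀ ⊆ D := fun z hz => h0 (Finset.mem_insert_of_mem (Finset.mem_union_left _ hz))
  have hTD : ∀ j ∈ B, T j ⊆ D := fun j hj z hz => h0 (Finset.mem_insert_of_mem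
    (Finset.mem_union_right _ (Finset.mem_biUnion.mpr ⟨j, hj, hz⟩)))
  -- the approximation by a local function
  set f : (ℕ × V → I) → ℝ := fun s => (sol a μ D U s (k, v) : ℝ) with hf
  set f' : (ℕ × V → I) → ℝ := fun s => (sol a μ D' U s (k, v) : ℝ) with hf'
  have hlipD : ∀ s s' : ℕ × V → I, |f s - f s'| ≤ ∑ j ∈ sites k D, c j * |(s j : ℝ) - s' j| :=
    fun s s' => sol_lip ha0 ha h.κ0 h.H0 h.H1 (h.conv D) (h.lip D) h.C0 h.C1 U s s' k v hvD
  have hlipD' : ∀ s s' : ℕ × V → I,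
      |f' s - f' s'| ≤ ∑ j ∈ sites k D', c j * |(s j : ℝ) - s' j| :=
    fun s s' => sol_lip ha0 ha h.κ0 h.H0 h.H1 (h.conv D') (h.lip D') h.C0 h.C1 U s s' k v
      (h1 hvD)
  have hmf : Measurable f := measurable_coe_sol a μ D U (k, v)
  have hmf' : Measurable f' := measurable_coe_sol a μ D' U (k, v)
  have hfb : ∀ s, |f s| ≤ 1 := fun s => by
    rw [abs_le]; constructor <;> simp only [hf] <;> linarith [(sol a μ D U s (k, v)).2.1,
      (sol a μ D U s (k, v)).2.2]
  have hf'b : ∀ s, |f' s| ≤ 1 := fun s => by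
    rw [abs_le]; constructor <;> simp only [hf'] <;> linarith [(sol a μ D' U s (k, v)).2.1,
      (sol a μ D' U s (k, v)).2.2]
  obtain ⟨g, hgm, hgb, hglip, hgf⟩ := efron_stein f hmf (sites k D) B c hc0 hfb hlipD
  have hdf := dependsOn_of_lip hlipD
  have hdf' := dependsOn_of_lip hlipD'
  have hdg := dependsOn_of_lip hglip
  -- the approximation error
  have herr : ∑ j ∈ sites k D \ B, c j ^ 2 ≤ ε / 9 := by
    have e1 : sites k D \ B = Finset.range (k + 1) ×ˢ (D \ B₀) := by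
      ext j
      simp only [hB, sites, Finset.mem_sdiff, Finset.mem_product]
      tauto
    rw [e1, Finset.sum_product]
    have e2 : ∀ l ∈ Finset.range (k + 1), ∑ z ∈ D \ B₀, c (l, z) ^ 2 ≤
        (3 ^ (k + 1)) ^ 2 * (ε / (9 * K)) := by
      intro l _
      have e3 := hB₀ (D \ B₀) Finset.sdiff_disjoint
      rw [Real.norm_eq_abs] at e3
      have e4 := (le_abs_self _).trans e3.le
      calc ∑ z ∈ D \ B₀, c (l, z) ^ 2 = (3 ^ (k + 1)) ^ 2 * ∑ z ∈ D \ B₀, H v z ^ 2 := by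
            rw [Finset.mul_sum]
            exact Finset.sum_congr rfl fun z _ => by simp only [hc, coef]; ring
        _ ≤ _ := mul_le_mul_of_nonneg_left e4 (by positivity)
    refine (Finset.sum_le_sum e2).trans (le_of_eq ?_)
    rw [Finset.sum_const, Finset.card_range, nsmul_eq_mul]
    push_cast
    have : (3 ^ (k + 1) : ℝ) ^ 2 ≠ 0 := by positivity
    have h5 : ((k : ℝ) + 1) ≠ 0 := by positivity
    rw [hK]
    field_simp
  have hfg : ∫ s, (f s - g s) ^ 2 ∂(iid (ℕ × V)) ≤ ε / 9 := hgf.trans herr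
  -- transfer to the space of the signals
  have hmi : ∀ D, Measurable (fun ω : (V → Bool) × (ℕ × V → I) => inn a μ D U (xs a ω)) :=
    fun D => measurable_inn a μ D measurable_const (measurable_xs a)
  have t1 : ∫ s, (f s - f' s) ^ 2 ∂(iid (ℕ × V)) =
      ∫ ω, (f (inn a μ D' U (xs a ω)) - f' (inn a μ D' U (xs a ω))) ^ 2 ∂(PP μ) := by
    rw [integral_inn ha0 ha μ D' hU k (F := fun s => (f s - f' s) ^ 2)
      ((hmf.sub hmf').pow_const 2) (fun s => sq_nonneg _)]
    intro s s' hs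
    show (f s - f' s) ^ 2 = (f s' - f' s') ^ 2
    rw [hdf fun j hj => hs j (Finset.coe_subset.mpr (sites_mono h1) hj), hdf' hs]
  have t2 : ∀ ω : (V → Bool) × (ℕ × V → I), f' (inn a μ D' U (xs a ω)) =
      f (inn a μ D U (xs a ω)) := by
    intro ω
    simp only [hf, hf']
    rw [sol_inn ha0 ha μ D' U _ k (h1 hvD), sol_inn ha0 ha μ D U _ k hvD]
  have t3 : ∀ D'' : Finset V, D ⊆ D'' → ∫ ω, (f (inn a μ D'' U (xs a ω)) -
      g (inn a μ D'' U (xs a ω))) ^ 2 ∂(PP μ) ≤ ε / 9 := by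
    intro D'' hD''
    rw [integral_inn ha0 ha μ D'' hU k (F := fun s => (f s - g s) ^ 2)
      ((hmf.sub hgm).pow_const 2) (fun s => sq_nonneg _)]
    · exact hfg
    · intro s s' hs
      show (f s - g s) ^ 2 = (f s' - g s') ^ 2
      rw [hdf fun j hj => hs j (Finset.coe_subset.mpr (sites_mono hD'') hj),
        hdg fun j hj => hs j (Finset.coe_subset.mpr (sites_mono hD'')
          (Finset.coe_subset.mpr Finset.inter_subset_left hj))]
  -- the local function along the two innovations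
  set d : (V → Bool) × (ℕ × V → I) → ℕ × V → ℝ := fun ω j =>
    pm a μ D' U j (xs a ω) - pm a μ D U j (xs a ω) with hd
  have t4 : ∀ ω : (V → Bool) × (ℕ × V → I), (g (inn a μ D' U (xs a ω)) -
      g (inn a μ D U (xs a ω))) ^ 2 ≤ Q * ∑ j ∈ B, d ω j ^ 2 := by
    intro ω
    have u1 := hglip (inn a μ D' U (xs a ω)) (inn a μ D U (xs a ω))
    have u2 : ∀ j, |(inn a μ D' U (xs a ω) j : ℝ) - inn a μ D U (xs a ω) j| ≤ |d ω j| := by
      intro j
      unfold inn
      refine (cdfI_lip (abs_param_le ha0 ha μ D' U _ j) (abs_param_le ha0 ha μ D U _ j) _).trans ?_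
      have : param a μ D' U (xs a ω) j - param a μ D U (xs a ω) j = a * d ω j := by
        simp only [hd]; unfold param pm; ring
      rw [this, abs_mul, abs_of_nonneg ha0]
      have := abs_nonneg (d ω j)
      nlinarith
    have u3 : |g (inn a μ D' U (xs a ω)) - g (inn a μ D U (xs a ω))| ≤
        ∑ j ∈ B, c j * |d ω j| := by
      refine u1.trans ?_
      refine (Finset.sum_le_sum fun j _ => mul_le_mul_of_nonneg_left (u2 j) (hc0 j)).trans ?_
      exact Finset.sum_le_sum_of_subset_of_nonneg Finset.inter_subset_right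
        fun j _ _ => mul_nonneg (hc0 j) (abs_nonneg _)
    calc (g (inn a μ D' U (xs a ω)) - g (inn a μ D U (xs a ω))) ^ 2
        = |g (inn a μ D' U (xs a ω)) - g (inn a μ D U (xs a ω))| ^ 2 := (sq_abs _).symm
      _ ≤ (∑ j ∈ B, c j * |d ω j|) ^ 2 := by gcongr
      _ ≤ (∑ j ∈ B, c j ^ 2) * ∑ j ∈ B, |d ω j| ^ 2 := Finset.sum_mul_sq_le_sq_mul_sq _ _ _
      _ = Q * ∑ j ∈ B, d ω j ^ 2 := by simp only [sq_abs, hQ]
  have hmd : ∀ j, Measurable (fun ω => d ω j) := fun j =>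
    ((measurable_pm a μ D' U j).comp (measurable_xs a)).sub
      ((measurable_pm a μ D U j).comp (measurable_xs a))
  have hdb : ∀ ω j, |d ω j| ≤ 2 := by
    intro ω j
    have u1 := abs_le.mp (abs_pm_le a μ D' U j (xs a ω))
    have u2 := abs_le.mp (abs_pm_le a μ D U j (xs a ω))
    simp only [hd]
    rw [abs_le]; constructor <;> linarith [u1.1, u1.2, u2.1, u2.2]
  have hdi : ∀ j, Integrable (fun ω => d ω j ^ 2) (PP μ) := fun j =>
    integrable_bdd ((hmd j).pow_const 2) (M := 4) fun ω => by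
      rw [abs_pow]
      have := hdb ω j
      have := abs_nonneg (d ω j)
      nlinarith
  have hsqi : ∀ (F G : (V → Bool) × (ℕ × V → I) → ℝ), Measurable F → Measurable G →
      (∀ ω, |F ω| ≤ 1) → (∀ ω, |G ω| ≤ 1) → Integrable (fun ω => (F ω - G ω) ^ 2) (PP μ) := by
    intro F G hF hG hFb hGb
    refine integrable_bdd ((hF.sub hG).pow_const 2) (M := 4) fun ω => ?_
    have u1 := abs_le.mp (hFb ω)
    have u2 := abs_le.mp (hGb ω)
    rw [abs_of_nonneg (sq_nonneg _)]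
    nlinarith [u1.1, u1.2, u2.1, u2.2]
  have t5 : ∫ ω, (g (inn a μ D' U (xs a ω)) - g (inn a μ D U (xs a ω))) ^ 2 ∂(PP μ) ≤ ε / 9 := by
    calc ∫ ω, (g (inn a μ D' U (xs a ω)) - g (inn a μ D U (xs a ω))) ^ 2 ∂(PP μ)
        ≤ ∫ ω, Q * ∑ j ∈ B, d ω j ^ 2 ∂(PP μ) := by
          apply integral_mono
            (hsqi _ _ (hgm.comp (hmi D')) (hgm.comp (hmi D)) (fun ω => hgb _) (fun ω => hgb _))
          · exact (integrable_finsetSum _ fun j _ => hdi j).const_mul Q
          · exact t4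
      _ = Q * ∑ j ∈ B, ∫ ω, d ω j ^ 2 ∂(PP μ) := by
          rw [integral_const_mul, integral_finsetSum _ fun j _ => hdi j]
      _ ≤ Q * ∑ _j ∈ B, ε2 := by
          apply mul_le_mul_of_nonneg_left _ hQ0
          exact Finset.sum_le_sum fun j hj => hT j D D' (hTD j hj) h1
      _ = Q * B.card * ε2 := by rw [Finset.sum_const, nsmul_eq_mul]; ring
      _ ≤ ε / 9 := by
          have u1 : 0 ≤ Q * (B.card : ℝ) := by positivity
          rw [hε2, ← mul_div_assoc, div_le_div_iff₀ (by positivity) (by norm_num)]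
          nlinarith
  show ∫ s, (f s - f' s) ^ 2 ∂(iid (ℕ × V)) ≤ ε
  rw [t1]
  simp_rw [t2]
  set F1 : (V → Bool) × (ℕ × V → I) → ℝ := fun ω => f (inn a μ D' U (xs a ω)) with hF1
  set F2 : (V → Bool) × (ℕ × V → I) → ℝ := fun ω => f (inn a μ D U (xs a ω)) with hF2
  set G1 : (V → Bool) × (ℕ × V → I) → ℝ := fun ω => g (inn a μ D' U (xs a ω)) with hG1
  set G2 : (V → Bool) × (ℕ × V → I) → ℝ := fun ω => g (inn a μ D U (xs a ω)) with hG2
  have i1 := hsqi F1 G1 (hmf.comp (hmi D')) (hgm.comp (hmi D')) (fun ω => hfb _) (fun ω => hgb _)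
  have i2 := hsqi G1 G2 (hgm.comp (hmi D')) (hgm.comp (hmi D)) (fun ω => hgb _) (fun ω => hgb _)
  have i3 := hsqi F2 G2 (hmf.comp (hmi D)) (hgm.comp (hmi D)) (fun ω => hfb _) (fun ω => hgb _)
  have i4 := hsqi F1 F2 (hmf.comp (hmi D')) (hmf.comp (hmi D)) (fun ω => hfb _) (fun ω => hfb _)
  calc ∫ ω, (F1 ω - F2 ω) ^ 2 ∂(PP μ)
      ≤ ∫ ω, (3 * (F1 ω - G1 ω) ^ 2 + (3 * (G1 ω - G2 ω) ^ 2 + 3 * (F2 ω - G2 ω) ^ 2)) ∂(PP μ) := by
        apply integral_mono i4
        · exact (i1.const_mul 3).add ((i2.const_mul 3).add (i3.const_mul 3))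
        · intro ω
          simp only
          nlinarith [sq_nonneg ((F1 ω - G1 ω) - (G1 ω - G2 ω)),
            sq_nonneg ((G1 ω - G2 ω) - (G2 ω - F2 ω)), sq_nonneg ((F1 ω - G1 ω) - (G2 ω - F2 ω))]
    _ = 3 * ∫ ω, (F1 ω - G1 ω) ^ 2 ∂(PP μ) + (3 * ∫ ω, (G1 ω - G2 ω) ^ 2 ∂(PP μ) +
          3 * ∫ ω, (F2 ω - G2 ω) ^ 2 ∂(PP μ)) := by
        have i5 : Integrable (fun ω => 3 * (G1 ω - G2 ω) ^ 2 + 3 * (F2 ω - G2 ω) ^ 2) (PP μ) :=
          (i2.const_mul 3).add (i3.const_mul 3)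
        rw [integral_add (i1.const_mul 3) i5,
          integral_add (i2.const_mul 3) (i3.const_mul 3), integral_const_mul, integral_const_mul,
          integral_const_mul]
    _ ≤ 3 * (ε / 9) + (3 * (ε / 9) + 3 * (ε / 9)) := by
        have w1 := t3 D' h1
        have w3 := t3 D (Finset.Subset.refl D)
        have w2 := t5
        gcongr
    _ = ε := by ring

end Vale.Agent.P161
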