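import Vale.Agent.P161.Defs

/-!
# Distances in trees
-/

open MeasureTheory Set Filter Topology
open scoped unitInterval ENNReal

namespace Vale.Agent.P161

universe u

variable {V : Type u}

namespace TreeAux

theorem exists_adj_dist {G : SimpleGraph V} (hG : G.Connected) {v w : V} {n : ℕ}
    (h : G.dist v w = n + 1) : ∃ x, G.Adj x w ∧ G.dist v x = n := by
  obtain ⟨p, hp⟩ := hG.exists_walk_length_eq_dist w v
  rw [G.dist_comm, h] at hp
  cases p with
  | nil => simp at hp
  | @cons _ x _ hadj q =>
    refine ⟨x, hadj.symm, ?_⟩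
    rw [SimpleGraph.Walk.length_cons] at hp
    have h1 : G.dist x v ≤ n := (SimpleGraph.dist_le q).trans (by omega)
    have h2 : G.dist v w ≤ G.dist v x + G.dist x w := hG.dist_triangle
    have h3 : G.dist x w = 1 := SimpleGraph.dist_eq_one_iff_adj.2 hadj.symm
    rw [G.dist_comm] at h1
    omega

theorem length_eq_dist {G : SimpleGraph V} (hG : G.IsTree) {u v : V} {p : G.Walk u v}
    (hp : p.IsPath) : p.length = G.dist u v := by
  obtain ⟨q, hq, hq'⟩ := hG.1.exists_path_of_dist u v
  rw [← hq', (hG.existsUnique_path u v).unique hp hq]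

theorem side_of_mem_support {G : SimpleGraph V} (hG : G.IsTree) {a b u x : V}
    (hu : G.dist u a < G.dist u b) {p : G.Walk u a} (hp : p.length = G.dist u a)
    (hx : x ∈ p.support) : G.dist x a < G.dist x b := by
  classical
  have h1 : (p.takeUntil x hx).length + (p.dropUntil x hx).length = p.length := by
    rw [← SimpleGraph.Walk.length_append, SimpleGraph.Walk.take_spec]
  have h2 := SimpleGraph.dist_le (p.takeUntil x hx)
  have h3 := SimpleGraph.dist_le (p.dropUntil x hx)
  have h4 : G.dist u b ≤ G.dist u x + G.dist x b := hG.1.dist_triangle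
  omega

/-- Sphere sizes. -/
theorem sphere {G : SimpleGraph V} (hG : G.IsTree) {d : ℕ} (hd2 : 2 ≤ d)
    (hfin : ∀ v, (G.neighborSet v).Finite) (hdeg : ∀ v, (G.neighborSet v).ncard ≤ d) (v : V)
    (n : ℕ) : ∃ S : Finset V, (∀ w, w ∈ S ↔ G.dist v w = n) ∧ S.card ≤ 2 * (d - 1) ^ n := by
  classical
  have hcard : ∀ x, (hfin x).toFinset.card ≤ d := fun x => by
    rw [← Set.ncard_eq_toFinset_card _ (hfin x)]; exact hdeg x
  induction n with
  | zero =>
    refine ⟨{v}, fun w => ?_, by simp⟩
    rw [Finset.mem_singleton, hG.1.dist_eq_zero_iff]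
    exact eq_comm
  | succ n ih =>
    obtain ⟨S, hS, hSc⟩ := ih
    refine ⟨S.biUnion fun x => (hfin x).toFinset.filter fun w => G.dist v w = n + 1,
      fun w => ?_, ?_⟩
    · simp only [Finset.mem_biUnion, Finset.mem_filter, Set.Finite.mem_toFinset,
        SimpleGraph.mem_neighborSet]
      constructor
      · rintro ⟨x, _, _, h⟩; exact h
      · intro h
        obtain ⟨x, hx, hx'⟩ := exists_adj_dist hG.1 h
        exact ⟨x, (hS x).2 hx', hx, h⟩
    · rcases Nat.eq_zero_or_pos n with rfl | hn
      · have hS1 : S = {v} := by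
          ext w
          rw [hS, Finset.mem_singleton, hG.1.dist_eq_zero_iff]
          exact eq_comm
        subst hS1
        rw [Finset.singleton_biUnion]
        calc _ ≤ (hfin v).toFinset.card := Finset.card_filter_le _ _
          _ ≤ d := hcard v
          _ ≤ 2 * (d - 1) ^ (0 + 1) := by rw [zero_add, pow_one]; omega
      · calc _ ≤ S.card * (d - 1) := by
              refine Finset.card_biUnion_le_card_mul _ _ _ fun x hx => ?_
              obtain ⟨m, rfl⟩ : ∃ m, n = m + 1 := ⟨n - 1, by omega⟩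
              obtain ⟨y, hy, hy'⟩ := exists_adj_dist hG.1 ((hS x).1 hx)
              have hmem : y ∈ (hfin x).toFinset := by
                simpa using hy.symm
              have hsub : ((hfin x).toFinset.filter fun w => G.dist v w = m + 1 + 1) ⊆
                  (hfin x).toFinset.erase y := by
                intro w hw
                rw [Finset.mem_filter] at hw
                rw [Finset.mem_erase]
                refine ⟨?_, hw.1⟩
                rintro rfl
                have := hw.2
                omega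
              calc _ ≤ ((hfin x).toFinset.erase y).card := Finset.card_le_card hsub
                _ = (hfin x).toFinset.card - 1 := Finset.card_erase_of_mem hmem
                _ ≤ d - 1 := by have := hcard x; omega
          _ ≤ (2 * (d - 1) ^ n) * (d - 1) := Nat.mul_le_mul_right _ hSc
          _ = 2 * (d - 1) ^ (n + 1) := by ring

theorem sum_le {G : SimpleGraph V} (hG : G.IsTree) {d : ℕ} (hd2 : 2 ≤ d)
    (hfin : ∀ v, (G.neighborSet v).Finite) (hdeg : ∀ v, (G.neighborSet v).ncard ≤ d)
    {x : ℝ} (hx0 : 0 ≤ x) (hx : ((d : ℝ) - 1) * x < 1) (D : Finset V) (v : V) :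
    ∑ w ∈ D, x ^ G.dist v w ≤ 2 * (1 - ((d : ℝ) - 1) * x)⁻¹ := by
  classical
  have hd1 : (0 : ℝ) ≤ (d : ℝ) - 1 := by
    have : (2 : ℝ) ≤ d := by exact_mod_cast hd2
    linarith
  have hy0 : 0 ≤ ((d : ℝ) - 1) * x := mul_nonneg hd1 hx0
  have key : ∑ w ∈ D, x ^ G.dist v w ≤
      ∑ n ∈ D.image (G.dist v), 2 * (((d : ℝ) - 1) * x) ^ n := by
    rw [← Finset.sum_fiberwise_of_maps_to (g := G.dist v) (t := D.image (G.dist v))
      (fun w hw => Finset.mem_image_of_mem _ hw)]
    refine Finset.sum_le_sum fun n _ => ?_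
    obtain ⟨S, hS, hSc⟩ := sphere hG hd2 hfin hdeg v n
    have hsub : (D.filter fun w => G.dist v w = n) ⊆ S := by
      intro w hw
      exact (hS w).2 (Finset.mem_filter.1 hw).2
    calc ∑ w ∈ D with G.dist v w = n, x ^ G.dist v w
        = ∑ w ∈ D with G.dist v w = n, x ^ n :=
          Finset.sum_congr rfl fun w hw => by rw [(Finset.mem_filter.1 hw).2]
      _ = ((D.filter fun w => G.dist v w = n).card : ℝ) * x ^ n := by
          rw [Finset.sum_const, nsmul_eq_mul]
      _ ≤ (2 * ((d : ℝ) - 1) ^ n) * x ^ n := by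
          refine mul_le_mul_of_nonneg_right ?_ (pow_nonneg hx0 n)
          have h1 : ((D.filter fun w => G.dist v w = n).card : ℝ) ≤ (S.card : ℝ) := by
            exact_mod_cast Finset.card_le_card hsub
          have h2 : (S.card : ℝ) ≤ ((2 * (d - 1) ^ n : ℕ) : ℝ) := by exact_mod_cast hSc
          have h3 : ((2 * (d - 1) ^ n : ℕ) : ℝ) = 2 * ((d : ℝ) - 1) ^ n := by
            push_cast [Nat.cast_sub (show 1 ≤ d by omega)]
            ring
          linarith
      _ = 2 * (((d : ℝ) - 1) * x) ^ n := by rw [mul_pow]; ring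
  refine key.trans ?_
  rw [← Finset.mul_sum]
  refine mul_le_mul_of_nonneg_left ?_ zero_le_two
  rw [← tsum_geometric_of_lt_one hy0 hx]
  exact (summable_geometric_of_lt_one hy0 hx).sum_le_tsum _ fun n _ => pow_nonneg hy0 n

end TreeAux

open TreeAux

theorem ball_finite {G : SimpleGraph V} (hG : G.Connected)
    (hfin : ∀ v, (G.neighborSet v).Finite) (v : V) (n : ℕ) : {w | G.dist v w ≤ n}.Finite := by
  induction n with
  | zero =>
    refine (Set.finite_singleton v).subset fun w hw => ?_
    have h0 : G.dist v w = 0 := Nat.le_zero.1 hw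
    exact ((hG.dist_eq_zero_iff).1 h0).symm
  | succ n ih =>
    refine (ih.union (ih.biUnion fun x _ => hfin x)).subset fun w hw => ?_
    rcases Nat.lt_or_ge n (G.dist v w) with h | h
    · have h1 : G.dist v w = n + 1 := le_antisymm hw h
      obtain ⟨x, hx, hx'⟩ := exists_adj_dist hG h1
      refine Or.inr ?_
      simp only [Set.mem_iUnion]
      exact ⟨x, hx'.le, hx⟩
    · exact Or.inl h

theorem countable_of_connected {G : SimpleGraph V} (hG : G.Connected)
    (hfin : ∀ v, (G.neighborSet v).Finite) : Countable V := by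
  obtain ⟨v⟩ := hG.nonempty
  rw [← Set.countable_univ_iff]
  have h : (Set.univ : Set V) = ⋃ n : ℕ, {w | G.dist v w ≤ n} := by
    ext w
    simp only [Set.mem_univ, Set.mem_iUnion, true_iff]
    exact ⟨G.dist v w, le_refl (G.dist v w)⟩
  rw [h]
  exact Set.countable_iUnion fun n => (ball_finite hG hfin v n).countable

theorem dist_lt_or_gt {G : SimpleGraph V} (hG : G.IsTree) {a b : V} (hab : G.Adj a b) (u : V) :
    G.dist u a < G.dist u b ∨ G.dist u b < G.dist u a :=
  lt_or_gt_of_ne (hG.dist_ne_of_adj u hab)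

theorem dist_split {G : SimpleGraph V} (hG : G.IsTree) {a b : V} (hab : G.Adj a b) {u w : V}
    (hu : G.dist u a < G.dist u b) (hw : G.dist w b < G.dist w a) :
    G.dist u w = G.dist u a + 1 + G.dist b w := by
  obtain ⟨p, hp, hp'⟩ := hG.1.exists_path_of_dist u a
  obtain ⟨q, hq, hq'⟩ := hG.1.exists_path_of_dist w b
  have hdisj : ∀ x ∈ p.support, x ∉ q.reverse.support := by
    intro x hx hx'
    rw [SimpleGraph.Walk.support_reverse, List.mem_reverse] at hx'
    have h1 := side_of_mem_support hG hu hp' hx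
    have h2 := side_of_mem_support hG hw hq' hx'
    omega
  have hpath : (p.append (SimpleGraph.Walk.cons hab q.reverse)).IsPath := by
    rw [SimpleGraph.Walk.isPath_def, SimpleGraph.Walk.support_append,
      SimpleGraph.Walk.support_cons, List.tail_cons, List.nodup_append]
    refine ⟨hp.support_nodup, hq.reverse.support_nodup, ?_⟩
    intro x hx y hy hxy
    subst hxy
    exact hdisj x hx hy
  rw [← length_eq_dist hG hpath, SimpleGraph.Walk.length_append, SimpleGraph.Walk.length_cons,
    SimpleGraph.Walk.length_reverse, hp', hq', G.dist_comm (u := w) (v := b)]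
  ring

theorem kernel_conv {G : SimpleGraph V} (hG : G.IsTree) {d : ℕ} (hd2 : 2 ≤ d)
    (hfin : ∀ v, (G.neighborSet v).Finite) (hdeg : ∀ v, (G.neighborSet v).ncard ≤ d)
    {θ r : ℝ} (hθ : 0 ≤ θ) (hθr : θ < r) (hr : ((d : ℝ) - 1) * r ^ 2 < 1) :
    ∃ C : ℝ, 0 < C ∧ ∀ (D : Finset V) (v z : V),
      ∑ w ∈ D, θ ^ G.dist v w * r ^ G.dist w z ≤ C * r ^ G.dist v z := by
  classical
  have hr0 : 0 < r := hθ.trans_lt hθr
  have hd1 : (0 : ℝ) < (d : ℝ) - 1 := by
    have : (2 : ℝ) ≤ d := by exact_mod_cast hd2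
    linarith
  have hx0 : 0 ≤ θ * r := mul_nonneg hθ hr0.le
  have hx : ((d : ℝ) - 1) * (θ * r) < 1 := by
    refine lt_of_le_of_lt ?_ hr
    refine mul_le_mul_of_nonneg_left ?_ hd1.le
    nlinarith
  set M : ℝ := 2 * (1 - ((d : ℝ) - 1) * (θ * r))⁻¹ with hM
  have hMpos : 0 < M := mul_pos two_pos (inv_pos.2 (by linarith))
  have ht : 0 < 1 - θ / r := by
    rw [sub_pos, div_lt_one hr0]; exact hθr
  refine ⟨M / (1 - θ / r), div_pos hMpos ht, fun D v z => ?_⟩
  set C := M / (1 - θ / r) with hC
  have hCeq : M + θ / r * C = C := by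
    have h : C * (1 - θ / r) = M := by rw [hC]; exact div_mul_cancel₀ _ ht.ne'
    linear_combination -h
  have hCM : M ≤ C := by
    have : 0 ≤ θ / r * C := mul_nonneg (div_nonneg hθ hr0.le) (div_pos hMpos ht).le
    linarith
  suffices H : ∀ n : ℕ, ∀ v : V, G.dist v z = n →
      ∑ w ∈ D, θ ^ G.dist v w * r ^ G.dist w z ≤ C * r ^ n from H _ v rfl
  intro n
  induction n with
  | zero =>
    intro v hv
    have hvz : v = z := hG.1.dist_eq_zero_iff.1 hv
    subst hvz
    calc ∑ w ∈ D, θ ^ G.dist v w * r ^ G.dist w v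
        = ∑ w ∈ D, (θ * r) ^ G.dist v w :=
          Finset.sum_congr rfl fun w _ => by rw [mul_pow, G.dist_comm (u := w) (v := v)]
      _ ≤ M := sum_le hG hd2 hfin hdeg hx0 hx D v
      _ ≤ C * r ^ 0 := by rw [pow_zero, mul_one]; exact hCM
  | succ n ih =>
    intro v hv
    obtain ⟨x, hxv, hx'⟩ := exists_adj_dist hG.1 (v := z) (w := v) (n := n)
      (by rw [G.dist_comm]; exact hv)
    have hxz : G.dist x z = n := by rw [G.dist_comm]; exact hx'
    have hz : G.dist z x < G.dist z v := by
      rw [hx', G.dist_comm, hv]; omega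
    have hxv1 : G.dist x v = 1 := SimpleGraph.dist_eq_one_iff_adj.2 hxv
    rw [← Finset.sum_filter_add_sum_filter_not D (fun w => G.dist w v < G.dist w x)]
    have h1 : ∑ w ∈ D with G.dist w v < G.dist w x, θ ^ G.dist v w * r ^ G.dist w z ≤
        M * r ^ (n + 1) := by
      calc ∑ w ∈ D with G.dist w v < G.dist w x, θ ^ G.dist v w * r ^ G.dist w z
          = ∑ w ∈ D with G.dist w v < G.dist w x, (θ * r) ^ G.dist v w * r ^ (n + 1) := by
            refine Finset.sum_congr rfl fun w hw => ?_
            have hw' := (Finset.mem_filter.1 hw).2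
            have := dist_split hG hxv.symm hw' hz
            rw [this, hxz, G.dist_comm (u := w) (v := v), mul_pow, mul_assoc, ← pow_add]
            congr 2
            ring
        _ = (∑ w ∈ D with G.dist w v < G.dist w x, (θ * r) ^ G.dist v w) * r ^ (n + 1) := by
            rw [Finset.sum_mul]
        _ ≤ M * r ^ (n + 1) :=
            mul_le_mul_of_nonneg_right (sum_le hG hd2 hfin hdeg hx0 hx _ v)
              (pow_nonneg hr0.le _)
    have h2 : ∑ w ∈ D with ¬ G.dist w v < G.dist w x, θ ^ G.dist v w * r ^ G.dist w z ≤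
        θ / r * C * r ^ (n + 1) := by
      calc ∑ w ∈ D with ¬ G.dist w v < G.dist w x, θ ^ G.dist v w * r ^ G.dist w z
          = ∑ w ∈ D with ¬ G.dist w v < G.dist w x,
              θ * (θ ^ G.dist x w * r ^ G.dist w z) := by
            refine Finset.sum_congr rfl fun w hw => ?_
            have hw' := (Finset.mem_filter.1 hw).2
            have hw2 : G.dist w x < G.dist w v :=
              (dist_lt_or_gt hG hxv.symm w).resolve_left hw'
            have h3 : G.dist w v ≤ G.dist w x + G.dist x v := hG.1.dist_triangle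
            have h4 : G.dist v w = G.dist x w + 1 := by
              rw [G.dist_comm (u := v) (v := w), G.dist_comm (u := x) (v := w)]
              omega
            rw [h4, pow_succ]
            ring
        _ = θ * ∑ w ∈ D with ¬ G.dist w v < G.dist w x, θ ^ G.dist x w * r ^ G.dist w z := by
            rw [Finset.mul_sum]
        _ ≤ θ * ∑ w ∈ D, θ ^ G.dist x w * r ^ G.dist w z := by
            refine mul_le_mul_of_nonneg_left ?_ hθ
            refine Finset.sum_le_sum_of_subset_of_nonneg (Finset.filter_subset _ _)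
              fun w _ _ => ?_
            exact mul_nonneg (pow_nonneg hθ _) (pow_nonneg hr0.le _)
        _ ≤ θ * (C * r ^ n) := mul_le_mul_of_nonneg_left (ih x hxz) hθ
        _ = θ / r * C * r ^ (n + 1) := by
            rw [pow_succ]; field_simp
    calc _ ≤ M * r ^ (n + 1) + θ / r * C * r ^ (n + 1) := add_le_add h1 h2
      _ = (M + θ / r * C) * r ^ (n + 1) := by ring
      _ = C * r ^ (n + 1) := by rw [hCeq]

theorem kernel_summable {G : SimpleGraph V} (hG : G.IsTree) {d : ℕ} (hd2 : 2 ≤ d)
    (hfin : ∀ v, (G.neighborSet v).Finite) (hdeg : ∀ v, (G.neighborSet v).ncard ≤ d)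
    {r : ℝ} (hr0 : 0 ≤ r) (hr : ((d : ℝ) - 1) * r ^ 2 < 1) (v : V) :
    Summable fun z => (r ^ G.dist v z) ^ 2 := by
  refine summable_of_sum_le (c := 2 * (1 - ((d : ℝ) - 1) * r ^ 2)⁻¹)
    (fun z => by positivity) fun D => ?_
  calc ∑ z ∈ D, (r ^ G.dist v z) ^ 2 = ∑ z ∈ D, (r ^ 2) ^ G.dist v z :=
        Finset.sum_congr rfl fun z _ => by rw [← pow_mul, ← pow_mul, mul_comm]
    _ ≤ _ := sum_le hG hd2 hfin hdeg (sq_nonneg r) hr D v

end Vale.Agent.P161
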