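import Vale.Agent.P161.Defs
import Vale.Agent.P161.TreeDist

open MeasureTheory Set Filter Topology
open scoped unitInterval ENNReal

namespace Vale.Agent.P161

universe u

variable {V : Type u}

namespace SplitAux

theorem sg_sq (b : Bool) : sg b * sg b = 1 := by cases b <;> simp [sg]

open Classical in
/-- the configuration which is `true` exactly on `S` -/
noncomputable def ind (S : Finset V) : V → Bool := fun v => decide (v ∈ S)

/-- cylinder of configurations agreeing with `η` on `T` -/
def cyl (T : Finset V) (η : V → Bool) : Set (V → Bool) := {τ | ∀ v ∈ T, τ v = η v}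

theorem measurableSet_cyl (T : Finset V) (η : V → Bool) : MeasurableSet (cyl T η) := by
  have : cyl T η = ⋂ v ∈ T, (fun τ : V → Bool => τ v) ⁻¹' {η v} := by
    ext τ; simp [cyl]
  rw [this]
  exact Finset.measurableSet_biInter _ fun v _ => measurable_pi_apply v (measurableSet_singleton _)

open Classical in
theorem mem_cyl_ind_iff (T S : Finset V) (hS : S ⊆ T) (τ : V → Bool) :
    τ ∈ cyl T (ind S) ↔ S = T.filter (fun v => τ v = true) := by
  constructor
  · intro h
    ext v
    rw [Finset.mem_filter]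
    constructor
    · intro hv
      have := h v (hS hv)
      simp only [ind] at this
      exact ⟨hS hv, by rw [this]; simpa using hv⟩
    · rintro ⟨hv, h1⟩
      have := h v hv
      rw [h1] at this
      simpa [ind] using this.symm
  · rintro h v hv
    subst h
    simp only [ind, Finset.mem_filter, hv, true_and]
    cases τ v <;> simp

open Classical in
/-- a function depending on a finite set is a combination of cylinder indicators -/
theorem sum_cyl (T : Finset V) {F : (V → Bool) → ℝ} (hF : DependsOn F (T : Set V))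
    (τ : V → Bool) :
    F τ = ∑ S ∈ T.powerset, F (ind S) * (cyl T (ind S)).indicator (fun _ => (1 : ℝ)) τ := by
  set S₀ := T.filter (fun v => τ v = true) with hS₀
  have hS₀T : S₀ ⊆ T := Finset.filter_subset _ _
  rw [Finset.sum_eq_single S₀]
  · have h1 : τ ∈ cyl T (ind S₀) := (mem_cyl_ind_iff T S₀ hS₀T τ).2 rfl
    rw [Set.indicator_of_mem h1, mul_one]
    exact hF fun v hv => h1 v hv
  · intro S hS hne
    have h1 : τ ∉ cyl T (ind S) := fun h =>
      hne ((mem_cyl_ind_iff T S (Finset.mem_powerset.1 hS) τ).1 h)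
    rw [Set.indicator_of_notMem h1, mul_zero]
  · intro h
    exact absurd (Finset.mem_powerset.2 hS₀T) h

open Classical in
theorem integral_cyl (μ : Measure (V → Bool)) [IsProbabilityMeasure μ] (T : Finset V)
    {F : (V → Bool) → ℝ} (hF : DependsOn F (T : Set V)) :
    ∫ τ, F τ ∂μ = ∑ S ∈ T.powerset, F (ind S) * μ.real (cyl T (ind S)) := by
  calc ∫ τ, F τ ∂μ = ∫ τ, ∑ S ∈ T.powerset, F (ind S) *
        (cyl T (ind S)).indicator (fun _ => (1 : ℝ)) τ ∂μ := by
        refine integral_congr_ae (Eventually.of_forall fun τ => ?_)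
        exact sum_cyl T hF τ
    _ = ∑ S ∈ T.powerset, ∫ τ, F (ind S) *
        (cyl T (ind S)).indicator (fun _ => (1 : ℝ)) τ ∂μ := by
        refine integral_finsetSum _ fun S _ => ?_
        exact ((integrable_const (1 : ℝ)).indicator (measurableSet_cyl T (ind S))).const_mul _
    _ = _ := by
        refine Finset.sum_congr rfl fun S _ => ?_
        rw [integral_const_mul, integral_indicator_const _ (measurableSet_cyl T (ind S))]
        simp

open Classical in
theorem integral_cyl_mul (μ : Measure (V → Bool)) [IsProbabilityMeasure μ] (T T' : Finset V)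
    {F K : (V → Bool) → ℝ} (hF : DependsOn F (T : Set V)) (hK : DependsOn K (T' : Set V)) :
    ∫ τ, F τ * K τ ∂μ = ∑ S ∈ T.powerset, ∑ S' ∈ T'.powerset, F (ind S) * K (ind S') *
      μ.real (cyl T (ind S) ∩ cyl T' (ind S')) := by
  calc ∫ τ, F τ * K τ ∂μ = ∫ τ, ∑ S ∈ T.powerset, ∑ S' ∈ T'.powerset, F (ind S) * K (ind S') *
        (cyl T (ind S) ∩ cyl T' (ind S')).indicator (fun _ => (1 : ℝ)) τ ∂μ := by
        refine integral_congr_ae (Eventually.of_forall fun τ => ?_)
        simp only
        rw [sum_cyl T hF τ, sum_cyl T' hK τ, Finset.sum_mul_sum]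
        refine Finset.sum_congr rfl fun S _ => Finset.sum_congr rfl fun S' _ => ?_
        by_cases h1 : τ ∈ cyl T (ind S) <;> by_cases h2 : τ ∈ cyl T' (ind S') <;>
          simp [Set.indicator, h1, h2]
    _ = ∑ S ∈ T.powerset, ∑ S' ∈ T'.powerset, ∫ τ, F (ind S) * K (ind S') *
        (cyl T (ind S) ∩ cyl T' (ind S')).indicator (fun _ => (1 : ℝ)) τ ∂μ := by
        have hint : ∀ S S' : Finset V, Integrable (fun τ => F (ind S) * K (ind S') *
            (cyl T (ind S) ∩ cyl T' (ind S')).indicator (fun _ => (1 : ℝ)) τ) μ := fun S S' =>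
          ((integrable_const (1 : ℝ)).indicator
            ((measurableSet_cyl T (ind S)).inter (measurableSet_cyl T' (ind S')))).const_mul _
        rw [integral_finsetSum _ fun S _ => integrable_finsetSum _ fun S' _ => hint S S']
        refine Finset.sum_congr rfl fun S _ => ?_
        rw [integral_finsetSum _ fun S' _ => hint S S']
    _ = _ := by
        refine Finset.sum_congr rfl fun S _ => Finset.sum_congr rfl fun S' _ => ?_
        rw [integral_const_mul, integral_indicator_const _
          ((measurableSet_cyl T (ind S)).inter (measurableSet_cyl T' (ind S')))]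
        simp

/-- connectedness from a descent function -/
theorem connected_of_descend {G : SimpleGraph V} (D : Set V) {r : V} (hr : r ∈ D) (f : V → ℕ)
    (h : ∀ u ∈ D, u ≠ r → ∃ u' ∈ D, G.Adj u u' ∧ f u' < f u) : (G.induce D).Connected := by
  have key : ∀ n : ℕ, ∀ u : D, f u ≤ n → (G.induce D).Reachable u ⟨r, hr⟩ := by
    intro n
    induction n with
    | zero =>
      intro u hu
      by_cases hur : (u : V) = r
      · have : u = ⟨r, hr⟩ := Subtype.ext hur
        rw [this]
      · obtain ⟨u', _, _, hlt⟩ := h u u.2 hur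
        omega
    | succ n ih =>
      intro u hu
      by_cases hur : (u : V) = r
      · have : u = ⟨r, hr⟩ := Subtype.ext hur
        rw [this]
      · obtain ⟨u', hu'D, hadj, hlt⟩ := h u u.2 hur
        have h1 : (G.induce D).Adj u ⟨u', hu'D⟩ := by
          simpa using hadj
        exact h1.reachable.trans (ih ⟨u', hu'D⟩ (by simp only; omega))
  have : Nonempty D := ⟨⟨r, hr⟩⟩
  refine SimpleGraph.Connected.mk ?_
  intro u v
  exact (key _ u le_rfl).trans (key _ v le_rfl).symm

open Classical in
/-- the half ball: vertices closer to `a` than to `b` and at distance at most `n` from `a` -/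
noncomputable def half (G : SimpleGraph V) (hG : G.Connected)
    (hfin : ∀ v, (G.neighborSet v).Finite) (a b : V) (n : ℕ) : Finset V :=
  (ball_finite hG hfin a n).toFinset.filter (fun u => G.dist u a < G.dist u b)

theorem mem_half {G : SimpleGraph V} {hG : G.Connected}
    {hfin : ∀ v, (G.neighborSet v).Finite} {a b : V} {n : ℕ} {u : V} :
    u ∈ half G hG hfin a b n ↔ G.dist u a ≤ n ∧ G.dist u a < G.dist u b := by
  classical
  unfold half
  rw [Finset.mem_filter, Set.Finite.mem_toFinset, Set.mem_ofPred_eq, G.dist_comm (u := a) (v := u)]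

theorem half_self {G : SimpleGraph V} {hG : G.Connected}
    {hfin : ∀ v, (G.neighborSet v).Finite} {a b : V} (hab : G.Adj a b) {n : ℕ} :
    a ∈ half G hG hfin a b n := by
  rw [mem_half, SimpleGraph.dist_self]
  refine ⟨Nat.zero_le _, ?_⟩
  rw [SimpleGraph.dist_eq_one_iff_adj.2 hab]
  exact Nat.one_pos

/-- descent in the half ball -/
theorem half_descend {G : SimpleGraph V} (hG : G.IsTree)
    {hfin : ∀ v, (G.neighborSet v).Finite} {a b : V} (hab : G.Adj a b) {n : ℕ} {u : V}
    (hu : u ∈ half G hG.1 hfin a b n) (hne : u ≠ a) :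
    ∃ u' ∈ half G hG.1 hfin a b n, G.Adj u u' ∧ G.dist u' a < G.dist u a := by
  rw [mem_half] at hu
  have hpos : G.dist u a ≠ 0 := fun h => hne ((hG.1.dist_eq_zero_iff).1 h)
  obtain ⟨k, hk⟩ := Nat.exists_eq_succ_of_ne_zero hpos
  have hk' : G.dist a u = k + 1 := by rw [G.dist_comm]; exact hk
  obtain ⟨x, hx, hx'⟩ := TreeAux.exists_adj_dist hG.1 hk'
  have hxa : G.dist x a = k := by rw [G.dist_comm]; exact hx'
  have hadj : G.Adj u x := SimpleGraph.Adj.symm (by simpa using hx)
  refine ⟨x, ?_, hadj, by omega⟩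
  rw [mem_half]
  refine ⟨by omega, ?_⟩
  rcases dist_lt_or_gt hG hab x with h | h
  · exact h
  · exfalso
    have h1 := dist_split hG hab hu.2 h
    rw [SimpleGraph.dist_eq_one_iff_adj.2 hadj] at h1
    omega

theorem connected_half {G : SimpleGraph V} (hG : G.IsTree)
    {hfin : ∀ v, (G.neighborSet v).Finite} {a b : V} (hab : G.Adj a b) (n : ℕ) :
    (G.induce ((half G hG.1 hfin a b n : Finset V) : Set V)).Connected := by
  refine connected_of_descend _ (r := a) (by exact_mod_cast half_self hab) (fun u => G.dist u a)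
    fun u hu hne => ?_
  obtain ⟨u', h1, h2, h3⟩ := half_descend hG hab (by exact_mod_cast hu) hne
  exact ⟨u', by exact_mod_cast h1, h2, h3⟩

open Classical in
theorem connected_union {G : SimpleGraph V} (hG : G.IsTree)
    {hfin : ∀ v, (G.neighborSet v).Finite} {a b : V} (hab : G.Adj a b) (n : ℕ) :
    (G.induce ((half G hG.1 hfin a b n ∪ half G hG.1 hfin b a n : Finset V) : Set V)).Connected := by
  refine connected_of_descend _ (r := a) ?_ (fun u => G.dist u a) fun u hu hne => ?_
  · have := half_self (hG := hG.1) (hfin := hfin) hab (n := n)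
    exact_mod_cast Finset.mem_union_left _ this
  · have hu' : u ∈ half G hG.1 hfin a b n ∪ half G hG.1 hfin b a n := by exact_mod_cast hu
    rcases Finset.mem_union.1 hu' with h | h
    · obtain ⟨u', h1, h2, h3⟩ := half_descend hG hab h hne
      exact ⟨u', by exact_mod_cast Finset.mem_union_left _ h1, h2, h3⟩
    · by_cases hub : u = b
      · subst hub
        refine ⟨a, ?_, hab.symm, ?_⟩
        · exact_mod_cast Finset.mem_union_left _ (half_self hab)
        · rw [SimpleGraph.dist_self, SimpleGraph.dist_eq_one_iff_adj.2 hab.symm]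
          exact Nat.one_pos
      · obtain ⟨u', h1, h2, h3⟩ := half_descend hG hab.symm h hub
        refine ⟨u', by exact_mod_cast Finset.mem_union_right _ h1, h2, ?_⟩
        rw [mem_half] at h h1
        have ha : G.dist a a < G.dist a b := by
          rw [SimpleGraph.dist_self, SimpleGraph.dist_eq_one_iff_adj.2 hab]
          exact Nat.one_pos
        have e1 := dist_split hG hab.symm h.2 ha
        have e2 := dist_split hG hab.symm h1.2 ha
        rw [SimpleGraph.dist_self] at e1 e2
        omega

open Classical in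
theorem prod_split {G : SimpleGraph V} (hG : G.IsTree)
    {hfin : ∀ v, (G.neighborSet v).Finite} {a b : V} (hab : G.Adj a b) (n : ℕ) (θ : ℝ)
    (η : V → Bool) :
    ∏ e ∈ (half G hG.1 hfin a b n ∪ half G hG.1 hfin b a n).sym2 with e ∈ G.edgeSet,
        edgeFactor θ η e =
      (∏ e ∈ (half G hG.1 hfin a b n).sym2 with e ∈ G.edgeSet, edgeFactor θ η e) *
      (∏ e ∈ (half G hG.1 hfin b a n).sym2 with e ∈ G.edgeSet, edgeFactor θ η e) *
      edgeFactor θ η s(a, b) := by
  set Ta := half G hG.1 hfin a b n with hTa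
  set Tb := half G hG.1 hfin b a n with hTb
  have haT : a ∈ Ta := half_self hab
  have hbT : b ∈ Tb := half_self hab.symm
  have hdisj : ∀ x, x ∈ Ta → x ∈ Tb → False := by
    intro x h1 h2
    rw [hTa, mem_half] at h1
    rw [hTb, mem_half] at h2
    omega
  have hcross : ∀ x y, x ∈ Ta → y ∈ Tb → G.Adj x y → x = a ∧ y = b := by
    intro x y hx hy hxy
    rw [hTa, mem_half] at hx
    rw [hTb, mem_half] at hy
    have h1 := dist_split hG hab hx.2 hy.2
    rw [SimpleGraph.dist_eq_one_iff_adj.2 hxy] at h1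
    constructor
    · exact (hG.1.dist_eq_zero_iff).1 (by omega)
    · exact ((hG.1.dist_eq_zero_iff).1 (by omega : G.dist b y = 0)).symm
  have hset : (Ta ∪ Tb).sym2.filter (fun e => e ∈ G.edgeSet) =
      insert s(a, b) ((Ta.sym2.filter (fun e => e ∈ G.edgeSet)) ∪
        (Tb.sym2.filter (fun e => e ∈ G.edgeSet))) := by
    ext e
    induction e using Sym2.ind with
    | _ x y =>
      simp only [Finset.mem_filter, Finset.mk_mem_sym2_iff, Finset.mem_insert, Finset.mem_union,
        SimpleGraph.mem_edgeSet]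
      constructor
      · rintro ⟨⟨hx | hx, hy | hy⟩, hxy⟩
        · exact Or.inr (Or.inl ⟨⟨hx, hy⟩, hxy⟩)
        · obtain ⟨rfl, rfl⟩ := hcross x y hx hy hxy
          exact Or.inl rfl
        · obtain ⟨rfl, rfl⟩ := hcross y x hy hx hxy.symm
          exact Or.inl Sym2.eq_swap
        · exact Or.inr (Or.inr ⟨⟨hx, hy⟩, hxy⟩)
      · rintro (h | ⟨⟨hx, hy⟩, hxy⟩ | ⟨⟨hx, hy⟩, hxy⟩)
        · rw [Sym2.eq_iff] at h
          rcases h with ⟨rfl, rfl⟩ | ⟨rfl, rfl⟩
          · exact ⟨⟨Or.inl haT, Or.inr hbT⟩, hab⟩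
          · exact ⟨⟨Or.inr hbT, Or.inl haT⟩, hab.symm⟩
        · exact ⟨⟨Or.inl hx, Or.inl hy⟩, hxy⟩
        · exact ⟨⟨Or.inr hx, Or.inr hy⟩, hxy⟩
  rw [hset, Finset.prod_insert, Finset.prod_union]
  · ring
  · rw [Finset.disjoint_left]
    intro e h1 h2
    induction e using Sym2.ind with
    | _ x y =>
      rw [Finset.mem_filter, Finset.mk_mem_sym2_iff] at h1 h2
      exact hdisj x h1.1.1 h2.1.1
  · intro h
    rw [Finset.mem_union, Finset.mem_filter, Finset.mem_filter, Finset.mk_mem_sym2_iff,
      Finset.mk_mem_sym2_iff] at h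
    rcases h with h | h
    · exact hdisj b h.1.2 hbT
    · exact hdisj a haT h.1.1

theorem cyl_congr (T : Finset V) {η η' : V → Bool} (h : ∀ v ∈ T, η v = η' v) :
    cyl T η = cyl T η' := by
  ext τ
  constructor
  · intro hτ v hv
    rw [hτ v hv, h v hv]
  · intro hτ v hv
    rw [hτ v hv, h v hv]

open Classical in
theorem real_inter {G : SimpleGraph V} (hG : G.IsTree) {hfin : ∀ v, (G.neighborSet v).Finite}
    {θ : ℝ} {μ : Measure (V → Bool)} (hμ : IsFreeIsing G θ μ) {a b : V} (hab : G.Adj a b) (n : ℕ)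
    (S S' : Finset V) (hS : S ⊆ half G hG.1 hfin a b n) (hS' : S' ⊆ half G hG.1 hfin b a n) :
    μ.real (cyl (half G hG.1 hfin a b n) (ind S) ∩ cyl (half G hG.1 hfin b a n) (ind S')) =
      μ.real (cyl (half G hG.1 hfin a b n) (ind S)) * μ.real (cyl (half G hG.1 hfin b a n) (ind S'))
        * (1 + θ * sg (ind S a) * sg (ind S' b)) := by
  set Ta := half G hG.1 hfin a b n with hTa
  set Tb := half G hG.1 hfin b a n with hTb
  have haT : a ∈ Ta := half_self hab
  have hbT : b ∈ Tb := half_self hab.symm
  have hdisj : ∀ x, x ∈ Ta → x ∈ Tb → False := by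
    intro x h1 h2
    rw [hTa, mem_half] at h1
    rw [hTb, mem_half] at h2
    omega
  set η : V → Bool := ind (S ∪ S') with hη
  have h1 : ∀ v ∈ Ta, ind S v = η v := by
    intro v hv
    have : v ∉ S' := fun h => hdisj v hv (hS' h)
    simp [hη, ind, this]
  have h2 : ∀ v ∈ Tb, ind S' v = η v := by
    intro v hv
    have : v ∉ S := fun h => hdisj v (hS h) hv
    simp [hη, ind, this]
  rw [cyl_congr Ta h1, cyl_congr Tb h2, h1 a haT, h2 b hbT]
  have h3 : cyl Ta η ∩ cyl Tb η = cyl (Ta ∪ Tb) η := by
    ext τ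
    constructor
    · rintro ⟨g1, g2⟩ v hv
      rcases Finset.mem_union.1 hv with h | h
      · exact g1 v h
      · exact g2 v h
    · intro g
      exact ⟨fun v hv => g v (Finset.mem_union_left _ hv),
        fun v hv => g v (Finset.mem_union_right _ hv)⟩
  rw [h3]
  have e1 := hμ.cylinder (Ta ∪ Tb) (connected_union hG hab n) η
  have e2 := hμ.cylinder Ta (connected_half hG hab n) η
  have e3 := hμ.cylinder Tb (connected_half hG hab.symm n) η
  have e4 := prod_split hG (hfin := hfin) hab n θ η
  rw [← hTa, ← hTb] at e4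
  change μ.real (cyl (Ta ∪ Tb) η) = _ at e1
  change μ.real (cyl Ta η) = _ at e2
  change μ.real (cyl Tb η) = _ at e3
  rw [e1, e2, e3, e4]
  have e5 : edgeFactor θ η s(a, b) = (1 + θ * sg (η a) * sg (η b)) / 2 := rfl
  rw [e5]
  ring

end SplitAux

open SplitAux

theorem split {G : SimpleGraph V} (hG : G.IsTree) (hfin : ∀ v, (G.neighborSet v).Finite)
    {θ : ℝ} {μ : Measure (V → Bool)} (hμ : IsFreeIsing G θ μ) {a b : V} (hab : G.Adj a b)
    (A B : Finset V) (hA : ∀ u ∈ A, G.dist u a < G.dist u b)
    (hB : ∀ u ∈ B, G.dist u b < G.dist u a) (F K : (V → Bool) → ℝ)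
    (hF : DependsOn F (A : Set V)) (hK : DependsOn K (B : Set V)) :
    ∫ τ, F τ * K τ ∂μ = (∫ τ, F τ ∂μ) * (∫ τ, K τ ∂μ) +
      θ * ((∫ τ, sg (τ a) * F τ ∂μ) * (∫ τ, sg (τ b) * K τ ∂μ)) := by
  classical
  have := hμ.prob
  set n := (A.sup fun u => G.dist u a) + (B.sup fun u => G.dist u b) with hn
  set Ta := half G hG.1 hfin a b n with hTa
  set Tb := half G hG.1 hfin b a n with hTb
  have haT : a ∈ Ta := half_self hab
  have hbT : b ∈ Tb := half_self hab.symm
  have hATa : (A : Set V) ⊆ (Ta : Set V) := by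
    intro u hu
    have hu' : u ∈ A := by exact_mod_cast hu
    have h1 : G.dist u a ≤ A.sup fun u => G.dist u a :=
      Finset.le_sup (f := fun u => G.dist u a) hu'
    have : u ∈ Ta := by
      rw [hTa, mem_half]
      exact ⟨by omega, hA u hu'⟩
    exact_mod_cast this
  have hBTb : (B : Set V) ⊆ (Tb : Set V) := by
    intro u hu
    have hu' : u ∈ B := by exact_mod_cast hu
    have h1 : G.dist u b ≤ B.sup fun u => G.dist u b :=
      Finset.le_sup (f := fun u => G.dist u b) hu'
    have : u ∈ Tb := by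
      rw [hTb, mem_half]
      exact ⟨by omega, hB u hu'⟩
    exact_mod_cast this
  have hF' : DependsOn F (Ta : Set V) := fun x y h => hF fun v hv => h v (hATa hv)
  have hK' : DependsOn K (Tb : Set V) := fun x y h => hK fun v hv => h v (hBTb hv)
  have hsF : DependsOn (fun τ : V → Bool => sg (τ a) * F τ) (Ta : Set V) := by
    intro x y h
    simp only
    rw [hF' h, h a (by exact_mod_cast haT)]
  have hsK : DependsOn (fun τ : V → Bool => sg (τ b) * K τ) (Tb : Set V) := by
    intro x y h
    simp only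
    rw [hK' h, h b (by exact_mod_cast hbT)]
  rw [integral_cyl_mul μ Ta Tb hF' hK', integral_cyl μ Ta hF', integral_cyl μ Tb hK',
    integral_cyl μ Ta hsF, integral_cyl μ Tb hsK, Finset.sum_mul_sum, Finset.sum_mul_sum,
    Finset.mul_sum, ← Finset.sum_add_distrib]
  refine Finset.sum_congr rfl fun S hS => ?_
  rw [Finset.mul_sum, ← Finset.sum_add_distrib]
  refine Finset.sum_congr rfl fun S' hS' => ?_
  rw [real_inter hG hμ hab n S S' (Finset.mem_powerset.1 hS) (Finset.mem_powerset.1 hS')]
  ring

end Vale.Agent.P161
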