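import Vale.Agent.P161.Defs
import Vale.Agent.P161.TreeDist
import Vale.Agent.P161.Split

/-!
# Decay of covariances of tilted Ising measures on trees
-/

open MeasureTheory Set Filter Topology
open scoped unitInterval ENNReal

namespace Vale.Agent.P161

universe u

variable {V : Type u}

namespace CovAux

lemma sg_mul_self (b : Bool) : sg b * sg b = 1 := by cases b <;> simp [sg]

lemma abs_sg (b : Bool) : |sg b| = 1 := by cases b <;> simp [sg]

lemma measurable_sg : Measurable sg := measurable_from_top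

lemma measurable_sgv (v : V) : Measurable (fun τ : V → Bool => sg (τ v)) :=
  measurable_sg.comp (measurable_pi_apply v)

lemma wt_pos (D : Finset V) (Y : V → ℝ) (τ : V → Bool) : 0 < wt D Y τ := Real.exp_pos _

lemma measurable_wt (D : Finset V) (Y : V → ℝ) : Measurable (wt D Y) := by
  unfold wt
  exact Real.measurable_exp.comp
    (Finset.measurable_sum _ fun w _ => (measurable_sgv w).const_mul (Y w))

lemma wt_le (D : Finset V) (Y : V → ℝ) (τ : V → Bool) : wt D Y τ ≤ Real.exp (∑ w ∈ D, |Y w|) := by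
  unfold wt
  refine Real.exp_le_exp.2 (Finset.sum_le_sum fun w _ => ?_)
  refine (le_abs_self _).trans ?_
  rw [abs_mul, abs_sg, mul_one]

lemma le_wt (D : Finset V) (Y : V → ℝ) (τ : V → Bool) :
    Real.exp (-∑ w ∈ D, |Y w|) ≤ wt D Y τ := by
  unfold wt
  refine Real.exp_le_exp.2 ?_
  rw [← Finset.sum_neg_distrib]
  refine Finset.sum_le_sum fun w _ => ?_
  refine le_trans ?_ (neg_abs_le _)
  rw [abs_mul, abs_sg, mul_one]

lemma integrable_mul_wt (μ : Measure (V → Bool)) [IsProbabilityMeasure μ] (D : Finset V)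
    (Y : V → ℝ) {F : (V → Bool) → ℝ} (hF : Measurable F) (hb : ∀ τ, |F τ| ≤ 1) :
    Integrable (fun τ => F τ * wt D Y τ) μ := by
  refine Integrable.of_bound (hF.mul (measurable_wt D Y)).aestronglyMeasurable
    (Real.exp (∑ w ∈ D, |Y w|)) (Eventually.of_forall fun τ => ?_)
  rw [Real.norm_eq_abs, abs_mul, abs_of_pos (wt_pos D Y τ)]
  calc |F τ| * wt D Y τ ≤ 1 * wt D Y τ := mul_le_mul_of_nonneg_right (hb τ) (wt_pos D Y τ).le
    _ ≤ _ := by rw [one_mul]; exact wt_le D Y τ

lemma integrable_wt (μ : Measure (V → Bool)) [IsProbabilityMeasure μ] (D : Finset V)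
    (Y : V → ℝ) : Integrable (wt D Y) μ := by
  have := integrable_mul_wt μ D Y (F := fun _ => 1) measurable_const (by simp)
  simpa using this

lemma Zf_pos (μ : Measure (V → Bool)) [IsProbabilityMeasure μ] (D : Finset V) (Y : V → ℝ) :
    0 < Zf μ D Y := by
  unfold Zf
  have h : ∫ _, Real.exp (-∑ w ∈ D, |Y w|) ∂μ ≤ ∫ τ, wt D Y τ ∂μ :=
    integral_mono (integrable_const _) (integrable_wt μ D Y) (fun τ => le_wt D Y τ)
  simp only [integral_const, probReal_univ, smul_eq_mul, one_mul] at h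
  exact (Real.exp_pos _).trans_le h

lemma abs_tilt_le (μ : Measure (V → Bool)) [IsProbabilityMeasure μ] (D : Finset V) (Y : V → ℝ)
    {F : (V → Bool) → ℝ} (hF : Measurable F) (hb : ∀ τ, |F τ| ≤ 1) : |tilt μ D Y F| ≤ 1 := by
  unfold tilt
  rw [abs_div, abs_of_pos (Zf_pos μ D Y), div_le_one (Zf_pos μ D Y)]
  unfold Zf
  refine (abs_integral_le_integral_abs).trans (integral_mono (integrable_mul_wt μ D Y hF hb).abs
    (integrable_wt μ D Y) fun τ => ?_)
  show |F τ * wt D Y τ| ≤ wt D Y τ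
  rw [abs_mul, abs_of_pos (wt_pos D Y τ)]
  calc |F τ| * wt D Y τ ≤ 1 * wt D Y τ := mul_le_mul_of_nonneg_right (hb τ) (wt_pos D Y τ).le
    _ = _ := one_mul _

lemma abs_mean_le (μ : Measure (V → Bool)) [IsProbabilityMeasure μ] (D : Finset V) (v : V)
    (Y : V → ℝ) : |mean μ D v Y| ≤ 1 :=
  abs_tilt_le μ D Y (measurable_sgv v) (fun τ => (abs_sg _).le)

lemma dependsOn_wt (D : Finset V) (Y : V → ℝ) : DependsOn (wt D Y) (D : Set V) := by
  intro x y h
  unfold wt
  congr 1
  exact Finset.sum_congr rfl fun w hw => by rw [h w hw]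

lemma dependsOn_sg_mul [DecidableEq V] (D : Finset V) (Y : V → ℝ) (v : V) :
    DependsOn (fun τ => sg (τ v) * wt D Y τ) ((insert v D : Finset V) : Set V) := by
  intro x y h
  have h1 : wt D Y x = wt D Y y := dependsOn_wt D Y fun w hw => h w (by simp_all)
  have h2 : x v = y v := h v (by simp)
  simp only [h1, h2]

lemma dependsOn_sg_sg_mul [DecidableEq V] (D : Finset V) (Y : V → ℝ) (v w : V) :
    DependsOn (fun τ => sg (τ v) * sg (τ w) * wt D Y τ)
      ((insert v (insert w D) : Finset V) : Set V) := by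
  intro x y h
  have h1 : wt D Y x = wt D Y y := dependsOn_wt D Y fun w hw => h w (by simp_all)
  have h2 : x v = y v := h v (by simp)
  have h3 : x w = y w := h w (by simp)
  simp only [h1, h2, h3]

lemma wt_split [DecidableEq V] (D : Finset V) (P : V → Prop) [DecidablePred P] (Y : V → ℝ)
    (τ : V → Bool) : wt D Y τ = wt (D.filter P) Y τ * wt (D.filter fun x => ¬ P x) Y τ := by
  unfold wt
  rw [← Real.exp_add, Finset.sum_filter_add_sum_filter_not]

/-- the algebraic heart -/
lemma alg {θ α β p q : ℝ} (hθ0 : 0 ≤ θ) (hθ1 : θ < 1) (hα : |α| ≤ 1) (hβ : |β| ≤ 1) {t : ℝ}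
    (ht : 0 ≤ t) (hq : |q - p * α| ≤ t * (1 - α ^ 2)) :
    |(p * β + θ * q) / (1 + θ * α * β) -
      (p + θ * q * β) / (1 + θ * α * β) * ((β + θ * α) / (1 + θ * α * β))| ≤
      (t * θ) * (1 - ((β + θ * α) / (1 + θ * α * β)) ^ 2) := by
  have ha := abs_le.1 hα
  have hb := abs_le.1 hβ
  have hαβ : |α * β| ≤ 1 := by
    rw [abs_mul]; nlinarith [abs_nonneg α, abs_nonneg β]
  have hab := abs_le.1 hαβ
  have hpos : 0 < 1 + θ * α * β := by nlinarith
  have hne : (1 + θ * α * β) ≠ 0 := hpos.ne'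
  have e1 : (p * β + θ * q) / (1 + θ * α * β) -
      (p + θ * q * β) / (1 + θ * α * β) * ((β + θ * α) / (1 + θ * α * β)) =
      θ * (1 - β ^ 2) * (q - p * α) / (1 + θ * α * β) ^ 2 := by
    field_simp
    ring
  have e2 : (t * θ) * (1 - ((β + θ * α) / (1 + θ * α * β)) ^ 2) =
      t * θ * (1 - β ^ 2) * (1 - θ ^ 2 * α ^ 2) / (1 + θ * α * β) ^ 2 := by
    have h2 : (1 + θ * α * β) ^ 2 ≠ 0 := pow_ne_zero 2 hne
    rw [div_pow, eq_div_iff h2, mul_assoc, sub_mul, div_mul_cancel₀ _ h2]
    ring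
  have hβ2 : 0 ≤ 1 - β ^ 2 := by nlinarith
  have hα2 : 0 ≤ 1 - α ^ 2 := by nlinarith
  rw [e1, e2, abs_div, abs_of_pos (pow_pos hpos 2)]
  refine div_le_div_of_nonneg_right ?_ (pow_pos hpos 2).le
  rw [abs_mul, abs_mul, abs_of_nonneg hθ0, abs_of_nonneg hβ2]
  have h3 : 1 - α ^ 2 ≤ 1 - θ ^ 2 * α ^ 2 := by
    have : θ ^ 2 * α ^ 2 ≤ 1 * α ^ 2 := by
      apply mul_le_mul_of_nonneg_right _ (sq_nonneg _)
      nlinarith
    linarith
  calc θ * (1 - β ^ 2) * |q - p * α| ≤ θ * (1 - β ^ 2) * (t * (1 - α ^ 2)) :=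
        mul_le_mul_of_nonneg_left hq (mul_nonneg hθ0 hβ2)
    _ ≤ θ * (1 - β ^ 2) * (t * (1 - θ ^ 2 * α ^ 2)) := by
        apply mul_le_mul_of_nonneg_left _ (mul_nonneg hθ0 hβ2)
        exact mul_le_mul_of_nonneg_left h3 ht
    _ = _ := by ring

lemma sinh_le_mul_cosh {x : ℝ} (hx : 0 ≤ x) : Real.sinh x ≤ x * Real.cosh x := by
  have h : MonotoneOn (fun x : ℝ => x * Real.cosh x - Real.sinh x) (Set.Ici 0) := by
    apply monotoneOn_of_deriv_nonneg (convex_Ici 0)
    · fun_prop
    · fun_prop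
    · intro y hy
      rw [interior_Ici] at hy
      have hd : HasDerivAt (fun x : ℝ => x * Real.cosh x - Real.sinh x)
          (1 * Real.cosh y + y * Real.sinh y - Real.cosh y) y :=
        ((hasDerivAt_id y).mul (Real.hasDerivAt_cosh y)).sub (Real.hasDerivAt_sinh y)
      rw [hd.deriv]
      have : 0 ≤ Real.sinh y := Real.sinh_nonneg_iff.2 (le_of_lt hy)
      have hy' : 0 < y := hy
      nlinarith [mul_nonneg hy'.le this]
  have := h (Set.mem_Ici.2 le_rfl) (Set.mem_Ici.2 hx) hx
  simp at this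
  linarith

lemma abs_sinh_le (x : ℝ) : |Real.sinh x| ≤ |x| * Real.cosh x := by
  rcases le_total 0 x with h | h
  · rw [abs_of_nonneg (Real.sinh_nonneg_iff.2 h), abs_of_nonneg h]
    exact sinh_le_mul_cosh h
  · rw [abs_of_nonpos (Real.sinh_nonpos_iff.2 h), abs_of_nonpos h]
    have := sinh_le_mul_cosh (x := -x) (by linarith)
    rwa [Real.sinh_neg, Real.cosh_neg] at this

lemma exp_mul_sg (δ : ℝ) (b : Bool) :
    Real.exp (δ * sg b) = Real.cosh δ + Real.sinh δ * sg b := by
  cases b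
  · have := Real.cosh_sub_sinh δ
    simp [sg]
    linarith
  · have := Real.cosh_add_sinh δ
    simp [sg]

/-- covariance bound, by induction on the distance -/
lemma cov_aux {G : SimpleGraph V} (hG : G.IsTree) (hfin : ∀ v, (G.neighborSet v).Finite)
    {θ : ℝ} (hθ0 : 0 ≤ θ) (hθ1 : θ < 1) {μ : Measure (V → Bool)} (hμ : IsFreeIsing G θ μ)
    (Y : V → ℝ) (v : V) (n : ℕ) : ∀ (D : Finset V) (w : V), G.dist v w = n →
    |tilt μ D Y (fun τ => sg (τ v) * sg (τ w)) - mean μ D v Y * mean μ D w Y| ≤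
      θ ^ n * (1 - mean μ D w Y ^ 2) := by
  classical
  have := hμ.prob
  induction n with
  | zero =>
    intro D w hvw
    have : v = w := (hG.1.dist_eq_zero_iff).1 hvw
    subst this
    have h1 : tilt μ D Y (fun τ => sg (τ v) * sg (τ v)) = 1 := by
      unfold tilt
      simp_rw [sg_mul_self, one_mul]
      exact div_self (Zf_pos μ D Y).ne'
    have h2 := abs_le.1 (abs_mean_le μ D v Y)
    rw [h1, pow_zero, one_mul, abs_of_nonneg]
    · nlinarith
    · nlinarith
  | succ n ih =>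
    intro D w hvw
    obtain ⟨a, haw, hva⟩ := TreeAux.exists_adj_dist hG.1 hvw
    set Da := D.filter (fun u => G.dist u a < G.dist u w) with hDa
    set Dw := D.filter (fun u => ¬ G.dist u a < G.dist u w) with hDw
    have hwt : ∀ τ, wt D Y τ = wt Da Y τ * wt Dw Y τ := fun τ => wt_split D _ Y τ
    have hA : ∀ u ∈ insert v (insert a Da), G.dist u a < G.dist u w := by
      intro u hu
      simp only [Finset.mem_insert, hDa, Finset.mem_filter] at hu
      rcases hu with rfl | rfl | hu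
      · rw [hva, hvw]; exact Nat.lt_succ_self n
      · rw [SimpleGraph.dist_self]
        exact (hG.1.pos_dist_of_ne haw.ne)
      · exact hu.2
    have hB : ∀ u ∈ insert w (insert w Dw), G.dist u w < G.dist u a := by
      intro u hu
      simp only [Finset.mem_insert, hDw, Finset.mem_filter] at hu
      rcases hu with rfl | rfl | hu
      · rw [SimpleGraph.dist_self]
        exact (hG.1.pos_dist_of_ne haw.ne')
      · rw [SimpleGraph.dist_self]
        exact (hG.1.pos_dist_of_ne haw.ne')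
      · exact (dist_lt_or_gt hG haw u).resolve_left hu.2
    -- dependence
    have dmono : ∀ {F : (V → Bool) → ℝ} {S T : Finset V}, S ⊆ T → DependsOn F (S : Set V) →
        DependsOn F (T : Set V) := fun h hF x y hxy => hF fun i hi => hxy i (h hi)
    have hWa : DependsOn (wt Da Y) ((insert v (insert a Da) : Finset V) : Set V) :=
      dmono (by intro x hx; simp [hx]) (dependsOn_wt Da Y)
    have hWw : DependsOn (wt Dw Y) ((insert w (insert w Dw) : Finset V) : Set V) :=
      dmono (by intro x hx; simp [hx]) (dependsOn_wt Dw Y)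
    have hvWa : DependsOn (fun τ => sg (τ v) * wt Da Y τ)
        ((insert v (insert a Da) : Finset V) : Set V) :=
      dmono (by intro x hx; simp at hx ⊢; tauto) (dependsOn_sg_mul Da Y v)
    have hwWw : DependsOn (fun τ => sg (τ w) * wt Dw Y τ)
        ((insert w (insert w Dw) : Finset V) : Set V) :=
      dmono (by intro x hx; simp at hx ⊢; tauto) (dependsOn_sg_mul Dw Y w)
    -- the four integrals
    set Za := Zf μ Da Y with hZa
    set Zw := Zf μ Dw Y with hZw
    have hZa0 : 0 < Za := Zf_pos μ Da Y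
    have hZw0 : 0 < Zw := Zf_pos μ Dw Y
    set α := mean μ Da a Y with hα
    set β := mean μ Dw w Y with hβ
    set p := mean μ Da v Y with hp
    set q := tilt μ Da Y (fun τ => sg (τ v) * sg (τ a)) with hq
    have ea : ∫ τ, sg (τ a) * wt Da Y τ ∂μ = Za * α := by
      rw [hα]; unfold mean tilt; rw [mul_div_cancel₀ _ hZa0.ne']
    have ew : ∫ τ, sg (τ w) * wt Dw Y τ ∂μ = Zw * β := by
      rw [hβ]; unfold mean tilt; rw [mul_div_cancel₀ _ hZw0.ne']
    have ep : ∫ τ, sg (τ v) * wt Da Y τ ∂μ = Za * p := by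
      rw [hp]; unfold mean tilt; rw [mul_div_cancel₀ _ hZa0.ne']
    have eq : ∫ τ, sg (τ v) * sg (τ a) * wt Da Y τ ∂μ = Za * q := by
      rw [hq]; unfold tilt; rw [mul_div_cancel₀ _ hZa0.ne']
    have hss : ∀ τ : V → Bool, sg (τ a) * (sg (τ v) * wt Da Y τ) =
        sg (τ v) * sg (τ a) * wt Da Y τ := fun τ => by ring
    have hww : ∀ τ : V → Bool, sg (τ w) * (sg (τ w) * wt Dw Y τ) = wt Dw Y τ := fun τ => by
      rw [← mul_assoc, sg_mul_self, one_mul]
    have hZ : Zf μ D Y = Za * Zw * (1 + θ * α * β) := by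
      have := split hG hfin hμ haw _ _ hA hB _ _ hWa hWw
      rw [ea, ew] at this
      show ∫ τ, wt D Y τ ∂μ = _
      simp_rw [hwt]
      rw [this]
      show Za * Zw + θ * (Za * α * (Zw * β)) = _
      ring
    have hV : ∫ τ, sg (τ v) * wt D Y τ ∂μ = Za * Zw * (p + θ * q * β) := by
      have := split hG hfin hμ haw _ _ hA hB _ _ hvWa hWw
      simp_rw [hss] at this
      rw [ep, ew, eq] at this
      simp_rw [hwt, ← mul_assoc]
      rw [this]
      show Za * p * Zw + θ * (Za * q * (Zw * β)) = _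
      ring
    have hW : ∫ τ, sg (τ w) * wt D Y τ ∂μ = Za * Zw * (β + θ * α) := by
      have := split hG hfin hμ haw _ _ hA hB _ _ hWa hwWw
      simp_rw [hww] at this
      rw [ea, ew] at this
      have e : ∀ τ : V → Bool, sg (τ w) * wt D Y τ = wt Da Y τ * (sg (τ w) * wt Dw Y τ) :=
        fun τ => by rw [hwt]; ring
      simp_rw [e]
      rw [this]
      show Za * (Zw * β) + θ * (Za * α * Zw) = _
      ring
    have hVW : ∫ τ, sg (τ v) * sg (τ w) * wt D Y τ ∂μ = Za * Zw * (p * β + θ * q) := by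
      have := split hG hfin hμ haw _ _ hA hB _ _ hvWa hwWw
      simp_rw [hww, hss] at this
      rw [ep, ew, eq] at this
      have e : ∀ τ : V → Bool, sg (τ v) * sg (τ w) * wt D Y τ =
          sg (τ v) * wt Da Y τ * (sg (τ w) * wt Dw Y τ) :=
        fun τ => by rw [hwt]; ring
      simp_rw [e]
      rw [this]
      show Za * p * (Zw * β) + θ * (Za * q * Zw) = _
      ring
    have hne : Za * Zw ≠ 0 := (mul_pos hZa0 hZw0).ne'
    have m1 : tilt μ D Y (fun τ => sg (τ v) * sg (τ w)) = (p * β + θ * q) / (1 + θ * α * β) := by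
      unfold tilt
      rw [hVW, hZ, mul_div_mul_left _ _ hne]
    have m2 : mean μ D v Y = (p + θ * q * β) / (1 + θ * α * β) := by
      unfold mean tilt
      rw [hV, hZ, mul_div_mul_left _ _ hne]
    have m3 : mean μ D w Y = (β + θ * α) / (1 + θ * α * β) := by
      unfold mean tilt
      rw [hW, hZ, mul_div_mul_left _ _ hne]
    rw [m1, m2, m3, pow_succ]
    exact alg hθ0 hθ1 (abs_mean_le μ Da a Y) (abs_mean_le μ Dw w Y) (pow_nonneg hθ0 n)
      (ih Da a hva)

end CovAux

open CovAux in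
theorem cov_bound {G : SimpleGraph V} (hG : G.IsTree) (hfin : ∀ v, (G.neighborSet v).Finite)
    {θ : ℝ} (hθ0 : 0 ≤ θ) (hθ1 : θ < 1) {μ : Measure (V → Bool)} (hμ : IsFreeIsing G θ μ)
    (D : Finset V) (Y : V → ℝ) (v w : V) :
    |tilt μ D Y (fun τ => sg (τ v) * sg (τ w)) - mean μ D v Y * mean μ D w Y| ≤
      θ ^ G.dist v w * (1 - mean μ D w Y ^ 2) :=
  cov_aux hG hfin hθ0 hθ1 hμ Y v _ D w rfl

namespace CovAux

/-- changing one field -/
lemma mean_lip_one [DecidableEq V] {G : SimpleGraph V} (hG : G.IsTree)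
    (hfin : ∀ v, (G.neighborSet v).Finite)
    {θ : ℝ} (hθ0 : 0 ≤ θ) (hθ1 : θ < 1) {μ : Measure (V → Bool)} (hμ : IsFreeIsing G θ μ)
    (D : Finset V) (v w : V) (hw : w ∈ D) (Y : V → ℝ) (y : ℝ) :
    |mean μ D v Y - mean μ D v (Function.update Y w y)| ≤ 2 * θ ^ G.dist v w * |Y w - y| := by
  have := hμ.prob
  set δ := y - Y w with hδ
  set Y' := Function.update Y w y with hY'
  have hwt : ∀ τ, wt D Y' τ = Real.cosh δ * wt D Y τ + Real.sinh δ * (sg (τ w) * wt D Y τ) := by
    intro τ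
    have h1 : wt D Y' τ = wt D Y τ * Real.exp (δ * sg (τ w)) := by
      unfold wt
      rw [← Real.exp_add]
      congr 1
      rw [← Finset.add_sum_erase D _ hw, ← Finset.add_sum_erase D _ hw]
      have : ∑ x ∈ D.erase w, Y' x * sg (τ x) = ∑ x ∈ D.erase w, Y x * sg (τ x) :=
        Finset.sum_congr rfl fun x hx => by
          rw [hY', Function.update_of_ne (Finset.ne_of_mem_erase hx)]
      rw [this, hY', Function.update_self]
      ring
    rw [h1, exp_mul_sg]
    ring
  set mv := mean μ D v Y with hmv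
  set mw := mean μ D w Y with hmw
  set c := tilt μ D Y (fun τ => sg (τ v) * sg (τ w)) with hc
  set Z := Zf μ D Y with hZ
  have hZ0 : 0 < Z := Zf_pos μ D Y
  have ev : ∫ τ, sg (τ v) * wt D Y τ ∂μ = Z * mv := by
    rw [hmv]; unfold mean tilt; rw [mul_div_cancel₀ _ hZ0.ne']
  have ew : ∫ τ, sg (τ w) * wt D Y τ ∂μ = Z * mw := by
    rw [hmw]; unfold mean tilt; rw [mul_div_cancel₀ _ hZ0.ne']
  have ec : ∫ τ, sg (τ v) * sg (τ w) * wt D Y τ ∂μ = Z * c := by
    rw [hc]; unfold tilt; rw [mul_div_cancel₀ _ hZ0.ne']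
  have iw := integrable_mul_wt μ D Y (measurable_sgv w) (fun τ => (abs_sg _).le)
  have iv := integrable_mul_wt μ D Y (measurable_sgv v) (fun τ => (abs_sg _).le)
  have ivw := integrable_mul_wt μ D Y (F := fun τ => sg (τ v) * sg (τ w))
    ((measurable_sgv v).mul (measurable_sgv w))
    (fun τ => by rw [abs_mul, abs_sg, abs_sg, one_mul])
  have hZ' : Zf μ D Y' = Z * (Real.cosh δ + Real.sinh δ * mw) := by
    show ∫ τ, wt D Y' τ ∂μ = _
    simp_rw [hwt]
    rw [integral_add ((integrable_wt μ D Y).const_mul _) (iw.const_mul _), integral_const_mul,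
      integral_const_mul, ew]
    show Real.cosh δ * Z + Real.sinh δ * (Z * mw) = _
    ring
  have hN' : ∫ τ, sg (τ v) * wt D Y' τ ∂μ = Z * (Real.cosh δ * mv + Real.sinh δ * c) := by
    have e : ∀ τ : V → Bool, sg (τ v) * wt D Y' τ = Real.cosh δ * (sg (τ v) * wt D Y τ) +
        Real.sinh δ * (sg (τ v) * sg (τ w) * wt D Y τ) := fun τ => by rw [hwt]; ring
    simp_rw [e]
    rw [integral_add (iv.const_mul _) (ivw.const_mul _), integral_const_mul,
      integral_const_mul, ev, ec]
    ring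
  have hm' : mean μ D v Y' = (Real.cosh δ * mv + Real.sinh δ * c) /
      (Real.cosh δ + Real.sinh δ * mw) := by
    unfold mean tilt
    rw [hN', hZ', mul_div_mul_left _ _ hZ0.ne']
  have hpos : 0 < Real.cosh δ + Real.sinh δ * mw := by
    have := Zf_pos μ D Y'
    rw [hZ'] at this
    exact (pos_iff_pos_of_mul_pos this).1 hZ0
  have hcov := cov_bound hG hfin hθ0 hθ1 hμ D Y v w
  rw [← hc, ← hmv, ← hmw] at hcov
  have hmw1 := abs_le.1 (abs_mean_le μ D w Y)
  rw [← hmw] at hmw1
  have hch : 0 < Real.cosh δ := Real.cosh_pos δ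
  have hsh := abs_sinh_le δ
  have hshch : |Real.sinh δ| ≤ Real.cosh δ := by
    rw [abs_le]
    have h1 := Real.cosh_add_sinh δ
    have h2 := Real.cosh_sub_sinh δ
    have h3 := Real.exp_pos δ
    have h4 := Real.exp_pos (-δ)
    constructor <;> linarith
  have key : Real.cosh δ * (1 - mw ^ 2) ≤ 2 * (Real.cosh δ + Real.sinh δ * mw) := by
    have h5 := abs_le.1 hshch
    have h6 : -(Real.cosh δ * |mw|) ≤ Real.sinh δ * mw := by
      have : |Real.sinh δ * mw| ≤ Real.cosh δ * |mw| := by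
        rw [abs_mul]; exact mul_le_mul_of_nonneg_right hshch (abs_nonneg _)
      exact (abs_le.1 this).1
    have h7 : |mw| ≤ 1 := abs_le.2 hmw1
    have h8 : mw ^ 2 = |mw| ^ 2 := (sq_abs mw).symm
    rw [h8]
    nlinarith [abs_nonneg mw, mul_nonneg hch.le (sub_nonneg.2 h7),
      mul_nonneg hch.le (mul_nonneg (sub_nonneg.2 h7) (sub_nonneg.2 h7))]
  have ediff : mv - (Real.cosh δ * mv + Real.sinh δ * c) / (Real.cosh δ + Real.sinh δ * mw) =
      -(Real.sinh δ * (c - mv * mw)) / (Real.cosh δ + Real.sinh δ * mw) := by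
    rw [eq_div_iff hpos.ne', sub_mul, div_mul_cancel₀ _ hpos.ne']
    ring
  rw [hm', ediff, abs_div, abs_of_pos hpos, div_le_iff₀ hpos, abs_neg, abs_mul]
  have hδ' : |Y w - y| = |δ| := by rw [hδ, abs_sub_comm]
  rw [hδ']
  have hθn : 0 ≤ θ ^ G.dist v w := pow_nonneg hθ0 _
  have hv2 : 0 ≤ 1 - mw ^ 2 := by nlinarith
  calc |Real.sinh δ| * |c - mv * mw|
      ≤ (|δ| * Real.cosh δ) * (θ ^ G.dist v w * (1 - mw ^ 2)) :=
        mul_le_mul hsh hcov (abs_nonneg _) (by positivity)
    _ = (θ ^ G.dist v w * |δ|) * (Real.cosh δ * (1 - mw ^ 2)) := by ring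
    _ ≤ (θ ^ G.dist v w * |δ|) * (2 * (Real.cosh δ + Real.sinh δ * mw)) :=
        mul_le_mul_of_nonneg_left key (mul_nonneg hθn (abs_nonneg _))
    _ = _ := by ring

end CovAux

open CovAux in
theorem mean_lip {G : SimpleGraph V} (hG : G.IsTree) (hfin : ∀ v, (G.neighborSet v).Finite)
    {θ : ℝ} (hθ0 : 0 ≤ θ) (hθ1 : θ < 1) {μ : Measure (V → Bool)} (hμ : IsFreeIsing G θ μ)
    (D : Finset V) (v : V) (Y Y' : V → ℝ) :
    |mean μ D v Y - mean μ D v Y'| ≤ ∑ w ∈ D, 2 * θ ^ G.dist v w * |Y w - Y' w| := by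
  classical
  have key : ∀ S : Finset V, S ⊆ D →
      |mean μ D v Y - mean μ D v (fun w => if w ∈ S then Y' w else Y w)| ≤
        ∑ w ∈ S, 2 * θ ^ G.dist v w * |Y w - Y' w| := by
    intro S
    induction S using Finset.induction_on with
    | empty => intro _; simp
    | insert w S hwS ih =>
      intro hS
      have h1 := ih ((Finset.subset_insert _ _).trans hS)
      have hwD : w ∈ D := hS (Finset.mem_insert_self _ _)
      have h2 := mean_lip_one hG hfin hθ0 hθ1 hμ D v w hwD
        (fun u => if u ∈ S then Y' u else Y u) (Y' w)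
      have e : Function.update (fun u => if u ∈ S then Y' u else Y u) w (Y' w) =
          fun u => if u ∈ insert w S then Y' u else Y u := by
        funext u
        by_cases hu : u = w
        · subst hu; simp
        · rw [Function.update_of_ne hu]
          simp [hu]
      rw [e] at h2
      simp only [hwS, if_false] at h2
      rw [Finset.sum_insert hwS]
      calc _ ≤ _ := abs_sub_le _ (mean μ D v (fun u => if u ∈ S then Y' u else Y u)) _
        _ ≤ _ := by linarith
  have h := key D subset_rfl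
  have e : mean μ D v (fun w => if w ∈ D then Y' w else Y w) = mean μ D v Y' := by
    have : wt D (fun w => if w ∈ D then Y' w else Y w) = wt D Y' := by
      funext τ
      unfold wt
      congr 1
      exact Finset.sum_congr rfl fun w hw => by simp [hw]
    unfold mean tilt Zf
    rw [this]
  rwa [e] at h

end Vale.Agent.P161
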