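import Vale.Agent.P161.Law

/-!
# Decoding the configuration from the signals
-/

open MeasureTheory Set Filter Topology ProbabilityTheory
open scoped unitInterval ENNReal

namespace Vale.Agent.P161

universe u

variable {V : Type u}

/-- The mean of a signal. -/
theorem integral_half_sub_sig {s : ℝ} (hs : |s| ≤ 1 / 5) :
    ∫ t : I, (1 / 2 - (sig s t : ℝ)) = s / 6 := by
  have hm : Measurable (sig s) := measurable_sig.of_uncurry_left
  have h1 : ∫ t : I, (1 / 2 - (sig s t : ℝ)) =
      ∫ z, (1 / 2 - (z : ℝ)) ∂(Measure.map (sig s) (volume : Measure I)) := by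
    rw [integral_map hm.aemeasurable]
    exact (measurable_const.sub measurable_subtype_coe).aestronglyMeasurable
  rw [h1, map_sig hs, integral_withDensity_eq_integral_toReal_smul (by fun_prop)
    (ae_of_all _ fun _ => ENNReal.ofReal_lt_top)]
  have h2 : ∀ z : I, (ENNReal.ofReal (1 + s * (1 - 2 * (z : ℝ)))).toReal • (1 / 2 - (z : ℝ)) =
      (1 + s * (1 - 2 * (z : ℝ))) * (1 / 2 - z) := by
    intro z
    rw [smul_eq_mul, ENNReal.toReal_ofReal]
    have h3 : |s * (1 - 2 * (z : ℝ))| ≤ 1 / 5 := by
      rw [abs_mul]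
      have : |1 - 2 * (z : ℝ)| ≤ 1 := by
        rw [abs_le]; constructor <;> linarith [z.2.1, z.2.2]
      calc |s| * |1 - 2 * (z : ℝ)| ≤ 1 / 5 * 1 := by gcongr
        _ = 1 / 5 := by ring
    have := (abs_le.mp h3).1
    linarith
  simp_rw [h2]
  have h4 : ∫ z : I, (1 + s * (1 - 2 * (z : ℝ))) * (1 / 2 - z) =
      ∫ t in (0:ℝ)..1, (1 + s * (1 - 2 * t)) * (1 / 2 - t) := by
    rw [intervalIntegral.integral_of_le zero_le_one, ← integral_Icc_eq_integral_Ioc]
    exact (unitInterval.measurePreserving_coe.integral_comp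
      unitInterval.measurableEmbedding_coe (fun t : ℝ => (1 + s * (1 - 2 * t)) * (1 / 2 - t)))
  rw [h4]
  have h5 : ∀ t ∈ Set.uIcc (0 : ℝ) 1, HasDerivAt
      (fun t => (t / 2 - t ^ 2 / 2) + s * (t / 2 - t ^ 2 + 2 * t ^ 3 / 3))
      ((1 + s * (1 - 2 * t)) * (1 / 2 - t)) t := by
    intro t _
    have d1 := (hasDerivAt_id' t)
    have d2 := (hasDerivAt_id' t).pow 2
    have d3 := (hasDerivAt_id' t).pow 3
    have := ((d1.div_const 2).sub (d2.div_const 2)).add
      ((((d1.div_const 2).sub d2).add ((d3.const_mul 2).div_const 3)).const_mul s)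
    refine this.congr_deriv ?_
    norm_num
    ring
  rw [intervalIntegral.integral_eq_sub_of_hasDerivAt h5]
  · norm_num
    ring
  · exact (by fun_prop : Continuous fun t : ℝ =>
      (1 + s * (1 - 2 * t)) * (1 / 2 - t)).intervalIntegrable _ _

/-- The averages of the signals at `v`. -/
noncomputable def avs (x : ℕ × V → I) (v : V) (n : ℕ) : ℝ :=
  (∑ i ∈ Finset.range n, (1 / 2 - (x (i, v) : ℝ))) / n

theorem ae_avs {a : ℝ} (ha0 : 0 ≤ a) (ha : a ≤ 1 / 5) (τ : V → Bool) (v : V) :
    ∀ᵐ w ∂(iid (ℕ × V)), Tendsto (fun n => avs (xs a (τ, w)) v n) atTop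
      (𝓝 (a * sg (τ v) / 6)) := by
  set s := a * sg (τ v) with hs
  have hs5 : |s| ≤ 1 / 5 := abs_a_sg_le ha0 ha _
  have hm : Measurable (fun t : I => 1 / 2 - (sig s t : ℝ)) :=
    measurable_const.sub (measurable_subtype_coe.comp measurable_sig.of_uncurry_left)
  have hb : ∀ t : I, |1 / 2 - (sig s t : ℝ)| ≤ 1 := fun t => by
    rw [abs_le]; constructor <;> linarith [(sig s t).2.1, (sig s t).2.2]
  set X : ℕ → (ℕ × V → I) → ℝ := fun k w => 1 / 2 - (sig s (w (k, v)) : ℝ) with hX
  have hXm : ∀ k, Measurable (X k) := fun k => hm.comp (measurable_pi_apply (k, v))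
  have hmarg : ∀ j : ℕ × V, Measure.map (fun w : ℕ × V → I => w j) (iid (ℕ × V)) =
      (volume : Measure I) := fun j => (measurePreserving_eval_infinitePi _ j).map_eq
  have h := strong_law_ae_real (μ := iid (ℕ × V)) X
    (Integrable.of_bound (hXm 0).aestronglyMeasurable 1 (ae_of_all _ fun w => hb _)) ?_ ?_
  · filter_upwards [h] with w hw
    have e : ∫ w, X 0 w ∂(iid (ℕ × V)) = s / 6 := by
      rw [← integral_half_sub_sig hs5, ← hmarg (0, v),
        integral_map (measurable_pi_apply (0, v)).aemeasurable hm.aestronglyMeasurable]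
    rw [e] at hw
    exact hw
  · intro k l hkl
    have h1 := iIndepFun_infinitePi (P := fun _ : ℕ × V => (volume : Measure I))
      (X := fun _ t => 1 / 2 - (sig s t : ℝ)) (fun _ => hm)
    exact h1.indepFun (i := (k, v)) (j := (l, v)) (fun h => hkl (Prod.mk.inj h).1)
  · intro k
    refine ⟨(hXm k).aemeasurable, (hXm 0).aemeasurable, ?_⟩
    have e : ∀ k, Measure.map (X k) (iid (ℕ × V)) =
        Measure.map (fun t : I => 1 / 2 - (sig s t : ℝ)) (volume : Measure I) := by
      intro k
      have hev : Measurable (fun w : ℕ × V → I => w (k, v)) := measurable_pi_apply (k, v)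
      rw [← hmarg (k, v), Measure.map_map hm hev]
      rfl
    rw [e k, e 0]

theorem measurable_avs (v : V) (n : ℕ) : Measurable (fun x : ℕ × V → I => avs x v n) := by
  unfold avs
  refine Measurable.div_const ?_ _
  exact Finset.measurable_fun_sum _ fun i _ =>
    measurable_const.sub (measurable_subtype_coe.comp (measurable_pi_apply _))

open Classical in
/-- The decoder. -/
noncomputable def dec (x : ℕ × V → I) (v : V) : Bool :=
  decide (0 < limsup (fun n => avs x v n) atTop)

theorem measurable_dec : Measurable (dec (V := V)) := by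
  rw [measurable_pi_iff]
  intro v
  have h : Measurable (fun x : ℕ × V → I => limsup (fun n => avs x v n) atTop) :=
    Measurable.limsup fun n => measurable_avs v n
  have h2 : MeasurableSet {x : ℕ × V → I | 0 < limsup (fun n => avs x v n) atTop} :=
    measurableSet_lt measurable_const h
  refine measurable_to_bool ?_
  convert h2 using 1
  ext x
  simp [dec]

theorem decode [Countable V] {a : ℝ} (ha0 : 0 < a) (ha : a ≤ 1 / 5) (μ : Measure (V → Bool))
    [IsProbabilityMeasure μ] :
    ∃ ψ : (ℕ × V → I) → (V → Bool), Measurable ψ ∧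
      (∀ (g : V ≃ V) (x : ℕ × V → I), ψ (translateS g x) = translate g (ψ x)) ∧
      ∀ᵐ ω ∂(PP μ), ψ (xs a ω) = ω.1 := by
  refine ⟨dec, measurable_dec, fun g x => rfl, ?_⟩
  have h : ∀ v : V, ∀ᵐ ω ∂(PP μ), dec (xs a ω) v = ω.1 v := by
    intro v
    unfold PP
    rw [Measure.ae_prod_iff_ae_ae]
    · refine ae_of_all _ fun τ => ?_
      filter_upwards [ae_avs ha0.le ha τ v] with w hw
      unfold dec
      rw [hw.limsup_eq]
      cases h : τ v
      · simp only [sg, Bool.false_eq_true, if_false]
        simp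
        linarith
      · simp only [sg, if_true]
        simp
        exact ha0
    · exact measurableSet_eq_fun ((measurable_pi_apply v).comp
        (measurable_dec.comp (measurable_xs a))) ((measurable_pi_apply v).comp measurable_fst)
  have h2 : ∀ᵐ ω ∂(PP μ), ∀ v : V, dec (xs a ω) v = ω.1 v := ae_all_iff.mpr h
  filter_upwards [h2] with ω hω
  funext v
  exact hω v

end Vale.Agent.P161
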