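import Mathlib

/-!
# The free Ising measure on a tree and factors of IID: definitions
-/

open MeasureTheory Set Filter Topology
open scoped unitInterval ENNReal

namespace Vale.Agent.P161

universe u

variable {V : Type u}

/-- The sign `1` or `-1` of a spin; spins are encoded as Booleans. -/
def sg (b : Bool) : ℝ := if b then 1 else -1

/-- The factor `(1 + θ η_u η_v) / 2` of the edge `{u, v}`. -/
noncomputable def edgeFactor (θ : ℝ) (η : V → Bool) : Sym2 V → ℝ :=
  Sym2.lift ⟨fun u v => (1 + θ * sg (η u) * sg (η v)) / 2, fun u v => by ring⟩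

open Classical in
/-- The free zero-field ferromagnetic Ising measure with `θ = tanh β` on the tree `G`: for every
finite connected set `D` of vertices the cylinder probabilities are
`1/2 ∏ (1 + θ η_u η_v) / 2`, the product being over the edges of `G` inside `D`. -/
structure IsFreeIsing (G : SimpleGraph V) (θ : ℝ) (μ : Measure (V → Bool)) : Prop where
  prob : IsProbabilityMeasure μ
  cylinder : ∀ D : Finset V, (G.induce (D : Set V)).Connected → ∀ η : V → Bool,
    μ.real {τ | ∀ v ∈ D, τ v = η v} =
      1 / 2 * ∏ e ∈ D.sym2 with e ∈ G.edgeSet, edgeFactor θ η e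

/-- The law of i.i.d. uniform labels. -/
noncomputable def iid (ι : Type u) : Measure (ι → I) :=
  Measure.infinitePi fun _ : ι => (volume : Measure I)

instance (ι : Type u) : IsProbabilityMeasure (iid ι) := by
  unfold iid; infer_instance

/-- Translation of a labelling of the vertices: `(g x) v = x (g⁻¹ v)`. -/
def translate {A : Type*} (g : V ≃ V) (x : V → A) : V → A := fun v => x (g.symm v)

/-- The measure `ν` is a factor of IID: it is the law of `Φ(U)` for a measurable map `Φ` with
`Φ(gU) = gΦ(U)` almost surely for each automorphism `g` of `G`. -/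
def IsFactorOfIID (G : SimpleGraph V) (ν : Measure (V → Bool)) : Prop :=
  ∃ Φ : (V → I) → (V → Bool), Measurable Φ ∧ Measure.map Φ (iid V) = ν ∧
    ∀ g : G ≃g G, ∀ᵐ U ∂(iid V), Φ (translate g.toEquiv U) = translate g.toEquiv (Φ U)

/-! ### Posterior means -/

/-- The weight `exp (∑_{w ∈ D} Y_w τ_w)`. -/
noncomputable def wt (D : Finset V) (Y : V → ℝ) (τ : V → Bool) : ℝ :=
  Real.exp (∑ w ∈ D, Y w * sg (τ w))

/-- The partition function with fields `Y` on `D`. -/
noncomputable def Zf (μ : Measure (V → Bool)) (D : Finset V) (Y : V → ℝ) : ℝ :=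
  ∫ τ, wt D Y τ ∂μ

/-- The mean of the function `F` under the measure `μ` tilted by the fields `Y` on `D`. -/
noncomputable def tilt (μ : Measure (V → Bool)) (D : Finset V) (Y : V → ℝ)
    (F : (V → Bool) → ℝ) : ℝ :=
  (∫ τ, F τ * wt D Y τ ∂μ) / Zf μ D Y

/-- The mean of the spin at `v` under the measure `μ` tilted by the fields `Y` on `D`. -/
noncomputable def mean (μ : Measure (V → Bool)) (D : Finset V) (v : V) (Y : V → ℝ) : ℝ :=
  tilt μ D Y (fun τ => sg (τ v))

end Vale.Agent.P161
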