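import Vale.Agent.P161.Defs

/-!
# Efron-Stein type approximation by functions of fewer coordinates
-/

open MeasureTheory Set Filter Topology
open scoped unitInterval ENNReal

namespace Vale.Agent.P161

universe u

namespace EfronAux

variable {ι : Type u} [DecidableEq ι]

lemma map_update (i : ι) :
    Measure.map (fun p : (ι → I) × I => Function.update p.1 i p.2)
      ((iid ι).prod (volume : Measure I)) = iid ι := by
  have hm : Measurable (fun p : (ι → I) × I => Function.update p.1 i p.2) := measurable_update'
  refine Measure.eq_infinitePi _ ?_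
  intro s t ht
  rw [Measure.map_apply hm (MeasurableSet.pi s.countable_toSet (fun j _ => ht j))]
  by_cases hi : i ∈ s
  · have : (fun p : (ι → I) × I => Function.update p.1 i p.2) ⁻¹' (Set.pi (↑s) t) =
        (Set.pi (↑(s.erase i)) t) ×ˢ (t i) := by
      ext p
      simp only [Set.mem_preimage, Set.mem_pi, Finset.mem_coe, Set.mem_prod, Finset.mem_erase]
      constructor
      · intro h
        refine ⟨fun j hj => ?_, ?_⟩
        · have := h j hj.2
          rwa [Function.update_of_ne hj.1] at this
        · have := h i hi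
          rwa [Function.update_self] at this
      · rintro ⟨h1, h2⟩ j hj
        by_cases hji : j = i
        · subst hji
          rwa [Function.update_self]
        · rw [Function.update_of_ne hji]
          exact h1 j ⟨hji, hj⟩
    rw [this, Measure.prod_prod]
    unfold iid
    rw [Measure.infinitePi_pi _ (fun j _ => ht j), Finset.prod_erase_mul _ _ hi]
  · have : (fun p : (ι → I) × I => Function.update p.1 i p.2) ⁻¹' (Set.pi (↑s) t) =
        (Set.pi (↑s) t) ×ˢ Set.univ := by
      ext p
      simp only [Set.mem_preimage, Set.mem_pi, Finset.mem_coe, Set.mem_prod, Set.mem_univ,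
        and_true]
      constructor
      · intro h j hj
        have := h j hj
        have hne : j ≠ i := fun h' => hi (h' ▸ hj)
        rwa [Function.update_of_ne hne] at this
      · intro h j hj
        have hne : j ≠ i := fun h' => hi (h' ▸ hj)
        rw [Function.update_of_ne hne]
        exact h j hj
    rw [this, Measure.prod_prod]
    unfold iid
    rw [Measure.infinitePi_pi _ (fun j _ => ht j)]
    simp

/-- averaging over one coordinate -/
noncomputable def avg (i : ι) (f : (ι → I) → ℝ) (x : ι → I) : ℝ :=
  ∫ t : I, f (Function.update x i t)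

lemma measurable_avg (i : ι) {f : (ι → I) → ℝ} (hf : Measurable f) : Measurable (avg i f) := by
  have h1 : Measurable (fun p : (ι → I) × I => f (Function.update p.1 i p.2)) :=
    hf.comp measurable_update'
  exact (h1.stronglyMeasurable.integral_prod_right' (ν := (volume : Measure I))).measurable

lemma integrable_of_bdd {α : Type*} [MeasurableSpace α] {μ : Measure α} [IsFiniteMeasure μ]
    {f : α → ℝ} (hf : Measurable f) {C : ℝ} (hC : ∀ x, |f x| ≤ C) : Integrable f μ :=
  Integrable.of_bound hf.aestronglyMeasurable C (Eventually.of_forall hC)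

lemma integral_avg (i : ι) {f : (ι → I) → ℝ} (hf : Measurable f) {C : ℝ}
    (hC : ∀ x, |f x| ≤ C) : ∫ x, avg i f x ∂(iid ι) = ∫ x, f x ∂(iid ι) := by
  have hm : Measurable (fun p : (ι → I) × I => Function.update p.1 i p.2) := measurable_update'
  conv_rhs => rw [← map_update i]
  rw [integral_map hm.aemeasurable hf.aestronglyMeasurable]
  have hint : Integrable (fun p : (ι → I) × I => f (Function.update p.1 i p.2))
      ((iid ι).prod (volume : Measure I)) := integrable_of_bdd (hf.comp hm) (fun p => hC _)
  rw [integral_prod _ hint]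
  rfl

lemma update_meas (i : ι) {f : (ι → I) → ℝ} (hf : Measurable f) (x : ι → I) :
    Measurable (fun t : I => f (Function.update x i t)) :=
  hf.comp (measurable_update x)

lemma avg_bdd (i : ι) {f : (ι → I) → ℝ} {C : ℝ} (hC : ∀ x, |f x| ≤ C) (x : ι → I) :
    |avg i f x| ≤ C := by
  have := norm_integral_le_of_norm_le_const (μ := (volume : Measure I)) (C := C)
    (f := fun t : I => f (Function.update x i t)) (Eventually.of_forall fun t => hC _)
  simpa [avg] using this

lemma avg_sub_le (i : ι) {f : (ι → I) → ℝ} (hf : Measurable f) (hb : ∀ x, |f x| ≤ 1)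
    (x y : ι → I) (K : ℝ)
    (h : ∀ t : I, |f (Function.update x i t) - f (Function.update y i t)| ≤ K) :
    |avg i f x - avg i f y| ≤ K := by
  unfold avg
  rw [← integral_sub (integrable_of_bdd (update_meas i hf x) fun t => hb _)
    (integrable_of_bdd (update_meas i hf y) fun t => hb _)]
  have := norm_integral_le_of_norm_le_const (μ := (volume : Measure I)) (C := K)
    (f := fun t : I => f (Function.update x i t) - f (Function.update y i t))
    (Eventually.of_forall h)
  simpa using this

lemma sub_avg_le (i : ι) {f : (ι → I) → ℝ} (hf : Measurable f) (hb : ∀ x, |f x| ≤ 1)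
    (x : ι → I) (K : ℝ) (h : ∀ t : I, |f x - f (Function.update x i t)| ≤ K) :
    |f x - avg i f x| ≤ K := by
  have h1 : f x - avg i f x = ∫ t : I, (f x - f (Function.update x i t)) := by
    rw [integral_sub (integrable_const _) (integrable_of_bdd (update_meas i hf x) fun t => hb _)]
    simp [avg]
  rw [h1]
  have := norm_integral_le_of_norm_le_const (μ := (volume : Measure I)) (C := K)
    (f := fun t : I => f x - f (Function.update x i t)) (Eventually.of_forall h)
  simpa using this

lemma avg_mul (i : ι) {f k : (ι → I) → ℝ} (hk : ∀ x t, k (Function.update x i t) = k x)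
    (x : ι → I) : avg i (fun y => f y * k y) x = avg i f x * k x := by
  unfold avg
  simp_rw [hk]
  rw [integral_mul_const]

lemma step (i : ι) {f g : (ι → I) → ℝ} (hf : Measurable f) (hg : Measurable g)
    (hfb : ∀ x, |f x| ≤ 1) (hgb : ∀ x, |g x| ≤ 1)
    (hgi : ∀ x t, g (Function.update x i t) = g x) (c : ℝ)
    (hc : ∀ x, |f x - avg i f x| ≤ c) :
    ∫ x, (f x - g x) ^ 2 ∂(iid ι) ≤ c ^ 2 + ∫ x, (avg i f x - g x) ^ 2 ∂(iid ι) := by
  have hai : ∀ x t, avg i f (Function.update x i t) = avg i f x := by
    intro x t
    unfold avg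
    simp
  have ham := measurable_avg i hf
  have hab := avg_bdd i hfb
  have h0 : ∀ x, (f x - g x) ^ 2 = (f x - avg i f x) ^ 2 + (avg i f x - g x) ^ 2
      + 2 * ((f x - avg i f x) * (avg i f x - g x)) := fun x => by ring
  have hi1 : Integrable (fun x => (f x - avg i f x) ^ 2) (iid ι) := by
    refine integrable_of_bdd ((hf.sub ham).pow_const 2) (C := 4) (fun x => ?_)
    have := abs_le.1 (hfb x); have := abs_le.1 (hab x)
    rw [abs_of_nonneg (sq_nonneg _)]
    nlinarith
  have hi2 : Integrable (fun x => (avg i f x - g x) ^ 2) (iid ι) := by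
    refine integrable_of_bdd ((ham.sub hg).pow_const 2) (C := 4) (fun x => ?_)
    have := abs_le.1 (hgb x); have := abs_le.1 (hab x)
    rw [abs_of_nonneg (sq_nonneg _)]
    nlinarith
  have hb3 : ∀ x, |(f x - avg i f x) * (avg i f x - g x)| ≤ 4 := by
    intro x
    have := abs_le.1 (hfb x); have := abs_le.1 (hgb x); have := abs_le.1 (hab x)
    rw [abs_mul]
    have e1 : |f x - avg i f x| ≤ 2 := abs_le.2 ⟨by linarith, by linarith⟩
    have e2 : |avg i f x - g x| ≤ 2 := abs_le.2 ⟨by linarith, by linarith⟩
    nlinarith [abs_nonneg (f x - avg i f x), abs_nonneg (avg i f x - g x)]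
  have hm3 : Measurable (fun x => (f x - avg i f x) * (avg i f x - g x)) :=
    (hf.sub ham).mul (ham.sub hg)
  have hi3 : Integrable (fun x => (f x - avg i f x) * (avg i f x - g x)) (iid ι) :=
    integrable_of_bdd hm3 hb3
  have hcross : ∫ x, (f x - avg i f x) * (avg i f x - g x) ∂(iid ι) = 0 := by
    rw [← integral_avg i hm3 hb3]
    have : ∀ x, avg i (fun x => (f x - avg i f x) * (avg i f x - g x)) x = 0 := by
      intro x
      rw [avg_mul i (f := fun x => f x - avg i f x) (k := fun x => avg i f x - g x)
        (fun x t => by simp only [hai, hgi])]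
      have : avg i (fun x => f x - avg i f x) x = 0 := by
        unfold avg
        have e : ∀ t : I, f (Function.update x i t) -
            ∫ (t_1 : I), f (Function.update (Function.update x i t) i t_1) =
            f (Function.update x i t) - ∫ (t_1 : I), f (Function.update x i t_1) := by
          intro t; simp
        simp_rw [e]
        rw [integral_sub (integrable_of_bdd (update_meas i hf x) fun t => hfb _)
          (integrable_const _)]
        simp
      rw [this, zero_mul]
    simp [this]
  simp_rw [h0]
  have hi12 : Integrable (fun x => (f x - avg i f x) ^ 2 + (avg i f x - g x) ^ 2) (iid ι) :=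
    hi1.add hi2
  rw [integral_add hi12 (hi3.const_mul 2), integral_add hi1 hi2, integral_const_mul,
    hcross]
  have : ∫ x, (f x - avg i f x) ^ 2 ∂(iid ι) ≤ ∫ x, c ^ 2 ∂(iid ι) := by
    refine integral_mono hi1 (integrable_const _) (fun x => ?_)
    have h1 := hc x
    show (f x - avg i f x) ^ 2 ≤ c ^ 2
    rw [← sq_abs (f x - avg i f x)]
    exact pow_le_pow_left₀ (abs_nonneg _) h1 2
  simp at this
  linarith

lemma main (c : ι → ℝ) (hc : ∀ i, 0 ≤ c i) (S : Finset ι) :
    ∀ (A : Finset ι) (f : (ι → I) → ℝ) (_ : Measurable f) (_ : ∀ x, |f x| ≤ 1)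
      (_ : ∀ x y : ι → I, |f x - f y| ≤ ∑ i ∈ A, c i * |(x i : ℝ) - y i|),
    ∃ g : (ι → I) → ℝ, Measurable g ∧ (∀ x, |g x| ≤ 1) ∧
      (∀ x y : ι → I, |g x - g y| ≤ ∑ i ∈ A \ S, c i * |(x i : ℝ) - y i|) ∧
      ∫ x, (f x - g x) ^ 2 ∂(iid ι) ≤ ∑ i ∈ S, c i ^ 2 := by
  induction S using Finset.induction_on with
  | empty =>
    intro A f hf hb hlip
    exact ⟨f, hf, hb, by simpa using hlip, by simp⟩
  | insert i S hi ih =>
    intro A f hf hb hlip
    have hlip1 : ∀ x y : ι → I, |avg i f x - avg i f y| ≤
        ∑ j ∈ A.erase i, c j * |(x j : ℝ) - y j| := by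
      intro x y
      refine avg_sub_le i hf hb x y _ (fun t => ?_)
      refine (hlip _ _).trans (le_of_eq ?_)
      rw [← Finset.sum_erase (s := A) (a := i)]
      · refine Finset.sum_congr rfl (fun j hj => ?_)
        rw [Function.update_of_ne (Finset.ne_of_mem_erase hj),
          Function.update_of_ne (Finset.ne_of_mem_erase hj)]
      · simp
    obtain ⟨g, hg, hgb, hgl, hgi⟩ := ih (A.erase i) (avg i f) (measurable_avg i hf)
      (avg_bdd i hb) hlip1
    refine ⟨g, hg, hgb, ?_, ?_⟩
    · intro x y
      have : A \ insert i S = A.erase i \ S := by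
        ext j; simp; tauto
      rw [this]
      exact hgl x y
    · rw [Finset.sum_insert hi]
      have hgi' : ∀ x t, g (Function.update x i t) = g x := by
        intro x t
        have := hgl (Function.update x i t) x
        have h0 : ∑ j ∈ A.erase i \ S, c j * |((Function.update x i t j : I) : ℝ) - x j| = 0 := by
          refine Finset.sum_eq_zero (fun j hj => ?_)
          have hj' : j ≠ i := Finset.ne_of_mem_erase (Finset.mem_sdiff.1 hj).1
          rw [Function.update_of_ne hj']
          simp
        rw [h0] at this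
        have := abs_nonpos_iff.1 this
        linarith
      refine (step i hf hg hb hgb hgi' (c i) (fun x => ?_)).trans (by linarith)
      refine sub_avg_le i hf hb x _ (fun t => ?_)
      refine (hlip _ _).trans ?_
      by_cases hiA : i ∈ A
      · rw [Finset.sum_eq_single_of_mem i hiA]
        · rw [Function.update_self]
          have h1 : |(x i : ℝ) - t| ≤ 1 := by
            have := (x i).2; have := t.2
            rw [abs_le]
            constructor <;> linarith [this.1, this.2, (x i).2.1, (x i).2.2]
          calc c i * |(x i : ℝ) - t| ≤ c i * 1 := mul_le_mul_of_nonneg_left h1 (hc i)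
            _ = c i := mul_one _
        · intro j _ hj
          rw [Function.update_of_ne hj]
          simp
      · rw [Finset.sum_eq_zero]
        · exact hc i
        · intro j hj
          have hne : j ≠ i := fun h => hiA (h ▸ hj)
          rw [Function.update_of_ne hne]
          simp

end EfronAux

theorem efron_stein {ι : Type u} [DecidableEq ι] (f : (ι → I) → ℝ) (hf : Measurable f)
    (A B : Finset ι) (c : ι → ℝ) (hc : ∀ i, 0 ≤ c i) (hb : ∀ x, |f x| ≤ 1)
    (hlip : ∀ x y : ι → I, |f x - f y| ≤ ∑ i ∈ A, c i * |(x i : ℝ) - y i|) :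
    ∃ g : (ι → I) → ℝ, Measurable g ∧ (∀ x, |g x| ≤ 1) ∧
      (∀ x y : ι → I, |g x - g y| ≤ ∑ i ∈ A ∩ B, c i * |(x i : ℝ) - y i|) ∧
      ∫ x, (f x - g x) ^ 2 ∂(iid ι) ≤ ∑ i ∈ A \ B, c i ^ 2 := by
  obtain ⟨g, h1, h2, h3, h4⟩ := EfronAux.main c hc (A \ B) A f hf hb hlip
  refine ⟨g, h1, h2, ?_, h4⟩
  have : A \ (A \ B) = A ∩ B := by
    ext j; simp
  rwa [this] at h3

end Vale.Agent.P161
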