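import Vale.Agent.P161.TreeDist

/-!
# Existence of the free Ising measure on a tree
-/

open MeasureTheory Set Filter Topology
open scoped unitInterval ENNReal

namespace Vale.Agent.P161

universe u

variable {V : Type u}

namespace ExistAux

/-- The law of the indicator that a child disagrees with its parent. -/
noncomputable def flip (θ : ℝ) : Measure Bool :=
  ENNReal.ofReal ((1 + θ) / 2) • Measure.dirac false +
    ENNReal.ofReal ((1 - θ) / 2) • Measure.dirac true

theorem flip_prob {θ : ℝ} (hθ : |θ| ≤ 1) : IsProbabilityMeasure (flip θ) := by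
  have h := abs_le.1 hθ
  constructor
  rw [flip]
  simp only [Measure.coe_add, Measure.coe_smul, Pi.add_apply, Pi.smul_apply, measure_univ,
    smul_eq_mul, mul_one]
  rw [← ENNReal.ofReal_add (by linarith [h.1]) (by linarith [h.2])]
  rw [show (1 + θ) / 2 + (1 - θ) / 2 = 1 by ring, ENNReal.ofReal_one]

theorem flip_real {θ : ℝ} (hθ : |θ| ≤ 1) (a b : Bool) :
    (flip θ) {xor a b} = ENNReal.ofReal ((1 + θ * sg a * sg b) / 2) := by
  have h := abs_le.1 hθ
  rw [flip]
  simp only [Measure.coe_add, Measure.coe_smul, Pi.add_apply, Pi.smul_apply, smul_eq_mul]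
  rw [Measure.dirac_apply' _ (measurableSet_singleton _),
    Measure.dirac_apply' _ (measurableSet_singleton _)]
  cases a <;> cases b <;> simp [sg] <;> congr 2

/-- A neighbour of `v` closer to `o`. -/
noncomputable def par (G : SimpleGraph V) (o v : V) : V :=
  open Classical in
  if h : ∃ x, G.Adj x v ∧ G.dist o v = G.dist o x + 1 then h.choose else v

theorem par_spec {G : SimpleGraph V} (hG : G.Connected) {o v : V} (hv : v ≠ o) :
    G.Adj (par G o v) v ∧ G.dist o v = G.dist o (par G o v) + 1 := by
  classical
  have h : ∃ x, G.Adj x v ∧ G.dist o v = G.dist o x + 1 := by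
    obtain ⟨n, hn⟩ : ∃ n, G.dist o v = n + 1 :=
      Nat.exists_eq_succ_of_ne_zero (hG.pos_dist_of_ne hv.symm).ne'
    obtain ⟨x, hx, hx'⟩ := TreeAux.exists_adj_dist hG hn
    exact ⟨x, hx, by omega⟩
  rw [par, dif_pos h]
  exact h.choose_spec

theorem par_unique {G : SimpleGraph V} (hG : G.IsTree) {o v x : V} (hx : G.Adj x v)
    (hd : G.dist o v = G.dist o x + 1) : x = par G o v := by
  have hv : v ≠ o := by
    rintro rfl
    rw [SimpleGraph.dist_self] at hd
    omega
  obtain ⟨h1, h2⟩ := par_spec hG.1 hv
  by_contra hne
  have h3 : G.dist (par G o v) v = 1 := SimpleGraph.dist_eq_one_iff_adj.2 h1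
  have h4 : 0 < G.dist (par G o v) x := hG.1.pos_dist_of_ne (Ne.symm hne)
  rcases dist_lt_or_gt hG hx (par G o v) with h5 | h5
  · omega
  · have h6 := dist_split hG hx (u := o) (w := par G o v) (by omega) h5
    omega

/-- The total flip along the path from `o` to a vertex at distance `n`. -/
noncomputable def tot (G : SimpleGraph V) (o : V) (s : V → Bool) : ℕ → V → Bool
  | 0, _ => false
  | n + 1, v => xor (s v) (tot G o s n (par G o v))

theorem measurable_tot (G : SimpleGraph V) (o : V) (n : ℕ) (v : V) :
    Measurable fun s => tot G o s n v := by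
  induction n generalizing v with
  | zero => exact measurable_const
  | succ n ih =>
    exact (measurable_of_finite (fun p : Bool × Bool => xor p.1 p.2)).comp
      ((measurable_pi_apply v).prodMk (ih _))

/-- The total flip along the path from `o` to `v`. -/
noncomputable def fl (G : SimpleGraph V) (o : V) (s : V → Bool) (v : V) : Bool :=
  tot G o s (G.dist o v) v

theorem fl_eq {G : SimpleGraph V} (hG : G.Connected) {o v : V} (hv : v ≠ o) (s : V → Bool) :
    fl G o s v = xor (s v) (fl G o s (par G o v)) := by
  rw [fl, (par_spec hG hv).2, tot, fl]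

/-- Connected sets of vertices of a tree are closed under taking parents, except at the top. -/
theorem par_mem {G : SimpleGraph V} (hG : G.IsTree) {o a v : V} {D : Set V}
    (hD : (G.induce D).Connected) (ha : a ∈ D) (hmin : ∀ w ∈ D, G.dist o a ≤ G.dist o w)
    (hv : v ∈ D) (hva : v ≠ a) : v ≠ o ∧ par G o v ∈ D := by
  have hvo : v ≠ o := by
    rintro rfl
    have h := hmin v hv
    rw [SimpleGraph.dist_self, Nat.le_zero] at h
    exact hva (hG.1.dist_eq_zero_iff.1 h)
  refine ⟨hvo, ?_⟩
  by_contra hp
  obtain ⟨h1, h2⟩ := par_spec hG.1 hvo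
  have hside : ∀ (x y : D), (G.induce D).Walk x y → G.dist x.1 v < G.dist x.1 (par G o v) →
      G.dist y.1 v < G.dist y.1 (par G o v) := by
    intro x y p
    induction p with
    | nil => exact id
    | @cons x z y hadj q ih =>
      intro hx
      refine ih ?_
      rcases dist_lt_or_gt hG h1.symm z.1 with h | h
      · exact h
      · exfalso
        have h3 := dist_split hG h1.symm hx h
        have h4 : G.dist x.1 z.1 = 1 := SimpleGraph.dist_eq_one_iff_adj.2 hadj
        have h5 : G.dist (par G o v) z.1 = 0 := by omega
        have h6 := hG.1.dist_eq_zero_iff.1 h5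
        exact hp (h6 ▸ z.2)
  obtain ⟨p⟩ := hD.preconnected ⟨v, hv⟩ ⟨a, ha⟩
  have h3 := hside _ _ p (by
    show G.dist v v < G.dist v (par G o v)
    rw [SimpleGraph.dist_self]
    exact hG.1.pos_dist_of_ne h1.symm.ne)
  have h4 := dist_split hG h1 (u := o) (w := a) (by omega) h3
  have h5 := hmin v hv
  have h6 : G.dist v a = 0 := by omega
  exact hva (hG.1.dist_eq_zero_iff.1 h6)

/-- The product over the edges inside `D` as a product over the vertices below the top. -/
theorem prod_edges {G : SimpleGraph V} (hG : G.IsTree) {o a : V} {D : Finset V}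
    [DecidableEq V] [DecidablePred (· ∈ G.edgeSet)]
    (hD : (G.induce (D : Set V)).Connected) (ha : a ∈ D)
    (hmin : ∀ w ∈ D, G.dist o a ≤ G.dist o w) (f : Sym2 V → ℝ) :
    ∏ e ∈ D.sym2 with e ∈ G.edgeSet, f e = ∏ v ∈ D.erase a, f s(v, par G o v) := by
  symm
  refine Finset.prod_nbij (fun v => s(v, par G o v)) ?_ ?_ ?_ ?_
  · intro v hv
    rw [Finset.mem_erase] at hv
    obtain ⟨h1, h2⟩ := par_mem hG hD ha hmin hv.2 hv.1
    rw [Finset.mem_filter, Finset.mk_mem_sym2_iff, SimpleGraph.mem_edgeSet]
    exact ⟨⟨hv.2, h2⟩, (par_spec hG.1 h1).1.symm⟩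
  · intro v hv w hw hvw
    rw [Finset.mem_coe, Finset.mem_erase] at hv hw
    have h1 := par_spec hG.1 (par_mem hG hD ha hmin hv.2 hv.1).1
    have h2 := par_spec hG.1 (par_mem hG hD ha hmin hw.2 hw.1).1
    rcases Sym2.eq_iff.1 hvw with h | h
    · exact h.1
    · exfalso
      have h3 := h1.2
      have h4 := h2.2
      rw [← h.1] at h4
      rw [h.2] at h3
      omega
  · intro e he
    induction e using Sym2.ind with
    | _ x y =>
      rw [Finset.mem_coe, Finset.mem_filter, Finset.mk_mem_sym2_iff,
        SimpleGraph.mem_edgeSet] at he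
      obtain ⟨⟨hx, hy⟩, hxy⟩ := he
      rw [Set.mem_image]
      rcases hG.dist_eq_dist_add_one_of_adj o hxy with h | h
      · refine ⟨x, ?_, ?_⟩
        · rw [Finset.mem_coe, Finset.mem_erase]
          refine ⟨?_, hx⟩
          rintro rfl
          have := hmin y hy
          omega
        · rw [← par_unique hG hxy.symm h]
      · refine ⟨y, ?_, ?_⟩
        · rw [Finset.mem_coe, Finset.mem_erase]
          refine ⟨?_, hy⟩
          rintro rfl
          have := hmin x hx
          omega
        · rw [← par_unique hG hxy h]
          exact Sym2.eq_swap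
  · intro v _; rfl

end ExistAux

open ExistAux

theorem exists_isFreeIsing {G : SimpleGraph V} (hG : G.IsTree) {θ : ℝ} (hθ : |θ| ≤ 1) :
    ∃ μ : Measure (V → Bool), IsFreeIsing G θ μ := by
  classical
  obtain ⟨o⟩ := hG.1.nonempty
  have := flip_prob hθ
  set P : Measure (V → Bool) := Measure.infinitePi fun _ : V => flip θ with hP
  have : IsProbabilityMeasure P := by rw [hP]; infer_instance
  set Ψ : Bool → (V → Bool) → (V → Bool) := fun b s v => xor b (fl G o s v) with hΨdef
  have hΨ : ∀ b, Measurable (Ψ b) := fun b => measurable_pi_lambda _ fun v =>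
    (measurable_of_finite (fun c : Bool => xor b c)).comp (measurable_tot G o _ v)
  have habs := abs_le.1 hθ
  have hsg : ∀ a b : Bool, 0 ≤ (1 + θ * sg a * sg b) / 2 := by
    intro a b
    cases a <;> cases b <;> simp [sg] <;> linarith [habs.1, habs.2]
  refine ⟨(1 / 2 : ℝ≥0∞) • (P.map (Ψ true) + P.map (Ψ false)), ?_, ?_⟩
  · constructor
    simp only [Measure.coe_smul, Measure.coe_add, Pi.smul_apply, Pi.add_apply, smul_eq_mul]
    rw [Measure.map_apply (hΨ true) MeasurableSet.univ,
      Measure.map_apply (hΨ false) MeasurableSet.univ]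
    simp only [Set.preimage_univ, measure_univ]
    rw [one_add_one_eq_two, one_div, ENNReal.inv_mul_cancel two_ne_zero ENNReal.ofNat_ne_top]
  · intro D hD η
    obtain ⟨a, ha, hmin⟩ : ∃ a ∈ D, ∀ w ∈ D, G.dist o a ≤ G.dist o w := by
      have hne : D.Nonempty := by
        obtain ⟨⟨x, hx⟩⟩ := hD.nonempty
        exact ⟨x, hx⟩
      exact D.exists_min_image (G.dist o) hne
    set A : Set (V → Bool) := {τ | ∀ v ∈ D, τ v = η v} with hA
    have hAm : MeasurableSet A := by
      have : A = Set.pi (D : Set V) fun v => {η v} := by
        ext τ; simp [hA, Set.mem_pi]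
      rw [this]
      exact MeasurableSet.pi D.countable_toSet fun v _ => measurableSet_singleton _
    set E : Set (V → Bool) :=
      Set.pi ((D.erase a : Finset V) : Set V) fun v => {xor (η v) (η (par G o v))} with hE
    have hpar := fun v (hv : v ∈ D) (hva : v ≠ a) => par_mem hG hD ha hmin hv hva
    have hpre : ∀ b, Ψ b ⁻¹' A = E ∩ {s | fl G o s a = xor b (η a)} := by
      intro b
      ext s
      simp only [hA, hE, hΨdef, Set.mem_preimage, Set.mem_ofPred_eq, Set.mem_inter_iff,
        Set.mem_pi, Finset.mem_coe, Finset.mem_erase, Set.mem_singleton_iff]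
      constructor
      · intro h
        refine ⟨fun v hv => ?_, ?_⟩
        · obtain ⟨h1, h2⟩ := hpar v hv.2 hv.1
          have h3 := h v hv.2
          have h4 := h _ h2
          rw [fl_eq hG.1 h1 s] at h3
          rw [← h3, ← h4]
          cases b <;> cases s v <;> cases fl G o s (par G o v) <;> rfl
        · have h3 := h a ha
          rw [← h3]
          cases b <;> cases fl G o s a <;> rfl
      · rintro ⟨h1, h2⟩
        have H : ∀ n : ℕ, ∀ v ∈ D, G.dist o v = n → xor b (fl G o s v) = η v := by
          intro n
          induction n with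
          | zero =>
            intro v hv hn
            have hva : v = a := by
              by_contra hva
              have := (hpar v hv hva).1
              exact this (hG.1.dist_eq_zero_iff.1 hn).symm
            rw [hva, h2]
            cases b <;> cases η a <;> rfl
          | succ n ih =>
            intro v hv hn
            by_cases hva : v = a
            · rw [hva, h2]
              cases b <;> cases η a <;> rfl
            · obtain ⟨h3, h4⟩ := hpar v hv hva
              have h5 := ih _ h4 (by have := (par_spec hG.1 h3).2; omega)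
              rw [fl_eq hG.1 h3 s, h1 v ⟨hva, hv⟩, ← h5]
              cases b <;> cases η v <;> cases fl G o s (par G o v) <;> rfl
        exact fun v hv => H _ v hv rfl
    have hEm : MeasurableSet E :=
      MeasurableSet.pi (Finset.countable_toSet _) fun v _ => measurableSet_singleton _
    have hPE : P E = ∏ v ∈ D.erase a, ENNReal.ofReal
        ((1 + θ * sg (η v) * sg (η (par G o v))) / 2) := by
      rw [hE, hP, Measure.infinitePi_pi _ fun v _ => measurableSet_singleton _]
      exact Finset.prod_congr rfl fun v _ => flip_real hθ _ _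
    have hmeas : ((1 / 2 : ℝ≥0∞) • (P.map (Ψ true) + P.map (Ψ false))) A =
        (1 / 2 : ℝ≥0∞) * P E := by
      simp only [Measure.coe_smul, Measure.coe_add, Pi.smul_apply, Pi.add_apply, smul_eq_mul]
      rw [Measure.map_apply (hΨ true) hAm, Measure.map_apply (hΨ false) hAm, hpre, hpre]
      congr 1
      have hset : {s | fl G o s a = xor true (η a)} = {s | fl G o s a = xor false (η a)}ᶜ := by
        ext s
        simp only [Set.mem_ofPred_eq, Set.mem_compl_iff]
        cases η a <;> cases fl G o s a <;> simp
      rw [hset, add_comm]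
      have hm : MeasurableSet {s | fl G o s a = xor false (η a)} :=
        (measurable_tot G o _ a) (measurableSet_singleton _)
      rw [← Set.sdiff_eq]
      exact measure_inter_add_sdiff E hm
    rw [Measure.real, hmeas, hPE, ENNReal.toReal_mul, ENNReal.toReal_prod,
      prod_edges hG hD ha hmin]
    congr 1
    · simp
    · refine Finset.prod_congr rfl fun v _ => ?_
      rw [ENNReal.toReal_ofReal (hsg _ _)]
      rfl

end Vale.Agent.P161
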