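import Vale.Agent.P161.Law

/-!
# The innovations are i.i.d. uniform
-/

open MeasureTheory Set Filter Topology
open scoped unitInterval ENNReal

namespace Vale.Agent.P161

universe u

variable {V : Type u}

/-- The innovations. -/
noncomputable def inn (a : ℝ) (μ : Measure (V → Bool)) (D : Finset V) (U : V → I)
    (x : ℕ × V → I) : ℕ × V → I :=
  fun j => cdfI (param a μ D U x j) (x j)

open Classical in
/-- The innovations on the sites of `A`, the signals elsewhere. -/
noncomputable def innOn (a : ℝ) (μ : Measure (V → Bool)) (D : Finset V) (U : V → I)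
    (A : Finset (ℕ × V)) (x : ℕ × V → I) : ℕ × V → I :=
  fun j => if j ∈ A then inn a μ D U x j else x j

theorem measurable_inn {Ω : Type*} [MeasurableSpace Ω] (a : ℝ) (μ : Measure (V → Bool))
    [IsProbabilityMeasure μ] (D : Finset V) {U : Ω → V → I}
    {x : Ω → ℕ × V → I} (hU : Measurable U) (hx : Measurable x) :
    Measurable (fun ω => inn a μ D (U ω) (x ω)) := by
  rw [measurable_pi_iff]
  intro j
  exact measurable_cdfI.comp ((measurable_param a μ D hU hx j).prodMk
    ((measurable_pi_apply j).comp hx))

theorem measurable_innOn (a : ℝ) (μ : Measure (V → Bool))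
    [IsProbabilityMeasure μ] (D : Finset V) (U : V → I) (A : Finset (ℕ × V)) :
    Measurable (innOn a μ D U A) := by
  rw [measurable_pi_iff]
  intro j
  unfold innOn
  split_ifs
  · exact (measurable_pi_apply j).comp (measurable_inn a μ D measurable_const measurable_id)
  · exact measurable_pi_apply j

theorem not_mem_before_self (U : V → I) (D : Finset V) (i : ℕ × V) : i ∉ before U D i := by
  rw [mem_before]
  rintro ⟨_, h | ⟨_, h⟩⟩
  · exact lt_irrefl _ h
  · exact lt_irrefl _ h

theorem not_mem_before_of_mem {U : V → I} {D : Finset V} {i j : ℕ × V}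
    (h : j ∈ before U D i) : i ∉ before U D j := by
  rw [mem_before] at h ⊢
  rintro ⟨_, h2⟩
  obtain ⟨_, h1⟩ := h
  rcases h1 with h1 | ⟨h1, h1'⟩ <;> rcases h2 with h2 | ⟨h2, h2'⟩
  · omega
  · omega
  · omega
  · exact lt_asymm h1' h2'

theorem before_trans {U : V → I} {D : Finset V} {i j l : ℕ × V}
    (h : j ∈ before U D i) (h2 : l ∈ before U D j) : l ∈ before U D i := by
  rw [mem_before] at h h2 ⊢
  refine ⟨h2.1, ?_⟩
  obtain ⟨_, h1⟩ := h
  obtain ⟨_, h2⟩ := h2
  rcases h1 with h1 | ⟨h1, h1'⟩ <;> rcases h2 with h2 | ⟨h2, h2'⟩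
  · left; omega
  · left; omega
  · left; omega
  · right; exact ⟨by omega, h2'.trans h1'⟩

theorem lintegral_innOn {a : ℝ} (ha0 : 0 ≤ a) (ha : a ≤ 1 / 5) (μ : Measure (V → Bool))
    [IsProbabilityMeasure μ] (D : Finset V) {U : V → I} (hU : Function.Injective U)
    (A : Finset (ℕ × V)) (hA : ∀ j ∈ A, j.2 ∈ D ∧ ∀ i ∈ before U D j, i ∈ A)
    {F : (ℕ × V → I) → ℝ≥0∞} (hF : Measurable F) :
    ∫⁻ x, F (innOn a μ D U A x) * ENNReal.ofReal (Lk a μ A x) ∂(iid (ℕ × V)) =
      ∫⁻ x, F x ∂(iid (ℕ × V)) := by
  classical
  revert hA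
  refine Finset.induction_on_max_value (fun j : ℕ × V => toLex (j.1, U j.2))
    (motive := fun A => (∀ j ∈ A, j.2 ∈ D ∧ ∀ i ∈ before U D j, i ∈ A) →
      ∫⁻ x, F (innOn a μ D U A x) * ENNReal.ofReal (Lk a μ A x) ∂(iid (ℕ × V)) =
      ∫⁻ x, F x ∂(iid (ℕ × V))) A ?_ ?_
  · intro _
    apply lintegral_congr
    intro x
    have h1 : innOn a μ D U ∅ x = x := by funext j; simp [innOn]
    have h2 : Lk a μ ∅ x = 1 := by simp [Lk]
    rw [h1, h2]
    simp
  · intro i s his hmax ih hA
    -- `s` is the set of the predecessors of `i`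
    have hlt : ∀ j ∈ s, toLex (j.1, U j.2) < toLex (i.1, U i.2) := by
      intro j hj
      refine lt_of_le_of_ne (hmax j hj) fun h => ?_
      have h2 : (j.1, U j.2) = (i.1, U i.2) := toLex.injective h
      have h3 : j = i := Prod.ext (Prod.mk.inj h2).1 (hU (Prod.mk.inj h2).2)
      exact his (h3 ▸ hj)
    have hs : s = before U D i := by
      ext j
      constructor
      · intro hj
        rw [mem_before]
        refine ⟨(hA j (Finset.mem_insert_of_mem hj)).1, ?_⟩
        have := hlt j hj
        rw [Prod.Lex.toLex_lt_toLex] at this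
        simpa using this
      · intro hj
        have h1 := (hA i (Finset.mem_insert_self _ _)).2 j hj
        rcases Finset.mem_insert.mp h1 with h2 | h2
        · exact absurd (h2 ▸ hj) (not_mem_before_self U D _)
        · exact h2
    have hs2 : ∀ j ∈ s, j.2 ∈ D ∧ ∀ i ∈ before U D j, i ∈ s := by
      intro j hj
      refine ⟨(hA j (Finset.mem_insert_of_mem hj)).1, fun l hl => ?_⟩
      rw [hs] at hj ⊢
      exact before_trans hj hl
    rw [← ih hs2]
    have hm1 : Measurable (fun x => F (innOn a μ D U (insert i s) x) *
        ENNReal.ofReal (Lk a μ (insert i s) x)) :=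
      (hF.comp (measurable_innOn a μ D U _)).mul (measurable_Lk a μ _).ennreal_ofReal
    have hm2 : Measurable (fun x => F (innOn a μ D U s x) *
        ENNReal.ofReal (Lk a μ s x)) :=
      (hF.comp (measurable_innOn a μ D U _)).mul (measurable_Lk a μ _).ennreal_ofReal
    rw [lintegral_update i hm1, lintegral_update i hm2]
    apply lintegral_congr
    intro x
    set p := param a μ D U x i with hp
    have hpar : ∀ t : I, param a μ D U (Function.update x i t) i = p := by
      intro t
      apply param_congr
      intro j hj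
      have : j ≠ i := fun h => not_mem_before_self U D i (h ▸ hj)
      rw [Function.update_of_ne this]
    have hpar2 : ∀ (t : I), ∀ j ∈ s, param a μ D U (Function.update x i t) j =
        param a μ D U x j := by
      intro t j hj
      apply param_congr
      intro l hl
      have : l ≠ i := fun h => not_mem_before_of_mem (hs ▸ hj) (h ▸ hl)
      rw [Function.update_of_ne this]
    have hLk : ∀ t : I, Lk a μ s (Function.update x i t) = Lk a μ s x := by
      intro t
      apply Lk_congr
      intro j hj
      have : j ≠ i := fun h => his (h ▸ hj)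
      rw [Function.update_of_ne this]
    have hLk2 : ∀ t : I, Lk a μ (insert i s) (Function.update x i t) =
        Lk a μ s x * (1 + p * (1 - 2 * (t : ℝ))) := by
      intro t
      rw [hs, Lk_insert ha0 ha, hpar, Function.update_self, ← hs, hLk]
    have hin1 : ∀ t : I, innOn a μ D U s (Function.update x i t) =
        Function.update (innOn a μ D U s x) i t := by
      intro t
      funext j
      by_cases hj : j = i
      · subst hj
        simp [innOn, his]
      · rw [Function.update_of_ne hj]
        unfold innOn
        by_cases hjs : j ∈ s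
        · rw [if_pos hjs, if_pos hjs]
          unfold inn
          rw [hpar2 t j hjs, Function.update_of_ne hj]
        · rw [if_neg hjs, if_neg hjs, Function.update_of_ne hj]
    have hin2 : ∀ t : I, innOn a μ D U (insert i s) (Function.update x i t) =
        Function.update (innOn a μ D U s x) i (cdfI p t) := by
      intro t
      funext j
      by_cases hj : j = i
      · subst hj
        rw [Function.update_self]
        unfold innOn
        rw [if_pos (Finset.mem_insert_self _ _)]
        unfold inn
        rw [hpar, Function.update_self]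
      · rw [Function.update_of_ne hj]
        unfold innOn
        by_cases hjs : j ∈ s
        · rw [if_pos hjs, if_pos (Finset.mem_insert_of_mem hjs)]
          unfold inn
          rw [hpar2 t j hjs, Function.update_of_ne hj]
        · have : j ∉ insert i s := by
            rw [Finset.mem_insert]; tauto
          rw [if_neg hjs, if_neg this, Function.update_of_ne hj]
    have hpabs : |p| ≤ 1 / 5 := abs_param_le ha0 ha μ D U x i
    have hL0 : 0 ≤ Lk a μ s x := Lk_nonneg ha0 ha μ s x
    simp_rw [hin1, hin2, hLk, hLk2]
    have e1 : ∀ t : I, F (Function.update (innOn a μ D U s x) i (cdfI p t)) *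
        ENNReal.ofReal (Lk a μ s x * (1 + p * (1 - 2 * (t : ℝ)))) =
        ENNReal.ofReal (Lk a μ s x) * (F (Function.update (innOn a μ D U s x) i (cdfI p t)) *
          ENNReal.ofReal (1 + p * (1 - 2 * (t : ℝ)))) := by
      intro t
      rw [ENNReal.ofReal_mul hL0]
      ring
    have e2 : ∀ t : I, F (Function.update (innOn a μ D U s x) i t) *
        ENNReal.ofReal (Lk a μ s x) =
        ENNReal.ofReal (Lk a μ s x) * F (Function.update (innOn a μ D U s x) i t) := by
      intro t; ring
    simp_rw [e1, e2]
    have hmu : Measurable (fun t : I => F (Function.update (innOn a μ D U s x) i t)) :=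
      hF.comp (measurable_update _)
    have hmc : Measurable (fun t : I => cdfI p t) :=
      measurable_cdfI.comp (measurable_const.prodMk measurable_id)
    have hmG : Measurable (fun t : I => F (Function.update (innOn a μ D U s x) i (cdfI p t))) :=
      hmu.comp hmc
    have hmd : Measurable (fun t : I => F (Function.update (innOn a μ D U s x) i (cdfI p t)) *
          ENNReal.ofReal (1 + p * (1 - 2 * (t : ℝ)))) := hmG.mul (by fun_prop)
    rw [lintegral_const_mul _ hmd, lintegral_const_mul _ hmu]
    congr 1
    rw [← lintegral_sig hpabs hmG]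
    apply lintegral_congr
    intro t
    rw [cdfI_sig hpabs]

theorem before_subset_sites {U : V → I} {k : ℕ} {D : Finset V} {j : ℕ × V}
    (hj : j ∈ sites k D) : ∀ i ∈ before U D j, i ∈ sites k D := by
  intro i hi
  rw [mem_before] at hi
  unfold sites at hj ⊢
  rw [Finset.mem_product, Finset.mem_range] at hj ⊢
  refine ⟨?_, hi.1⟩
  rcases hi.2 with h | ⟨h, _⟩ <;> omega

theorem inn_congr (a : ℝ) (μ : Measure (V → Bool)) (U : V → I) (D : Finset V) (k : ℕ)
    {x x' : ℕ × V → I} (h : ∀ j ∈ sites k D, x j = x' j) (j : ℕ × V) (hj : j ∈ sites k D) :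
    inn a μ D U x j = inn a μ D U x' j := by
  unfold inn
  rw [h j hj, param_congr a μ U D j fun i hi => h i (before_subset_sites hj i hi)]

/-- The law of the innovations. -/
theorem lintegral_inn {a : ℝ} (ha0 : 0 ≤ a) (ha : a ≤ 1 / 5) (μ : Measure (V → Bool))
    [IsProbabilityMeasure μ] (D : Finset V) {U : V → I} (hU : Function.Injective U) (k : ℕ)
    {F : (ℕ × V → I) → ℝ≥0∞} (hF : Measurable F)
    (hdep : DependsOn F (sites k D : Set (ℕ × V))) :
    ∫⁻ ω, F (inn a μ D U (xs a ω)) ∂(PP μ) = ∫⁻ s, F s ∂(iid (ℕ × V)) := by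
  classical
  have hmi : Measurable (fun x : ℕ × V → I => inn a μ D U x) :=
    measurable_inn a μ D measurable_const measurable_id
  have h1 := lintegral_PP ha0 ha μ (sites k D) (G := fun _ x => F (inn a μ D U x))
    (hF.comp (hmi.comp measurable_snd)) (fun τ x x' h => hdep fun j hj =>
      inn_congr a μ U D k (fun i hi => h i (Finset.mem_coe.mpr hi)) j (Finset.mem_coe.mp hj))
  rw [h1, ← lintegral_innOn ha0 ha μ D hU (sites k D)
    (fun j hj => ⟨(Finset.mem_product.mp hj).2, before_subset_sites hj⟩) hF]
  apply lintegral_congr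
  intro x
  have e1 : F (innOn a μ D U (sites k D) x) = F (inn a μ D U x) := by
    apply hdep
    intro j hj
    unfold innOn
    rw [if_pos (Finset.mem_coe.mp hj)]
  rw [e1]
  have hmd : ∀ j ∈ sites k D, Measurable (fun τ : V → Bool => ENNReal.ofReal (dens a (τ j.2) (x j))) :=
    fun j _ => (Measurable.of_discrete (f := fun b : Bool => ENNReal.ofReal (dens a b (x j)))).comp
      (measurable_pi_apply j.2)
  rw [lintegral_const_mul _ (Finset.measurable_fun_prod _ hmd)]
  congr 1
  unfold Lk
  rw [ofReal_integral_eq_lintegral_ofReal]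
  · apply lintegral_congr
    intro τ
    rw [ENNReal.ofReal_prod_of_nonneg fun j _ => (dens_pos ha0 ha _ _).le]
  · have := integrable_prod_dens a μ (sites k D) x (F := fun _ => 1) measurable_const
      (M := 1) (by simp)
    simpa using this
  · exact ae_of_all _ fun τ => Finset.prod_nonneg fun j _ => (dens_pos ha0 ha _ _).le

end Vale.Agent.P161
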