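import Vale.Agent.P161.Lip
import Vale.Agent.P161.EfronStein

/-!
# The law of the signals
-/

open MeasureTheory Set Filter Topology
open scoped unitInterval ENNReal

namespace Vale.Agent.P161

universe u

/-! ### Changing variables one coordinate at a time -/

section General

variable {ι : Type u} [DecidableEq ι]

theorem lintegral_update (i : ι) {F : (ι → I) → ℝ≥0∞} (hF : Measurable F) :
    ∫⁻ x, F x ∂(iid ι) = ∫⁻ x, (∫⁻ t : I, F (Function.update x i t)) ∂(iid ι) := by
  have hm : Measurable (fun p : (ι → I) × I => Function.update p.1 i p.2) := measurable_update'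
  conv_lhs => rw [← EfronAux.map_update i]
  rw [lintegral_map hF hm]
  exact lintegral_prod (fun p : (ι → I) × I => F (Function.update p.1 i p.2))
    (hF.comp hm).aemeasurable

/-- Signals about the parameters `c` at the sites of `A`. -/
noncomputable def sigOn (c : ι → ℝ) (A : Finset ι) (w : ι → I) : ι → I :=
  fun j => if j ∈ A then sig (c j) (w j) else w j

theorem measurable_sigOn (c : ι → ℝ) (A : Finset ι) : Measurable (sigOn c A) := by
  rw [measurable_pi_iff]
  intro j
  unfold sigOn
  split_ifs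
  · exact measurable_sig.comp (measurable_const.prodMk (measurable_pi_apply j))
  · exact measurable_pi_apply j

theorem lintegral_sigOn (c : ι → ℝ) (hc : ∀ j, |c j| ≤ 1 / 5) (A : Finset ι)
    {F : (ι → I) → ℝ≥0∞} (hF : Measurable F) :
    ∫⁻ w, F (sigOn c A w) ∂(iid ι) =
      ∫⁻ x, F x * ∏ j ∈ A, ENNReal.ofReal (1 + c j * (1 - 2 * (x j : ℝ))) ∂(iid ι) := by
  induction A using Finset.induction_on generalizing F with
  | empty =>
    have : ∀ w : ι → I, sigOn c ∅ w = w := fun w => by funext j; simp [sigOn]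
    simp [this]
  | insert i A hi ih =>
    have hd : ∀ j, Measurable (fun x : ι → I => ENNReal.ofReal (1 + c j * (1 - 2 * (x j : ℝ)))) :=
      fun j => by fun_prop
    have hprod : Measurable (fun x : ι → I =>
        ∏ j ∈ A, ENNReal.ofReal (1 + c j * (1 - 2 * (x j : ℝ)))) :=
      Finset.measurable_fun_prod _ fun j _ => hd j
    rw [lintegral_update i (F := fun w => F (sigOn c (insert i A) w))
      (hF.comp (measurable_sigOn c _))]
    have h1 : ∀ (w : ι → I) (t : I), sigOn c (insert i A) (Function.update w i t) =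
        Function.update (sigOn c A w) i (sig (c i) t) := by
      intro w t
      funext j
      unfold sigOn
      by_cases hj : j = i
      · subst hj
        simp
      · simp [hj, Finset.mem_insert]
    have h2 : ∀ (w : ι → I) (t : I), Function.update (sigOn c A w) i t =
        sigOn c A (Function.update w i t) := by
      intro w t
      funext j
      unfold sigOn
      by_cases hj : j = i
      · subst hj
        simp [hi]
      · simp [hj]
    have h3 : ∀ w : ι → I, ∫⁻ t : I, F (sigOn c (insert i A) (Function.update w i t)) =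
        ∫⁻ z : I, (F (sigOn c A (Function.update w i z)) *
          ENNReal.ofReal (1 + c i * (1 - 2 * (z : ℝ)))) := by
      intro w
      simp_rw [h1]
      have hm : Measurable (fun z : I => F (Function.update (sigOn c A w) i z)) :=
        hF.comp (measurable_update _)
      rw [lintegral_sig (hc i) (F := fun z => F (Function.update (sigOn c A w) i z)) hm]
      simp_rw [h2]
    simp_rw [h3]
    have h4 : ∀ (w : ι → I) (z : I), F (sigOn c A (Function.update w i z)) *
          ENNReal.ofReal (1 + c i * (1 - 2 * (z : ℝ))) =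
        (fun x => F x * ENNReal.ofReal (1 + c i * (1 - 2 * (x i : ℝ))))
          (sigOn c A (Function.update w i z)) := by
      intro w z
      simp only
      congr 4
      unfold sigOn
      simp [hi]
    simp_rw [h4]
    have hF' : Measurable (fun x : ι → I => F x * ENNReal.ofReal (1 + c i * (1 - 2 * (x i : ℝ)))) :=
      hF.mul (hd i)
    rw [← lintegral_update i (F := fun w => (fun x : ι → I => F x *
      ENNReal.ofReal (1 + c i * (1 - 2 * (x i : ℝ)))) (sigOn c A w))
      (hF'.comp (measurable_sigOn c A)), ih hF']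
    apply lintegral_congr
    intro x
    rw [Finset.prod_insert hi, mul_assoc]

end General

variable {V : Type u}

/-- The signals about the configuration `τ`, from the uniform variables `w`. -/
noncomputable def xs (a : ℝ) (ω : (V → Bool) × (ℕ × V → I)) : ℕ × V → I :=
  fun j => sig (a * sg (ω.1 j.2)) (ω.2 j)

/-- The law of the configuration and the uniform variables. -/
noncomputable def PP (μ : Measure (V → Bool)) : Measure ((V → Bool) × (ℕ × V → I)) :=
  μ.prod (iid (ℕ × V))

instance (μ : Measure (V → Bool)) [IsProbabilityMeasure μ] : IsProbabilityMeasure (PP μ) := by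
  unfold PP; infer_instance

theorem measurable_xs (a : ℝ) : Measurable (xs (V := V) a) := by
  rw [measurable_pi_iff]
  intro j
  unfold xs
  exact measurable_sig.comp (((measurable_sg.comp ((measurable_pi_apply j.2).comp
    measurable_fst)).const_mul a).prodMk ((measurable_pi_apply j).comp measurable_snd))

theorem abs_a_sg_le {a : ℝ} (ha0 : 0 ≤ a) (ha : a ≤ 1 / 5) (b : Bool) : |a * sg b| ≤ 1 / 5 := by
  rw [abs_mul, abs_sg, mul_one, abs_of_nonneg ha0]; exact ha

/-- The joint law of the configuration and the signals at the sites of `A`. -/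
theorem lintegral_PP {a : ℝ} (ha0 : 0 ≤ a) (ha : a ≤ 1 / 5) (μ : Measure (V → Bool))
    [IsProbabilityMeasure μ] (A : Finset (ℕ × V)) {G : (V → Bool) → (ℕ × V → I) → ℝ≥0∞}
    (hG : Measurable (Function.uncurry G)) (hdep : ∀ τ, DependsOn (G τ) (A : Set (ℕ × V))) :
    ∫⁻ ω, G ω.1 (xs a ω) ∂(PP μ) =
      ∫⁻ x, ∫⁻ τ, G τ x * ∏ j ∈ A, ENNReal.ofReal (dens a (τ j.2) (x j)) ∂μ ∂(iid (ℕ × V)) := by
  classical
  have hdm : Measurable (fun p : (V → Bool) × (ℕ × V → I) =>
      ∏ j ∈ A, ENNReal.ofReal (dens a (p.1 j.2) (p.2 j))) := by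
    refine Finset.measurable_fun_prod _ fun j _ => ENNReal.measurable_ofReal.comp ?_
    unfold dens
    have h1 : Measurable (fun p : (V → Bool) × (ℕ × V → I) => sg (p.1 j.2)) :=
      measurable_sg.comp ((measurable_pi_apply j.2).comp measurable_fst)
    have h2 : Measurable (fun p : (V → Bool) × (ℕ × V → I) => ((p.2 j : I) : ℝ)) :=
      measurable_subtype_coe.comp ((measurable_pi_apply j).comp measurable_snd)
    exact ((h1.const_mul a).mul ((h2.const_mul 2).const_sub 1)).const_add 1
  have hjoint : Measurable (fun p : (V → Bool) × (ℕ × V → I) =>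
      G p.1 p.2 * ∏ j ∈ A, ENNReal.ofReal (dens a (p.1 j.2) (p.2 j))) := hG.mul hdm
  rw [lintegral_lintegral_swap hjoint.aemeasurable.prod_swap]
  unfold PP
  rw [lintegral_prod (fun ω : (V → Bool) × (ℕ × V → I) => G ω.1 (xs a ω))
    (hG.comp (measurable_fst.prodMk (measurable_xs a))).aemeasurable]
  apply lintegral_congr
  intro τ
  have h := lintegral_sigOn (fun j : ℕ × V => a * sg (τ j.2)) (fun j => abs_a_sg_le ha0 ha _) A
    (F := G τ) hG.of_uncurry_left
  have h1 : ∀ w : ℕ × V → I, G τ (xs a (τ, w)) = G τ (sigOn (fun j => a * sg (τ j.2)) A w) := by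
    intro w
    apply hdep τ
    intro j hj
    simp only [xs, sigOn]
    rw [if_pos (Finset.mem_coe.mp hj)]
  simp only
  simp_rw [h1]
  rw [h]
  rfl

/-! ### The predecessors of a site -/

open Classical in
/-- The sites of `ℕ × D` which come before the site `i`. -/
noncomputable def before (U : V → I) (D : Finset V) (i : ℕ × V) : Finset (ℕ × V) :=
  (sites i.1 D).filter (fun j => j.1 < i.1 ∨ U j.2 < U i.2)

theorem mem_before {U : V → I} {D : Finset V} {i j : ℕ × V} :
    j ∈ before U D i ↔ j.2 ∈ D ∧ (j.1 < i.1 ∨ (j.1 = i.1 ∧ U j.2 < U i.2)) := by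
  unfold before sites
  simp only [Finset.mem_filter, Finset.mem_product, Finset.mem_range]
  constructor
  · rintro ⟨⟨h1, h2⟩, h3⟩
    refine ⟨h2, ?_⟩
    by_cases h : j.1 < i.1
    · exact Or.inl h
    · right
      rcases h3 with h3 | h3
      · exact absurd h3 h
      · exact ⟨by omega, h3⟩
  · rintro ⟨h1, h2 | ⟨h2, h3⟩⟩
    · exact ⟨⟨by omega, h1⟩, Or.inl h2⟩
    · exact ⟨⟨by omega, h1⟩, Or.inr h3⟩

open Classical in
theorem sum_before (U : V → I) (D : Finset V) (i : ℕ × V) (F : ℕ × V → ℝ) :
    ∑ j ∈ before U D i, F j = ∑ w ∈ D, ((∑ l ∈ Finset.range i.1, F (l, w)) +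
      if U w < U i.2 then F (i.1, w) else 0) := by
  have h : before U D i = (Finset.range i.1 ×ˢ D) ∪
      ({i.1} ×ˢ (D.filter fun w => U w < U i.2)) := by
    ext j
    rw [mem_before]
    simp only [Finset.mem_union, Finset.mem_product, Finset.mem_range, Finset.mem_singleton,
      Finset.mem_filter]
    tauto
  rw [h, Finset.sum_union, Finset.sum_add_distrib, Finset.sum_product_right,
    Finset.sum_product_right]
  · congr 1
    simp only [Finset.sum_singleton]
    rw [Finset.sum_filter]
  · rw [Finset.disjoint_left]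
    rintro ⟨l, w⟩ h1 h2
    simp only [Finset.mem_product, Finset.mem_range, Finset.mem_singleton] at h1 h2
    omega

theorem prod_before {a : ℝ} (ha0 : 0 ≤ a) (ha : a ≤ 1 / 5) (U : V → I) (D : Finset V)
    (i : ℕ × V) (x : ℕ × V → I) (τ : V → Bool) :
    ∏ j ∈ before U D i, dens a (τ j.2) (x j) =
      (∏ j ∈ before U D i, cden a (x j)) * wt D (field a U x i) τ := by
  rw [Finset.prod_congr rfl fun j _ => dens_eq ha0 ha (τ j.2) (x j), Finset.prod_mul_distrib,
    ← Real.exp_sum]
  congr 1
  unfold wt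
  congr 1
  rw [sum_before U D i (fun j => ell a (x j) * sg (τ j.2))]
  apply Finset.sum_congr rfl
  intro w _
  unfold field
  rw [add_mul, Finset.sum_mul]
  congr 1
  split_ifs <;> simp

/-- The density of the signals at the sites of `A`. -/
noncomputable def Lk (a : ℝ) (μ : Measure (V → Bool)) (A : Finset (ℕ × V)) (x : ℕ × V → I) : ℝ :=
  ∫ τ, ∏ j ∈ A, dens a (τ j.2) (x j) ∂μ

theorem Lk_before {a : ℝ} (ha0 : 0 ≤ a) (ha : a ≤ 1 / 5) (μ : Measure (V → Bool))
    (U : V → I) (D : Finset V) (i : ℕ × V) (x : ℕ × V → I) :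
    Lk a μ (before U D i) x =
      (∏ j ∈ before U D i, cden a (x j)) * Zf μ D (field a U x i) := by
  unfold Lk Zf
  simp_rw [prod_before ha0 ha U D i x]
  rw [integral_const_mul]

theorem integral_sg_before {a : ℝ} (ha0 : 0 ≤ a) (ha : a ≤ 1 / 5) (μ : Measure (V → Bool))
    [IsProbabilityMeasure μ] (U : V → I) (D : Finset V) (i : ℕ × V) (x : ℕ × V → I) (v : V) :
    ∫ τ, sg (τ v) * ∏ j ∈ before U D i, dens a (τ j.2) (x j) ∂μ =
      mean μ D v (field a U x i) * Lk a μ (before U D i) x := by
  rw [Lk_before ha0 ha]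
  simp_rw [prod_before ha0 ha U D i x]
  have h : ∀ τ : V → Bool, sg (τ v) * ((∏ j ∈ before U D i, cden a (x j)) *
      wt D (field a U x i) τ) = (∏ j ∈ before U D i, cden a (x j)) *
        (sg (τ v) * wt D (field a U x i) τ) := fun τ => by ring
  simp_rw [h]
  rw [integral_const_mul]
  unfold mean tilt
  have := (Zf_pos μ D (field a U x i)).ne'
  field_simp

theorem abs_dens_le (a : ℝ) (b : Bool) (z : I) : |dens a b z| ≤ 1 + |a| := by
  unfold dens
  refine (abs_add_le _ _).trans ?_
  rw [abs_one, abs_mul, abs_mul, abs_sg, mul_one]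
  have : |1 - 2 * (z : ℝ)| ≤ 1 := by
    rw [abs_le]; constructor <;> linarith [z.2.1, z.2.2]
  have h := mul_le_mul_of_nonneg_left this (abs_nonneg a)
  linarith

theorem integrable_prod_dens (a : ℝ) (μ : Measure (V → Bool))
    [IsProbabilityMeasure μ] (A : Finset (ℕ × V)) (x : ℕ × V → I) {F : (V → Bool) → ℝ}
    (hF : Measurable F) {M : ℝ} (hM : ∀ τ, |F τ| ≤ M) :
    Integrable (fun τ => F τ * ∏ j ∈ A, dens a (τ j.2) (x j)) μ := by
  have hM0 : 0 ≤ M := (abs_nonneg _).trans (hM fun _ => true)
  refine Integrable.of_bound (hF.mul (Finset.measurable_fun_prod _ fun j _ => ?_)).aestronglyMeasurable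
    (M * ∏ _j ∈ A, (1 + |a|)) (ae_of_all _ fun τ => ?_)
  · exact (Measurable.of_discrete (f := fun b : Bool => dens a b (x j))).comp
      (measurable_pi_apply j.2)
  · rw [Real.norm_eq_abs, abs_mul, Finset.abs_prod]
    apply mul_le_mul (hM τ) _ (Finset.prod_nonneg fun _ _ => abs_nonneg _) hM0
    exact Finset.prod_le_prod (fun _ _ => abs_nonneg _) fun j _ => abs_dens_le _ _ _

/-- Adding a site to the set of its predecessors. -/
theorem Lk_insert {a : ℝ} (ha0 : 0 ≤ a) (ha : a ≤ 1 / 5) (μ : Measure (V → Bool))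
    [IsProbabilityMeasure μ] (U : V → I) (D : Finset V) (i : ℕ × V) (x : ℕ × V → I)
    [DecidableEq (ℕ × V)] :
    Lk a μ (insert i (before U D i)) x =
      Lk a μ (before U D i) x * (1 + param a μ D U x i * (1 - 2 * (x i : ℝ))) := by
  have hi : i ∉ before U D i := by
    rw [mem_before]
    rintro ⟨_, h | ⟨_, h⟩⟩
    · exact lt_irrefl _ h
    · exact lt_irrefl _ h
  have h1 : Lk a μ (insert i (before U D i)) x =
      ∫ τ, (1 * ∏ j ∈ before U D i, dens a (τ j.2) (x j)) +
        a * (1 - 2 * (x i : ℝ)) * (sg (τ i.2) * ∏ j ∈ before U D i, dens a (τ j.2) (x j)) ∂μ := by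
    unfold Lk
    apply integral_congr_ae
    refine ae_of_all _ fun τ => ?_
    simp only
    rw [Finset.prod_insert hi]
    unfold dens
    ring
  have hi1 : Integrable (fun τ : V → Bool =>
      1 * ∏ j ∈ before U D i, dens a (τ j.2) (x j)) μ :=
    integrable_prod_dens a μ _ x (F := fun _ => 1) measurable_const (M := 1) (by simp)
  have hi2 : Integrable (fun τ : V → Bool =>
      sg (τ i.2) * ∏ j ∈ before U D i, dens a (τ j.2) (x j)) μ :=
    integrable_prod_dens a μ _ x (F := fun τ => sg (τ i.2))
      (measurable_sg.comp (measurable_pi_apply _)) (M := 1) (fun τ => (abs_sg _).le)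
  rw [h1, integral_add hi1 (hi2.const_mul _), integral_const_mul (a * (1 - 2 * (x i : ℝ))),
    integral_sg_before ha0 ha]
  have h2 : ∫ τ : V → Bool, 1 * ∏ j ∈ before U D i, dens a (τ j.2) (x j) ∂μ =
      Lk a μ (before U D i) x := by
    unfold Lk
    simp
  rw [h2]
  unfold param
  ring

theorem Lk_nonneg {a : ℝ} (ha0 : 0 ≤ a) (ha : a ≤ 1 / 5) (μ : Measure (V → Bool))
    (A : Finset (ℕ × V)) (x : ℕ × V → I) : 0 ≤ Lk a μ A x :=
  integral_nonneg fun _ => Finset.prod_nonneg fun _ _ => (dens_pos ha0 ha _ _).le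

theorem measurable_Lk (a : ℝ) (μ : Measure (V → Bool)) [IsProbabilityMeasure μ]
    (A : Finset (ℕ × V)) : Measurable (Lk a μ A) := by
  have hdm : Measurable (fun p : (ℕ × V → I) × (V → Bool) =>
      ∏ j ∈ A, dens a (p.2 j.2) (p.1 j)) := by
    refine Finset.measurable_fun_prod _ fun j _ => ?_
    unfold dens
    have h1 : Measurable (fun p : (ℕ × V → I) × (V → Bool) => sg (p.2 j.2)) :=
      measurable_sg.comp ((measurable_pi_apply j.2).comp measurable_snd)
    have h2 : Measurable (fun p : (ℕ × V → I) × (V → Bool) => ((p.1 j : I) : ℝ)) :=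
      measurable_subtype_coe.comp ((measurable_pi_apply j).comp measurable_fst)
    exact ((h1.const_mul a).mul ((h2.const_mul 2).const_sub 1)).const_add 1
  unfold Lk
  exact (hdm.stronglyMeasurable.integral_prod_right (ν := μ)).measurable

theorem Lk_congr (a : ℝ) (μ : Measure (V → Bool)) (A : Finset (ℕ × V)) {x x' : ℕ × V → I}
    (h : ∀ j ∈ A, x j = x' j) : Lk a μ A x = Lk a μ A x' := by
  unfold Lk
  apply integral_congr_ae
  refine ae_of_all _ fun τ => ?_
  exact Finset.prod_congr rfl fun j hj => by rw [h j hj]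

theorem field_congr (a : ℝ) (U : V → I) (D : Finset V) (i : ℕ × V) {x x' : ℕ × V → I}
    (h : ∀ j ∈ before U D i, x j = x' j) (w : V) (hw : w ∈ D) :
    field a U x i w = field a U x' i w := by
  unfold field
  congr 1
  · apply Finset.sum_congr rfl
    intro l hl
    rw [h (l, w) (mem_before.mpr ⟨hw, Or.inl (Finset.mem_range.mp hl)⟩)]
  · split_ifs with hU
    · rw [h (i.1, w) (mem_before.mpr ⟨hw, Or.inr ⟨rfl, hU⟩⟩)]
    · rfl

theorem param_congr (a : ℝ) (μ : Measure (V → Bool)) (U : V → I) (D : Finset V) (i : ℕ × V)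
    {x x' : ℕ × V → I} (h : ∀ j ∈ before U D i, x j = x' j) :
    param a μ D U x i = param a μ D U x' i := by
  unfold param
  rw [mean_congr μ i.2 (field_congr a U D i h)]

end Vale.Agent.P161
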