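import Vale.Agent.P161.Defs

/-!
# Limits of Cauchy nets of maps to the unit interval
-/

open MeasureTheory Set Filter Topology
open scoped unitInterval ENNReal

namespace Vale.Agent.P161

universe u

theorem exists_limit {Ω : Type*} [MeasurableSpace Ω] {Q : Measure Ω} [IsProbabilityMeasure Q]
    {β : Type*} [SemilatticeSup β] [Nonempty β] (f : β → Ω → I) (hf : ∀ D, Measurable (f D))
    (hc : ∀ ε > (0 : ℝ), ∃ D₀, ∀ D ≥ D₀, ∫ ω, ((f D ω : ℝ) - f D₀ ω) ^ 2 ∂Q ≤ ε) :
    ∃ X : Ω → I, Measurable X ∧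
      Tendsto (fun D => ∫ ω, |(f D ω : ℝ) - X ω| ∂Q) atTop (𝓝 0) := by
  have hmf : ∀ D, Measurable (fun ω => (f D ω : ℝ)) := fun D => measurable_subtype_coe.comp (hf D)
  have hint : ∀ D, Integrable (fun ω => (f D ω : ℝ)) Q := fun D =>
    Integrable.of_bound (hmf D).aestronglyMeasurable 1 (ae_of_all _ fun ω => by
      rw [Real.norm_eq_abs, abs_le]; constructor <;> linarith [(f D ω).2.1, (f D ω).2.2])
  set F : β → (Ω →₁[Q] ℝ) := fun D => (hint D).toL1 (fun ω => (f D ω : ℝ)) with hF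
  have hdist : ∀ D D', dist (F D) (F D') = ∫ ω, |(f D ω : ℝ) - f D' ω| ∂Q := by
    intro D D'
    rw [dist_eq_norm, ← Integrable.toL1_sub, L1.norm_of_fun_eq_integral_norm]
    rfl
  have hsq : ∀ D D', Integrable (fun ω => ((f D ω : ℝ) - f D' ω) ^ 2) Q := fun D D' =>
    Integrable.of_bound (((hmf D).sub (hmf D')).pow_const 2).aestronglyMeasurable 1
      (ae_of_all _ fun ω => by
        rw [Real.norm_eq_abs, abs_pow]
        apply pow_le_one₀ (abs_nonneg _)
        rw [abs_le]; constructor <;> linarith [(f D ω).2.1, (f D ω).2.2, (f D' ω).2.1,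
          (f D' ω).2.2])
  have hcauchy : CauchySeq F := by
    rw [Metric.cauchySeq_iff']
    intro ε hε
    obtain ⟨D₀, hD₀⟩ := hc ((ε / 2) ^ 2) (by positivity)
    refine ⟨D₀, fun D hD => ?_⟩
    rw [hdist]
    have h1 : ∫ ω, |(f D ω : ℝ) - f D₀ ω| ∂Q ≤
        ∫ ω, (((f D ω : ℝ) - f D₀ ω) ^ 2 * (1 / ε) + ε / 4) ∂Q := by
      apply integral_mono ((hint D).sub (hint D₀)).abs
        (((hsq D D₀).mul_const _).add (integrable_const _))
      intro ω
      show |(f D ω : ℝ) - f D₀ ω| ≤ ((f D ω : ℝ) - f D₀ ω) ^ 2 * (1 / ε) + ε / 4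
      set t := |(f D ω : ℝ) - f D₀ ω| with ht
      have e : ((f D ω : ℝ) - f D₀ ω) ^ 2 = t ^ 2 := (sq_abs _).symm
      rw [e]
      have h2 : 0 ≤ (t - ε / 2) ^ 2 * (1 / ε) := by positivity
      have h3 : (t - ε / 2) ^ 2 * (1 / ε) = t ^ 2 * (1 / ε) - t + ε / 4 := by
        field_simp
        ring
      linarith
    rw [integral_add ((hsq D D₀).mul_const _) (integrable_const _), integral_mul_const,
      integral_const] at h1
    have h2 := hD₀ D hD
    have h3 : (∫ ω, ((f D ω : ℝ) - f D₀ ω) ^ 2 ∂Q) * (1 / ε) ≤ (ε / 2) ^ 2 * (1 / ε) := by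
      gcongr
    have h4 : (ε / 2) ^ 2 * (1 / ε) = ε / 4 := by field_simp; ring
    simp only [probReal_univ, smul_eq_mul, one_mul] at h1
    linarith
  obtain ⟨G, hG⟩ := cauchySeq_tendsto_of_complete hcauchy
  -- a measurable representative with values in the unit interval
  have hGm := (L1.aestronglyMeasurable_coeFn G)
  set g : Ω → ℝ := hGm.mk G with hg
  have hgm : Measurable g := hGm.stronglyMeasurable_mk.measurable
  have hgG : (G : Ω → ℝ) =ᵐ[Q] g := hGm.ae_eq_mk
  refine ⟨fun ω => Set.projIcc 0 1 zero_le_one (g ω), continuous_projIcc.measurable.comp hgm, ?_⟩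
  have hlim : Tendsto (fun D => dist (F D) G) atTop (𝓝 0) := tendsto_iff_dist_tendsto_zero.mp hG
  have hgint : Integrable g Q := (L1.integrable_coeFn G).congr hgG
  have hd2 : ∀ D, dist (F D) G = ∫ ω, |(f D ω : ℝ) - g ω| ∂Q := by
    intro D
    have e : G = hgint.toL1 g := by
      rw [← Integrable.toL1_coeFn G (L1.integrable_coeFn G)]
      exact (Integrable.toL1_eq_toL1_iff _ _ _ _).mpr hgG
    rw [e, dist_eq_norm, ← Integrable.toL1_sub, L1.norm_of_fun_eq_integral_norm]
    rfl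
  refine squeeze_zero (fun D => integral_nonneg fun ω => abs_nonneg _) (fun D => ?_) hlim
  rw [hd2]
  have hpm : Measurable (fun ω => ((Set.projIcc 0 1 zero_le_one (g ω) : I) : ℝ)) :=
    measurable_subtype_coe.comp (continuous_projIcc.measurable.comp hgm)
  have hpint : Integrable (fun ω => ((Set.projIcc 0 1 zero_le_one (g ω) : I) : ℝ)) Q :=
    Integrable.of_bound hpm.aestronglyMeasurable 1 (ae_of_all _ fun ω => by
      rw [Real.norm_eq_abs, abs_le]
      constructor <;> linarith [(Set.projIcc (0:ℝ) 1 zero_le_one (g ω)).2.1,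
        (Set.projIcc (0:ℝ) 1 zero_le_one (g ω)).2.2])
  apply integral_mono ((hint D).sub hpint).abs ((hint D).sub hgint).abs
  intro ω
  show |(f D ω : ℝ) - (Set.projIcc 0 1 zero_le_one (g ω) : I)| ≤ |(f D ω : ℝ) - g ω|
  have h1 : (f D ω : ℝ) = (Set.projIcc 0 1 zero_le_one (f D ω : ℝ) : I) := by
    rw [Set.projIcc_val]
  conv_lhs => rw [h1]
  exact Set.abs_projIcc_sub_projIcc zero_le_one

end Vale.Agent.P161
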