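import Vale.Agent.P161.Defs

/-!
# The law of a limit
-/

open MeasureTheory Set Filter Topology
open scoped unitInterval ENNReal

namespace Vale.Agent.P161

universe u

/-- Uniformly continuous functions of finitely many coordinates. -/
theorem abs_sub_le_of_compact {A : Type*} [Fintype A] (F : (A → I) → ℝ) (hF : Continuous F)
    {ε : ℝ} (hε : 0 < ε) :
    ∃ K : ℝ, 0 ≤ K ∧ ∀ x y : A → I, |F x - F y| ≤ ε + K * ∑ i, |(x i : ℝ) - y i| := by
  have huc : UniformContinuous F := CompactSpace.uniformContinuous_of_continuous hF
  obtain ⟨δ, hδ, hδ'⟩ := Metric.uniformContinuous_iff.mp huc ε hε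
  obtain ⟨M, hM⟩ := (isCompact_range hF).isBounded.exists_norm_le
  have hM' : ∀ x, |F x| ≤ M := fun x => hM (F x) (mem_range_self x)
  have hM0 : 0 ≤ M := (abs_nonneg _).trans (hM' fun _ => 0)
  refine ⟨2 * M / δ, by positivity, fun x y => ?_⟩
  by_cases h : dist x y < δ
  · have h1 := hδ' h
    rw [Real.dist_eq] at h1
    have h2 : 0 ≤ 2 * M / δ * ∑ i, |(x i : ℝ) - y i| :=
      mul_nonneg (by positivity) (Finset.sum_nonneg fun _ _ => abs_nonneg _)
    linarith
  · push Not at h
    have h1 : dist x y ≤ ∑ i, |(x i : ℝ) - y i| := by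
      rw [dist_pi_le_iff (Finset.sum_nonneg fun _ _ => abs_nonneg _)]
      intro i
      exact Finset.single_le_sum (f := fun i => |(x i : ℝ) - y i|) (fun _ _ => abs_nonneg _)
        (Finset.mem_univ i)
    have h2 : |F x - F y| ≤ 2 * M := by
      have := abs_sub (F x) (F y)
      linarith [hM' x, hM' y]
    have h3 : 2 * M = 2 * M / δ * δ := by field_simp
    have h4 : 2 * M / δ * δ ≤ 2 * M / δ * ∑ i, |(x i : ℝ) - y i| :=
      mul_le_mul_of_nonneg_left (h.trans h1) (by positivity)
    linarith

theorem law_of_limit {S : Type u} [Countable S] {Ω : Type*} [MeasurableSpace Ω]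
    {Q : Measure Ω} [IsProbabilityMeasure Q] (π : Measure (S → I)) [IsProbabilityMeasure π]
    {β : Type*} (l : Filter β) [l.NeBot] (f : β → Ω → S → I) (hf : ∀ D, Measurable (f D))
    (X : Ω → S → I) (hX : Measurable X)
    (hlim : ∀ j, Tendsto (fun D => ∫ ω, |(f D ω j : ℝ) - X ω j| ∂Q) l (𝓝 0))
    (hlaw : ∀ A : Finset S, ∀ᶠ D in l, ∀ F : (S → I) → ℝ≥0∞, Measurable F →
      DependsOn F (A : Set S) → ∫⁻ ω, F (f D ω) ∂Q = ∫⁻ x, F x ∂π) :
    Measure.map X Q = π := by
  have hprob : IsProbabilityMeasure (Measure.map X Q) :=
    Measure.isProbabilityMeasure_map hX.aemeasurable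
  -- it suffices to compare the finite-dimensional laws
  have hfin : ∀ A : Finset S, (Measure.map X Q).map A.restrict = π.map A.restrict := by
    intro A
    have hr : Measurable (A.restrict : (S → I) → _) := Finset.measurable_restrict A
    have h1 : IsProbabilityMeasure ((Measure.map X Q).map A.restrict) :=
      Measure.isProbabilityMeasure_map hr.aemeasurable
    have h2 : IsProbabilityMeasure (π.map A.restrict) :=
      Measure.isProbabilityMeasure_map hr.aemeasurable
    refine ext_of_forall_integral_eq_of_IsFiniteMeasure fun F => ?_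
    have hbd : ∀ x, |F x| ≤ ‖F‖ := fun x => F.norm_coe_le_norm x
    have hmF : Measurable (fun x : S → I => F (A.restrict x)) := F.continuous.measurable.comp hr
    rw [integral_map hr.aemeasurable F.continuous.measurable.aestronglyMeasurable,
      integral_map hr.aemeasurable F.continuous.measurable.aestronglyMeasurable,
      integral_map hX.aemeasurable (f := fun x : S → I => F (A.restrict x))
        hmF.aestronglyMeasurable]
    have hev : ∀ᶠ D in l, ∫ ω, F (A.restrict (f D ω)) ∂Q = ∫ x, F (A.restrict x) ∂π := by
      filter_upwards [hlaw A] with D hD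
      -- shift `F` to make it nonnegative
      have h3 : ∀ x, 0 ≤ F x + ‖F‖ := fun x => by
        have := (abs_le.mp (hbd x)).1; linarith
      have h4 := hD (fun x => ENNReal.ofReal (F (A.restrict x) + ‖F‖))
        (hmF.add_const _).ennreal_ofReal (by
          intro x y hxy
          have : A.restrict x = A.restrict y := by
            funext i
            exact hxy i.1 (Finset.mem_coe.mpr i.2)
          simp only [this])
      have i1 : Integrable (fun ω => F (A.restrict (f D ω))) Q :=
        Integrable.of_bound (hmF.comp (hf D)).aestronglyMeasurable ‖F‖ (ae_of_all _ fun ω => hbd _)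
      have i2 : Integrable (fun x => F (A.restrict x)) π :=
        Integrable.of_bound hmF.aestronglyMeasurable ‖F‖ (ae_of_all _ fun ω => hbd _)
      have h5 : ∫ ω, (F (A.restrict (f D ω)) + ‖F‖) ∂Q = ∫ x, (F (A.restrict x) + ‖F‖) ∂π := by
        rw [integral_eq_lintegral_of_nonneg_ae (ae_of_all _ fun ω => h3 _)
          ((hmF.comp (hf D)).add_const _).aestronglyMeasurable,
          integral_eq_lintegral_of_nonneg_ae (ae_of_all _ fun ω => h3 _)
          (hmF.add_const _).aestronglyMeasurable, h4]
      rw [integral_add i1 (integrable_const _), integral_add i2 (integrable_const _)] at h5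
      simp only [integral_const, probReal_univ, smul_eq_mul, one_mul] at h5
      linarith
    have htend : Tendsto (fun D => ∫ ω, F (A.restrict (f D ω)) ∂Q) l
        (𝓝 (∫ ω, F (A.restrict (X ω)) ∂Q)) := by
      rw [Metric.tendsto_nhds]
      intro ε hε
      obtain ⟨K, hK0, hK⟩ := abs_sub_le_of_compact (fun x => F x) F.continuous
        (ε := ε / 2) (by positivity)
      have hsum : Tendsto (fun D => K * ∑ i : A, ∫ ω, |(f D ω i : ℝ) - X ω i| ∂Q) l (𝓝 0) := by
        have := (tendsto_finsetSum (Finset.univ : Finset A) fun i _ => hlim i.1).const_mul K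
        simpa using this
      filter_upwards [hsum.eventually (gt_mem_nhds (half_pos hε))] with D hD
      have i1 : Integrable (fun ω => F (A.restrict (f D ω))) Q :=
        Integrable.of_bound (hmF.comp (hf D)).aestronglyMeasurable ‖F‖ (ae_of_all _ fun ω => hbd _)
      have i2 : Integrable (fun ω => F (A.restrict (X ω))) Q :=
        Integrable.of_bound (hmF.comp hX).aestronglyMeasurable ‖F‖ (ae_of_all _ fun ω => hbd _)
      have i3 : ∀ i : A, Integrable (fun ω => |(f D ω i : ℝ) - X ω i|) Q := by
        intro i
        refine Integrable.of_bound (((measurable_subtype_coe.comp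
          (measurable_pi_iff.mp (hf D) i)).sub (measurable_subtype_coe.comp
          (measurable_pi_iff.mp hX i))).abs).aestronglyMeasurable 1 (ae_of_all _ fun ω => ?_)
        rw [Real.norm_eq_abs, abs_abs, abs_le]
        constructor <;> linarith [(f D ω i).2.1, (f D ω i).2.2, (X ω i).2.1, (X ω i).2.2]
      have i4 : Integrable (fun ω => K * ∑ i : A, |(f D ω i : ℝ) - X ω i|) Q :=
        (integrable_finsetSum _ fun i _ => i3 i).const_mul K
      rw [Real.dist_eq, ← integral_sub i1 i2]
      calc |∫ ω, (F (A.restrict (f D ω)) - F (A.restrict (X ω))) ∂Q|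
          ≤ ∫ ω, |F (A.restrict (f D ω)) - F (A.restrict (X ω))| ∂Q :=
            abs_integral_le_integral_abs
        _ ≤ ∫ ω, (ε / 2 + K * ∑ i : A, |(f D ω i : ℝ) - X ω i|) ∂Q := by
            apply integral_mono (i1.sub i2).abs ((integrable_const _).add i4)
            intro ω
            exact hK _ _
        _ = ε / 2 + K * ∑ i : A, ∫ ω, |(f D ω i : ℝ) - X ω i| ∂Q := by
            rw [integral_add (integrable_const _) i4, integral_const_mul,
              integral_finsetSum _ fun i _ => i3 i]
            simp
        _ < ε := by linarith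
    have hconst : Tendsto (fun D => ∫ ω, F (A.restrict (f D ω)) ∂Q) l
        (𝓝 (∫ x, F (A.restrict x) ∂π)) :=
      tendsto_const_nhds.congr' (hev.mono fun D hD => hD.symm)
    exact tendsto_nhds_unique htend hconst
  -- uniqueness of the projective limit
  have hp1 : IsProjectiveLimit (Measure.map X Q) (fun A : Finset S => π.map A.restrict) := hfin
  have hp2 : IsProjectiveLimit π (fun A : Finset S => π.map A.restrict) := fun A => rfl
  exact hp1.unique hp2

end Vale.Agent.P161
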