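import Vale.Agent.P161.Defs

/-!
# Splitting one uniform label per vertex into i.i.d. labels
-/

open MeasureTheory Set Filter Topology
open scoped unitInterval ENNReal

namespace Vale.Agent.P161

universe u

variable {V : Type u}

namespace SeedAux

/-- Injective reindexing of an i.i.d. family. -/
theorem map_reindex {ι κ : Type*} (φ : κ → ι) (hφ : Function.Injective φ) :
    Measure.map (fun (b : ι → I) (k : κ) => b (φ k))
      (Measure.infinitePi (fun _ : ι => (volume : Measure I))) =
      Measure.infinitePi (fun _ : κ => (volume : Measure I)) := by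
  classical
  apply Measure.eq_infinitePi
  intro s t ht
  rw [Measure.map_apply (by fun_prop) (.pi s.countable_toSet fun k _ => ht k)]
  have hpre : (fun (b : ι → I) (k : κ) => b (φ k)) ⁻¹' (Set.pi s t) =
      Set.pi (s.image φ : Finset ι)
        (fun j => if h : ∃ k, φ k = j then t h.choose else Set.univ) := by
    ext b
    simp only [Set.mem_preimage, Set.mem_pi, Finset.mem_coe, Finset.mem_image,
      forall_exists_index, and_imp, forall_apply_eq_imp_iff₂]
    apply forall₂_congr
    intro k _
    have h : ∃ k', φ k' = φ k := ⟨k, rfl⟩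
    rw [dif_pos h, hφ h.choose_spec]
  rw [hpre, Measure.infinitePi_pi]
  · rw [Finset.prod_image (fun a _ b _ h => hφ h)]
    apply Finset.prod_congr rfl
    intro k _
    have h : ∃ k', φ k' = φ k := ⟨k, rfl⟩
    rw [dif_pos h, hφ h.choose_spec]
  · intro j hj
    obtain ⟨k, _, rfl⟩ := Finset.mem_image.1 hj
    have h : ∃ k', φ k' = φ k := ⟨k, rfl⟩
    rw [dif_pos h]
    exact ht _

/-- The labels are almost surely distinct. -/
theorem ae_injective [Countable V] :
    ∀ᵐ a ∂(Measure.infinitePi (fun _ : V => (volume : Measure I))), Function.Injective a := by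
  classical
  have h : ∀ u w : V, u ≠ w →
      ∀ᵐ a ∂(Measure.infinitePi (fun _ : V => (volume : Measure I))), a u ≠ a w := by
    intro u w huw
    have hlaw : Measure.map (fun a : V → I => (a u, a w))
        (Measure.infinitePi (fun _ : V => (volume : Measure I))) =
        (volume : Measure I).prod volume := by
      symm
      apply Measure.prod_eq
      intro s t hs ht
      rw [Measure.map_apply (by fun_prop) (hs.prod ht)]
      have : (fun a : V → I => (a u, a w)) ⁻¹' (s ×ˢ t) =
          Set.pi ({u, w} : Finset V) (fun v => if v = u then s else t) := by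
        ext a
        simp [huw.symm]
      rw [this, Measure.infinitePi_pi]
      · rw [Finset.prod_pair huw]
        simp [huw.symm]
      · intro v _
        split_ifs <;> assumption
    have hdiag : ((volume : Measure I).prod volume) {p : I × I | p.1 = p.2} = 0 := by
      rw [Measure.measure_prod_null (measurableSet_eq_fun measurable_fst measurable_snd)]
      filter_upwards with x
      have : (Prod.mk x ⁻¹' {p : I × I | p.1 = p.2}) = {x} := by
        ext y; simp [eq_comm]
      rw [this]
      simp
    rw [ae_iff]
    have : {a : V → I | ¬ a u ≠ a w} = (fun a : V → I => (a u, a w)) ⁻¹' {p | p.1 = p.2} := by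
      ext a; simp
    rw [this, ← Measure.map_apply (by fun_prop)
      (measurableSet_eq_fun measurable_fst measurable_snd), hlaw, hdiag]
  have h2 : ∀ᵐ a ∂(Measure.infinitePi (fun _ : V => (volume : Measure I))),
      ∀ u w : V, u ≠ w → a u ≠ a w := by
    rw [ae_all_iff]; intro u
    rw [ae_all_iff]; intro w
    by_cases huw : u = w
    · filter_upwards with a h; exact absurd huw h
    · filter_upwards [h u w huw] with a ha _ using ha
  filter_upwards [h2] with a ha u w huw
  by_contra hne
  exact ha u w hne huw

/-- Labels from the first label `a` and the other labels `b`. -/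
def assemble (p : (V → I) × (V × ℕ → I)) (v : V) : ℕ → I
  | 0 => p.1 v
  | n + 1 => p.2 (v, n)

theorem measurable_assemble : Measurable (assemble (V := V)) := by
  rw [measurable_pi_iff]
  intro v
  rw [measurable_pi_iff]
  intro n
  cases n with
  | zero => exact (measurable_pi_apply v).comp measurable_fst
  | succ n => exact (measurable_pi_apply (v, n)).comp measurable_snd

theorem map_assemble :
    Measure.map (assemble (V := V))
      ((Measure.infinitePi (fun _ : V => (volume : Measure I))).prod
        (Measure.infinitePi (fun _ : V × ℕ => (volume : Measure I)))) =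
      Measure.infinitePi fun _ : V => Measure.infinitePi fun _ : ℕ => (volume : Measure I) := by
  classical
  rw [← Measure.infinitePi_map_curry (fun (_ : V) (_ : ℕ) => (volume : Measure I))]
  have key : Measure.map (fun (p : (V → I) × (V × ℕ → I)) (j : V × ℕ) => assemble p j.1 j.2)
      ((Measure.infinitePi (fun _ : V => (volume : Measure I))).prod
        (Measure.infinitePi (fun _ : V × ℕ => (volume : Measure I)))) =
      Measure.infinitePi (fun _ : V × ℕ => (volume : Measure I)) := by
    have hm : Measurable (fun (p : (V → I) × (V × ℕ → I)) (j : V × ℕ) => assemble p j.1 j.2) := by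
      rw [measurable_pi_iff]
      intro j
      exact (measurable_pi_apply j.2).comp ((measurable_pi_apply j.1).comp measurable_assemble)
    apply Measure.eq_infinitePi
    intro s t ht
    rw [Measure.map_apply hm (.pi s.countable_toSet fun k _ => ht k)]
    set A : Finset V := (s.filter (fun j => j.2 = 0)).image Prod.fst with hA
    set B : Finset (V × ℕ) := (s.filter (fun j => j.2 ≠ 0)).image (fun j => (j.1, j.2 - 1)) with hB
    have hpre : (fun (p : (V → I) × (V × ℕ → I)) (j : V × ℕ) => assemble p j.1 j.2) ⁻¹'
        (Set.pi s t) = (Set.pi A (fun v => t (v, 0))) ×ˢ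
          (Set.pi B (fun j => t (j.1, j.2 + 1))) := by
      ext p
      simp only [Set.mem_preimage, Set.mem_pi, Finset.mem_coe, Set.mem_prod]
      constructor
      · intro h
        constructor
        · intro v hv
          obtain ⟨⟨v', n⟩, hj, rfl⟩ := Finset.mem_image.1 hv
          obtain ⟨hj, h0⟩ := Finset.mem_filter.1 hj
          obtain rfl : n = 0 := h0
          exact h _ hj
        · intro j hj
          obtain ⟨⟨v', n⟩, hj', rfl⟩ := Finset.mem_image.1 hj
          obtain ⟨hj'', h0⟩ := Finset.mem_filter.1 hj'
          obtain ⟨m, rfl⟩ : ∃ m, n = m + 1 := Nat.exists_eq_succ_of_ne_zero h0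
          exact h _ hj''
      · rintro ⟨h1, h2⟩ ⟨v, n⟩ hj
        cases n with
        | zero => exact h1 v (Finset.mem_image.2 ⟨(v, 0), Finset.mem_filter.2 ⟨hj, rfl⟩, rfl⟩)
        | succ n =>
          exact h2 (v, n) (Finset.mem_image.2
            ⟨(v, n + 1), Finset.mem_filter.2 ⟨hj, by simp⟩, rfl⟩)
    rw [hpre, Measure.prod_prod, Measure.infinitePi_pi _ (fun v _ => ht _),
      Measure.infinitePi_pi _ (fun v _ => ht _), hA, hB, Finset.prod_image, Finset.prod_image,
      ← Finset.prod_filter_mul_prod_filter_not s (fun j => j.2 = 0)]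
    · congr 1
      · apply Finset.prod_congr rfl
        rintro ⟨v, n⟩ hj
        obtain ⟨_, h0⟩ := Finset.mem_filter.1 hj
        obtain rfl : n = 0 := h0
        rfl
      · apply Finset.prod_congr rfl
        rintro ⟨v, n⟩ hj
        obtain ⟨_, h0⟩ := Finset.mem_filter.1 hj
        obtain ⟨m, rfl⟩ : ∃ m, n = m + 1 := Nat.exists_eq_succ_of_ne_zero h0
        rfl
    · rintro ⟨v, n⟩ hj ⟨v', n'⟩ hj' h
      have h0 := (Finset.mem_filter.1 hj).2
      have h0' := (Finset.mem_filter.1 hj').2
      simp only [ne_eq, Prod.mk.injEq] at h0 h0' h ⊢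
      exact ⟨h.1, by omega⟩
    · rintro ⟨v, n⟩ hj ⟨v', n'⟩ hj' h
      have h0 := (Finset.mem_filter.1 hj).2
      have h0' := (Finset.mem_filter.1 hj').2
      simp only at h0 h0' h
      rw [h0, h0', h]
  conv_rhs => rw [← key]
  rw [Measure.map_map (MeasurableEquiv.measurable _)]
  · rfl
  · rw [measurable_pi_iff]
    intro j
    exact (measurable_pi_apply j.2).comp ((measurable_pi_apply j.1).comp measurable_assemble)


end SeedAux

open SeedAux

theorem ae_injective [Countable V] : ∀ᵐ U ∂(iid V), Function.Injective U :=
  SeedAux.ae_injective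

theorem exists_seeds (V : Type u) [Countable V] : ∃ s : I → (ℕ → I) × I, Measurable s ∧
    Measure.map (fun U : V → I =>
      ((fun j : ℕ × V => (s (U j.2)).1 j.1), fun v => (s (U v)).2)) (iid V) =
      (Measure.infinitePi fun _ : ℕ × V => (volume : Measure I)).prod (iid V) := by
  obtain ⟨f, hf, hfm⟩ := Measure.exists_measurable_map_eq
    (Measure.infinitePi fun _ : ℕ => (volume : Measure I))
  refine ⟨fun u => (fun n => f u (n + 1), f u 0), ?_, ?_⟩
  · refine Measurable.prodMk (measurable_pi_lambda _ fun n => ?_) ?_
    · exact (measurable_pi_apply (n + 1)).comp hf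
    · exact (measurable_pi_apply 0).comp hf
  · have hW : Measure.map (fun (U : V → I) (v : V) => f (U v)) (iid V) =
        Measure.infinitePi fun _ : V => Measure.infinitePi fun _ : ℕ => (volume : Measure I) := by
      rw [iid, Measure.infinitePi_map_pi (fun _ : V => (volume : Measure I)) (fun _ => hf), hfm]
    have hWm : Measurable (fun (U : V → I) (v : V) => f (U v)) :=
      measurable_pi_lambda _ fun v => hf.comp (measurable_pi_apply v)
    set T : (V → ℕ → I) → (ℕ × V → I) × (V → I) :=
      fun w => (fun j => w j.2 (j.1 + 1), fun v => w v 0) with hT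
    have hTm : Measurable T := by
      refine Measurable.prodMk (measurable_pi_lambda _ fun j => ?_)
        (measurable_pi_lambda _ fun v => ?_)
      · exact (measurable_pi_apply (j.1 + 1)).comp (measurable_pi_apply j.2)
      · exact (measurable_pi_apply 0).comp (measurable_pi_apply v)
    have h1 : (fun U : V → I =>
        ((fun j : ℕ × V => ((fun u => (fun n => f u (n + 1), f u 0) : I → (ℕ → I) × I)
          (U j.2)).1 j.1),
        fun v => ((fun u => (fun n => f u (n + 1), f u 0) : I → (ℕ → I) × I) (U v)).2)) =
        T ∘ fun (U : V → I) (v : V) => f (U v) := rfl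
    rw [h1, ← Measure.map_map hTm hWm, hW, ← map_assemble,
      Measure.map_map hTm measurable_assemble]
    set R : (V × ℕ → I) → (ℕ × V → I) := fun b j => b (j.2, j.1) with hR
    have hRm : Measurable R := measurable_pi_lambda _ fun j => measurable_pi_apply _
    have h2 : (T ∘ assemble : (V → I) × (V × ℕ → I) → _) = Prod.map R id ∘ Prod.swap := rfl
    rw [h2, ← Measure.map_map (hRm.prodMap measurable_id) measurable_swap, Measure.prod_swap,
      ← Measure.map_prod_map _ _ hRm measurable_id, Measure.map_id]
    congr 1
    exact map_reindex (fun j : ℕ × V => (j.2, j.1)) (fun a b h => by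
      simp only [Prod.mk.injEq] at h
      exact Prod.ext h.2 h.1)

end Vale.Agent.P161
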