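import Vale.Agent.P161.Picard
import Vale.Agent.P161.Seeds

/-!
# Invariance of the i.i.d. laws
-/

open MeasureTheory Set Filter Topology
open scoped unitInterval ENNReal

namespace Vale.Agent.P161

universe u

variable {V : Type u}

theorem iid_translate (g : V ≃ V) : Measure.map (translate g) (iid V) = iid V :=
  SeedAux.map_reindex (ι := V) (κ := V) g.symm g.symm.injective

theorem iid_translateS (g : V ≃ V) :
    Measure.map (translateS g) (iid (ℕ × V)) = iid (ℕ × V) :=
  SeedAux.map_reindex (ι := ℕ × V) (κ := ℕ × V) (fun j => (j.1, g.symm j.2)) (by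
    rintro ⟨k, v⟩ ⟨l, w⟩ h
    simp only [Prod.mk.injEq, EmbeddingLike.apply_eq_iff_eq] at h
    exact Prod.ext h.1 h.2)

end Vale.Agent.P161
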