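import Vale.Agent.P161.Cauchy
import Vale.Agent.P161.Decode
import Vale.Agent.P161.LimitExists
import Vale.Agent.P161.LimitLaw
import Vale.Agent.P161.Translate

/-!
# The infinite-volume sampler
-/

open MeasureTheory Set Filter Topology
open scoped unitInterval ENNReal

namespace Vale.Agent.P161

universe u

variable {V : Type u}

/-- The law of the seeds and of the labels. -/
noncomputable def QQ (V : Type u) : Measure ((ℕ × V → I) × (V → I)) :=
  (iid (ℕ × V)).prod (iid V)

instance : IsProbabilityMeasure (QQ V) := by unfold QQ; infer_instance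

theorem measurable_sol_joint (a : ℝ) (μ : Measure (V → Bool)) [IsProbabilityMeasure μ]
    (D : Finset V) : Measurable (fun ω : (ℕ × V → I) × (V → I) => sol a μ D ω.2 ω.1) :=
  measurable_sol a μ D measurable_snd measurable_fst

theorem measurable_sol_joint_coe (a : ℝ) (μ : Measure (V → Bool)) [IsProbabilityMeasure μ]
    (D : Finset V) (j : ℕ × V) :
    Measurable (fun ω : (ℕ × V → I) × (V → I) => (sol a μ D ω.2 ω.1 j : ℝ)) :=
  measurable_subtype_coe.comp (measurable_pi_iff.mp (measurable_sol_joint a μ D) j)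

/-- The finite-volume samplers form a Cauchy net in `L²`. -/
theorem joint_cauchy [Countable V] {a : ℝ} {μ : Measure (V → Bool)} [IsProbabilityMeasure μ]
    {κ H : V → V → ℝ} {C : ℝ} (h : KerHyp a μ κ H C) (j : ℕ × V) {ε : ℝ} (hε : 0 < ε) :
    ∃ D₀ : Finset V, ∀ D ≥ D₀,
      ∫ ω, ((sol a μ D ω.2 ω.1 j : ℝ) - sol a μ D₀ ω.2 ω.1 j) ^ 2 ∂(QQ V) ≤ ε := by
  obtain ⟨k, v⟩ := j
  set e : Finset V × Finset V → (V → I) → ℝ := fun D U =>
    ∫ s, ((sol a μ D.1 U s (k, v) : ℝ) - sol a μ D.2 U s (k, v)) ^ 2 ∂(iid (ℕ × V)) with he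
  have hsq : ∀ (D D' : Finset V) (ω : (ℕ × V → I) × (V → I)),
      |((sol a μ D ω.2 ω.1 (k, v) : ℝ) - sol a μ D' ω.2 ω.1 (k, v)) ^ 2| ≤ 1 := by
    intro D D' ω
    rw [abs_pow]
    exact pow_le_one₀ (abs_nonneg _) (abs_coe_sub_le _ _)
  have hmj : ∀ D D' : Finset V, Measurable (fun ω : (ℕ × V → I) × (V → I) =>
      ((sol a μ D ω.2 ω.1 (k, v) : ℝ) - sol a μ D' ω.2 ω.1 (k, v)) ^ 2) := fun D D' =>
    ((measurable_sol_joint_coe a μ D (k, v)).sub
      (measurable_sol_joint_coe a μ D' (k, v))).pow_const 2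
  have hint : ∀ (D D' : Finset V) (U : V → I), Integrable (fun s : ℕ × V → I =>
      ((sol a μ D U s (k, v) : ℝ) - sol a μ D' U s (k, v)) ^ 2) (iid (ℕ × V)) := fun D D' U =>
    integrable_bdd (((measurable_coe_sol a μ D U (k, v)).sub
      (measurable_coe_sol a μ D' U (k, v))).pow_const 2) (M := 1) fun s => hsq D D' (s, U)
  have he0 : ∀ D U, 0 ≤ e D U := fun D U => integral_nonneg fun s => sq_nonneg _
  have he1 : ∀ D U, e D U ≤ 1 := by
    intro D U
    have : e D U ≤ ∫ _s, (1 : ℝ) ∂(iid (ℕ × V)) := by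
      apply integral_mono (hint _ _ _) (integrable_const _)
      intro s
      exact (le_abs_self _).trans (hsq D.1 D.2 (s, U))
    simpa using this
  -- convergence for fixed labels
  have hpt : ∀ U : V → I, Function.Injective U → Tendsto (fun D => e D U) atTop (𝓝 0) := by
    intro U hU
    rw [Metric.tendsto_nhds]
    intro δ hδ
    obtain ⟨D₀, _, hD₀⟩ := sol_cauchy h hU k v (ε := δ / 8) (by positivity)
    rw [eventually_atTop_prod_self]
    refine ⟨D₀, fun D D' h1 h2 => ?_⟩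
    have u1 := hD₀ D₀ D (Finset.Subset.refl _) h1
    have u2 := hD₀ D₀ D' (Finset.Subset.refl _) h2
    have u3 : e (D, D') U ≤ 2 * (δ / 8) + 2 * (δ / 8) := by
      calc e (D, D') U ≤ ∫ s, (2 * ((sol a μ D₀ U s (k, v) : ℝ) - sol a μ D U s (k, v)) ^ 2 +
            2 * ((sol a μ D₀ U s (k, v) : ℝ) - sol a μ D' U s (k, v)) ^ 2) ∂(iid (ℕ × V)) := by
            apply integral_mono (hint _ _ _)
              (((hint D₀ D U).const_mul 2).add ((hint D₀ D' U).const_mul 2))
            intro s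
            show ((sol a μ D U s (k, v) : ℝ) - sol a μ D' U s (k, v)) ^ 2 ≤
              2 * ((sol a μ D₀ U s (k, v) : ℝ) - sol a μ D U s (k, v)) ^ 2 +
              2 * ((sol a μ D₀ U s (k, v) : ℝ) - sol a μ D' U s (k, v)) ^ 2
            nlinarith [sq_nonneg (((sol a μ D₀ U s (k, v) : ℝ) - sol a μ D U s (k, v)) +
              ((sol a μ D₀ U s (k, v) : ℝ) - sol a μ D' U s (k, v)))]
        _ = 2 * ∫ s, ((sol a μ D₀ U s (k, v) : ℝ) - sol a μ D U s (k, v)) ^ 2 ∂(iid (ℕ × V)) +
            2 * ∫ s, ((sol a μ D₀ U s (k, v) : ℝ) - sol a μ D' U s (k, v)) ^ 2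
              ∂(iid (ℕ × V)) := by
            rw [integral_add ((hint D₀ D U).const_mul 2) ((hint D₀ D' U).const_mul 2),
              integral_const_mul, integral_const_mul]
        _ ≤ _ := by gcongr
    rw [Real.dist_eq, sub_zero, abs_of_nonneg (he0 _ _)]
    linarith
  have hem : ∀ D, AEStronglyMeasurable (fun U => e D U) (iid V) := fun D =>
    ((hmj D.1 D.2).stronglyMeasurable.integral_prod_left'
      (μ := iid (ℕ × V))).aestronglyMeasurable
  have hlim : Tendsto (fun D => ∫ U, e D U ∂(iid V)) atTop (𝓝 (∫ _U, (0 : ℝ) ∂(iid V))) := by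
    refine tendsto_integral_filter_of_dominated_convergence (fun _ => (1 : ℝ))
      (Eventually.of_forall hem) (Eventually.of_forall fun D => ae_of_all _ fun U => ?_)
      (integrable_const _) ?_
    · rw [Real.norm_eq_abs, abs_of_nonneg (he0 _ _)]
      exact he1 _ _
    · filter_upwards [ae_injective (V := V)] with U hU
      exact hpt U hU
  rw [integral_zero] at hlim
  have hev := hlim.eventually (gt_mem_nhds hε)
  rw [eventually_atTop_prod_self] at hev
  obtain ⟨D₀, hD₀⟩ := hev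
  refine ⟨D₀, fun D hD => ?_⟩
  have h1 := hD₀ D D₀ hD le_rfl
  unfold QQ
  rw [integral_prod_symm (fun ω : (ℕ × V → I) × (V → I) =>
      ((sol a μ D ω.2 ω.1 (k, v) : ℝ) - sol a μ D₀ ω.2 ω.1 (k, v)) ^ 2)
      (integrable_bdd (hmj D D₀) (hsq D D₀))]
  exact h1.le

theorem dependsOn_sol {a : ℝ} {μ : Measure (V → Bool)} [IsProbabilityMeasure μ]
    {κ H : V → V → ℝ} {C : ℝ} (h : KerHyp a μ κ H C) (U : V → I) (D : Finset V) (k : ℕ)
    {s s' : ℕ × V → I} (hs : ∀ j ∈ sites k D, s j = s' j) (j : ℕ × V) (hj : j ∈ sites k D) :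
    sol a μ D U s j = sol a μ D U s' j := by
  obtain ⟨l, v⟩ := j
  have hj' := Finset.mem_product.mp hj
  simp only [Finset.mem_range] at hj'
  have h1 := dependsOn_of_lip (f := fun s : ℕ × V → I => (sol a μ D U s (l, v) : ℝ))
    (fun s s' => sol_lip h.a0.le h.a1 h.κ0 h.H0 h.H1 (h.conv D) (h.lip D) h.C0 h.C1 U s s' l v
      hj'.2)
  apply Subtype.ext
  apply h1
  intro i hi
  apply hs
  have hi' := Finset.mem_product.mp (Finset.mem_coe.mp hi)
  rw [Finset.mem_range] at hi'
  exact Finset.mem_product.mpr ⟨Finset.mem_range.mpr (by omega), hi'.2⟩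

/-- The law of the finite-volume sampler. -/
theorem lintegral_sol [Countable V] {a : ℝ} {μ : Measure (V → Bool)} [IsProbabilityMeasure μ]
    {κ H : V → V → ℝ} {C : ℝ} (h : KerHyp a μ κ H C) (k : ℕ) (D : Finset V)
    {A : Finset (ℕ × V)} (hA : A ⊆ sites k D) {F : (ℕ × V → I) → ℝ≥0∞} (hF : Measurable F)
    (hdep : DependsOn F (A : Set (ℕ × V))) :
    ∫⁻ ω, F (sol a μ D ω.2 ω.1) ∂(QQ V) = ∫⁻ x, F x ∂(Measure.map (xs a) (PP μ)) := by
  unfold QQ
  rw [lintegral_prod_symm (fun ω : (ℕ × V → I) × (V → I) => F (sol a μ D ω.2 ω.1))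
    (hF.comp (measurable_sol_joint a μ D)).aemeasurable, lintegral_map hF (measurable_xs a)]
  have h1 : ∀ᵐ U ∂(iid V), ∫⁻ s, F (sol a μ D U s) ∂(iid (ℕ × V)) =
      ∫⁻ ω, F (xs a ω) ∂(PP μ) := by
    filter_upwards [ae_injective (V := V)] with U hU
    have hms : Measurable (fun s : ℕ × V → I => sol a μ D ((fun _ => U) s) (id s)) :=
      measurable_sol a μ D measurable_const measurable_id
    rw [← lintegral_inn h.a0.le h.a1 μ D hU k (F := fun s => F (sol a μ D U s)) (hF.comp hms)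
      (fun s s' hs => hdep fun j hj => dependsOn_sol h U D k
        (fun i hi => hs i (Finset.mem_coe.mpr hi)) j (hA (Finset.mem_coe.mp hj)))]
    apply lintegral_congr
    intro ω
    apply hdep
    intro j hj
    obtain ⟨l, v⟩ := j
    exact sol_inn h.a0.le h.a1 μ D U _ l (Finset.mem_product.mp (hA (Finset.mem_coe.mp hj))).2
  rw [lintegral_congr_ae h1, lintegral_const, measure_univ, mul_one]

/-- The translation of the seeds and of the labels. -/
def translateQ (g : V ≃ V) (ω : (ℕ × V → I) × (V → I)) : (ℕ × V → I) × (V → I) :=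
  (translateS g ω.1, translate g ω.2)

theorem measurable_translateQ (g : V ≃ V) : Measurable (translateQ g) :=
  ((measurable_translateS g).comp measurable_fst).prodMk
    ((measurable_translate g).comp measurable_snd)

theorem map_translateQ (g : V ≃ V) : Measure.map (translateQ g) (QQ V) = QQ V := by
  have := Measure.map_prod_map (iid (ℕ × V)) (iid V) (measurable_translateS (A := I) g)
    (measurable_translate (A := I) g)
  unfold QQ
  rw [iid_translate, iid_translateS] at this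
  exact this.symm

theorem exists_limit_finset {Ω : Type*} [MeasurableSpace Ω] {Q : Measure Ω}
    [IsProbabilityMeasure Q] (f : Finset V → Ω → I) (hf : ∀ D, Measurable (f D))
    (hc : ∀ ε > (0 : ℝ), ∃ D₀ : Finset V, ∀ D ≥ D₀, ∫ ω, ((f D ω : ℝ) - f D₀ ω) ^ 2 ∂Q ≤ ε) :
    ∃ X : Ω → I, Measurable X ∧
      Tendsto (fun D => ∫ ω, |(f D ω : ℝ) - X ω| ∂Q) atTop (𝓝 0) := by
  classical
  exact exists_limit f hf hc

/-- The defining property of the infinite-volume sampler. -/
def IsLimit (a : ℝ) (μ : Measure (V → Bool)) (X : (ℕ × V → I) × (V → I) → ℕ × V → I) : Prop :=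
  ∀ j : ℕ × V, Tendsto (fun D : Finset V => ∫ ω, |(sol a μ D ω.2 ω.1 j : ℝ) - X ω j| ∂(QQ V))
    atTop (𝓝 0)

theorem exists_limit_coord [Countable V] {a : ℝ} {μ : Measure (V → Bool)} [IsProbabilityMeasure μ]
    {κ H : V → V → ℝ} {C : ℝ} (h : KerHyp a μ κ H C) (j : ℕ × V) :
    ∃ X : (ℕ × V → I) × (V → I) → I, Measurable X ∧
      Tendsto (fun D : Finset V => ∫ ω, |(sol a μ D ω.2 ω.1 j : ℝ) - X ω| ∂(QQ V)) atTop
        (𝓝 0) := by
  have hm : ∀ D : Finset V, Measurable (fun ω : (ℕ × V → I) × (V → I) =>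
      sol a μ D ω.2 ω.1 j) := fun D => measurable_pi_iff.mp (measurable_sol_joint a μ D) j
  have hc : ∀ ε > (0 : ℝ), ∃ D₀ : Finset V, ∀ D ≥ D₀,
      ∫ ω, ((sol a μ D ω.2 ω.1 j : ℝ) - sol a μ D₀ ω.2 ω.1 j) ^ 2 ∂(QQ V) ≤ ε :=
      fun ε hε => joint_cauchy h j hε
  have := exists_limit_finset (Q := QQ V) (fun (D : Finset V) (ω : (ℕ × V → I) × (V → I)) => sol a μ D ω.2 ω.1 j)
  have h2 := this hm hc
  exact h2

theorem exists_isLimit [Countable V] {a : ℝ} {μ : Measure (V → Bool)} [IsProbabilityMeasure μ]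
    {κ H : V → V → ℝ} {C : ℝ} (h : KerHyp a μ κ H C) :
    ∃ X : (ℕ × V → I) × (V → I) → ℕ × V → I, Measurable X ∧ IsLimit a μ X := by
  have hex : ∀ j : ℕ × V, ∃ X : (ℕ × V → I) × (V → I) → I, Measurable X ∧
      Tendsto (fun D : Finset V => ∫ ω, |(sol a μ D ω.2 ω.1 j : ℝ) - X ω| ∂(QQ V)) atTop
        (𝓝 0) := by
    intro j
    exact exists_limit_coord h j
  choose X hXm hXlim using hex
  exact ⟨fun ω j => X j ω, measurable_pi_iff.mpr hXm, hXlim⟩

theorem isLimit_law [Countable V] {a : ℝ} {μ : Measure (V → Bool)} [IsProbabilityMeasure μ]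
    {κ H : V → V → ℝ} {C : ℝ} (h : KerHyp a μ κ H C)
    {X : (ℕ × V → I) × (V → I) → ℕ × V → I} (hXm : Measurable X) (hX : IsLimit a μ X) :
    Measure.map X (QQ V) = Measure.map (xs a) (PP μ) := by
  classical
  have : IsProbabilityMeasure (Measure.map (xs a) (PP μ)) :=
    Measure.isProbabilityMeasure_map (measurable_xs a).aemeasurable
  have key := law_of_limit (Q := QQ V) (S := ℕ × V) (Measure.map (xs a) (PP μ))
    (atTop : Filter (Finset V)) (fun (D : Finset V) ω => sol a μ D ω.2 ω.1)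
    (measurable_sol_joint a μ) X hXm hX
  apply key
  intro A
  rw [eventually_atTop]
  refine ⟨A.image Prod.snd, fun D hD F hF hdep => ?_⟩
  have hA : A ⊆ sites (A.sup Prod.fst) D := by
    intro j hj
    have h1 : j.1 ≤ A.sup Prod.fst := Finset.le_sup (f := Prod.fst) hj
    have h2 : j.2 ∈ D := hD (Finset.mem_image_of_mem _ hj)
    exact Finset.mem_product.mpr ⟨Finset.mem_range.mpr (by omega), h2⟩
  exact lintegral_sol h (A.sup Prod.fst) D hA hF hdep

theorem integrable_abs_sub {Ω : Type*} [MeasurableSpace Ω] {P : Measure Ω}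
    [IsProbabilityMeasure P] {F G : Ω → I} (hF : Measurable F) (hG : Measurable G) :
    Integrable (fun ω => |(F ω : ℝ) - G ω|) P :=
  integrable_bdd ((measurable_subtype_coe.comp hF).sub (measurable_subtype_coe.comp hG)).abs
    (M := 1) (fun ω => by rw [abs_abs]; exact abs_coe_sub_le _ _)

theorem isLimit_equivariant_coord {a : ℝ} {μ : Measure (V → Bool)} [IsProbabilityMeasure μ]
    {X : (ℕ × V → I) × (V → I) → ℕ × V → I} (hXm : Measurable X) (hX : IsLimit a μ X)
    {g : V ≃ V} (hg : Measure.map (translate g) μ = μ) (k : ℕ) (v : V) :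
    ∀ᵐ ω ∂(QQ V), X (translateQ g ω) (k, g v) = X ω (k, v) := by
  have hmX : ∀ i, Measurable (fun ω => X ω i) := fun i => measurable_pi_iff.mp hXm i
  have hms : ∀ (D : Finset V) i, Measurable (fun ω : (ℕ × V → I) × (V → I) =>
      sol a μ D ω.2 ω.1 i) := fun D i => measurable_pi_iff.mp (measurable_sol_joint a μ D) i
  have hmt : Measurable (fun ω => X (translateQ g ω) (k, g v)) :=
    (hmX (k, g v)).comp (measurable_translateQ g)
  set δ : ℝ := ∫ ω, |(X (translateQ g ω) (k, g v) : ℝ) - X ω (k, v)| ∂(QQ V) with hδ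
  have hle : ∀ D : Finset V, δ ≤
      (∫ ω, |(sol a μ (D.map g.toEmbedding) ω.2 ω.1 (k, g v) : ℝ) - X ω (k, g v)| ∂(QQ V)) +
      ∫ ω, |(sol a μ D ω.2 ω.1 (k, v) : ℝ) - X ω (k, v)| ∂(QQ V) := by
    intro D
    have e1 : ∫ ω, |(sol a μ (D.map g.toEmbedding) ω.2 ω.1 (k, g v) : ℝ) -
        X ω (k, g v)| ∂(QQ V) =
        ∫ ω, |(sol a μ D ω.2 ω.1 (k, v) : ℝ) - X (translateQ g ω) (k, g v)| ∂(QQ V) := by
      conv_lhs => rw [← map_translateQ g]
      rw [integral_map (measurable_translateQ g).aemeasurable]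
      · apply integral_congr_ae
        refine ae_of_all _ fun ω => ?_
        simp only
        have e2 : sol a μ (D.map g.toEmbedding) (translateQ g ω).2 (translateQ g ω).1 =
            translateS g (sol a μ D ω.2 ω.1) := sol_translate a hg D ω.2 ω.1
        rw [e2]
        simp [translateS]
      · exact ((measurable_subtype_coe.comp (hms _ _)).sub
          (measurable_subtype_coe.comp (hmX _))).abs.aestronglyMeasurable
    have i1 := integrable_abs_sub (P := QQ V) (hms D (k, v)) hmt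
    have i2 := integrable_abs_sub (P := QQ V) (hms D (k, v)) (hmX (k, v))
    rw [e1, ← integral_add i1 i2]
    apply integral_mono (integrable_abs_sub hmt (hmX (k, v))) (i1.add i2)
    intro ω
    show |(X (translateQ g ω) (k, g v) : ℝ) - X ω (k, v)| ≤
      |(sol a μ D ω.2 ω.1 (k, v) : ℝ) - X (translateQ g ω) (k, g v)| +
        |(sol a μ D ω.2 ω.1 (k, v) : ℝ) - X ω (k, v)|
    rw [abs_sub_comm (sol a μ D ω.2 ω.1 (k, v) : ℝ) (X (translateQ g ω) (k, g v) : ℝ)]
    exact abs_sub_le _ _ _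
  have htop : Tendsto (fun D : Finset V => D.map g.toEmbedding) atTop atTop := by
    rw [tendsto_atTop_atTop]
    intro D
    refine ⟨D.map g.symm.toEmbedding, fun D' hD' => ?_⟩
    intro w hw
    rw [Finset.mem_map]
    refine ⟨g.symm w, hD' ?_, by simp⟩
    rw [Finset.mem_map]
    exact ⟨w, hw, rfl⟩
  have hlim0 := ((hX (k, g v)).comp htop).add (hX (k, v))
  rw [add_zero] at hlim0
  have hδ0 : δ ≤ 0 := ge_of_tendsto' hlim0 hle
  have hδ1 : 0 ≤ δ := integral_nonneg fun ω => abs_nonneg _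
  have hδ2 : δ = 0 := le_antisymm hδ0 hδ1
  have := (integral_eq_zero_iff_of_nonneg (fun ω => abs_nonneg _)
    (integrable_abs_sub (P := QQ V) hmt (hmX (k, v)))).mp hδ2
  filter_upwards [this] with ω hω
  have h0 : |(X (translateQ g ω) (k, g v) : ℝ) - X ω (k, v)| = 0 := hω
  exact Subtype.ext (by have := abs_eq_zero.mp h0; linarith)

/-- The infinite-volume sampler. -/
theorem exists_sampler [Countable V] {a : ℝ} {μ : Measure (V → Bool)} [IsProbabilityMeasure μ]
    {κ H : V → V → ℝ} {C : ℝ} (h : KerHyp a μ κ H C) :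
    ∃ X : (ℕ × V → I) × (V → I) → ℕ × V → I, Measurable X ∧
      Measure.map X (QQ V) = Measure.map (xs a) (PP μ) ∧
      ∀ g : V ≃ V, Measure.map (translate g) μ = μ →
        ∀ᵐ ω ∂(QQ V), X (translateQ g ω) = translateS g (X ω) := by
  obtain ⟨X, hXm, hX⟩ := exists_isLimit h
  refine ⟨X, hXm, isLimit_law h hXm hX, fun g hg => ?_⟩
  have hall : ∀ᵐ ω ∂(QQ V), ∀ j : ℕ × V, X (translateQ g ω) (j.1, g j.2) = X ω (j.1, j.2) :=
    ae_all_iff.mpr fun j => isLimit_equivariant_coord hXm hX hg j.1 j.2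
  filter_upwards [hall] with ω hω
  funext j
  have := hω (j.1, g.symm j.2)
  simpa [translateS] using this

/-- A process with an `ℓ²` influence kernel is a factor of IID. -/
theorem factor_of_kernel [Countable V] (μ : Measure (V → Bool)) [IsProbabilityMeasure μ]
    (κ H : V → V → ℝ) (C : ℝ) (hκ0 : ∀ v w, 0 ≤ κ v w) (hH0 : ∀ v w, 0 ≤ H v w)
    (hH1 : ∀ v, 1 ≤ H v v)
    (hconv : ∀ (D : Finset V) (v z : V), ∑ w ∈ D, κ v w * H w z ≤ C * H v z)
    (hH2 : ∀ v, Summable fun z => H v z ^ 2)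
    (hlip : ∀ (D : Finset V) (v : V) (Y Y' : V → ℝ),
      |mean μ D v Y - mean μ D v Y'| ≤ ∑ w ∈ D, κ v w * |Y w - Y' w|) :
    ∃ Φ : (V → I) → (V → Bool), Measurable Φ ∧ Measure.map Φ (iid V) = μ ∧
      ∀ g : V ≃ V, Measure.map (translate g) μ = μ →
        ∀ᵐ U ∂(iid V), Φ (translate g U) = translate g (Φ U) := by
  -- the strength of the signals
  obtain ⟨a, ha0, ha1, ha2⟩ : ∃ a : ℝ, 0 < a ∧ a ≤ 1 / 5 ∧ a ^ 2 * (max C 0) ≤ 1 / 2 := by
    refine ⟨1 / (5 * (1 + max C 0)), by positivity, ?_, ?_⟩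
    · have : 0 ≤ max C 0 := le_max_right _ _
      rw [div_le_div_iff₀ (by positivity) (by norm_num)]
      linarith
    · have h0 : 0 ≤ max C 0 := le_max_right _ _
      rw [div_pow, one_pow, div_mul_eq_mul_div, one_mul, div_le_div_iff₀ (by positivity)
        (by norm_num)]
      nlinarith
  have h : KerHyp a μ κ H (max C 0) := {
    a0 := ha0
    a1 := ha1
    κ0 := hκ0
    H0 := hH0
    H1 := hH1
    conv := fun D v z => (hconv D v z).trans
      (mul_le_mul_of_nonneg_right (le_max_left _ _) (hH0 _ _))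
    H2 := hH2
    lip := hlip
    C0 := le_max_right _ _
    C1 := ha2 }
  obtain ⟨X, hXm, hXlaw, hXeq⟩ := exists_sampler h
  obtain ⟨ψ, hψm, hψeq, hψ⟩ := decode ha0 ha1 μ
  obtain ⟨s, hs, hslaw⟩ := exists_seeds V
  set S : (V → I) → (ℕ × V → I) × (V → I) := fun U =>
    ((fun j : ℕ × V => (s (U j.2)).1 j.1), fun v => (s (U v)).2) with hS
  have hSm : Measurable S := by
    refine Measurable.prodMk ?_ ?_
    · rw [measurable_pi_iff]
      intro j
      exact (measurable_pi_apply j.1).comp (measurable_fst.comp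
        (hs.comp (measurable_pi_apply j.2)))
    · rw [measurable_pi_iff]
      intro v
      exact measurable_snd.comp (hs.comp (measurable_pi_apply v))
  have hSlaw : Measure.map S (iid V) = QQ V := hslaw
  refine ⟨fun U => ψ (X (S U)), hψm.comp (hXm.comp hSm), ?_, ?_⟩
  · have e1 : Measure.map (fun U => ψ (X (S U))) (iid V) =
        Measure.map ψ (Measure.map X (Measure.map S (iid V))) := by
      rw [Measure.map_map hXm hSm, Measure.map_map hψm (hXm.comp hSm)]
      rfl
    rw [e1, hSlaw, hXlaw, Measure.map_map hψm (measurable_xs a)]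
    have e2 : Measure.map (ψ ∘ xs a) (PP μ) = Measure.map Prod.fst (PP μ) :=
      Measure.map_congr hψ
    rw [e2]
    unfold PP
    rw [Measure.map_fst_prod]
    simp
  · intro g hg
    have h1 := hXeq g hg
    rw [← hSlaw] at h1
    have h2 := ae_of_ae_map hSm.aemeasurable h1
    filter_upwards [h2] with U hU
    have e : S (translate g U) = translateQ g (S U) := rfl
    rw [e, hU, hψeq]

end Vale.Agent.P161
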