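import Vale.Agent.P161.Picard

/-!
# Influences of the seeds on the finite-volume sampler
-/

open MeasureTheory Set Filter Topology
open scoped unitInterval ENNReal

namespace Vale.Agent.P161

universe u

variable {V : Type u}

/-- The variation of the seeds at `z` in the rounds `0, ..., k`. -/
noncomputable def vari (s s' : ℕ × V → I) (k : ℕ) (z : V) : ℝ :=
  ∑ l ∈ Finset.range (k + 1), |(s (l, z) : ℝ) - s' (l, z)|

theorem vari_nonneg (s s' : ℕ × V → I) (k : ℕ) (z : V) : 0 ≤ vari s s' k z :=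
  Finset.sum_nonneg fun _ _ => abs_nonneg _

theorem vari_mono (s s' : ℕ × V → I) {l k : ℕ} (h : l ≤ k) (z : V) :
    vari s s' l z ≤ vari s s' k z := by
  unfold vari
  apply Finset.sum_le_sum_of_subset_of_nonneg
  · exact Finset.range_subset_range.mpr (by omega)
  · intro _ _ _; exact abs_nonneg _

theorem le_vari (s s' : ℕ × V → I) (k : ℕ) (z : V) :
    |(s (k, z) : ℝ) - s' (k, z)| ≤ vari s s' k z := by
  unfold vari
  exact Finset.single_le_sum (f := fun l => |(s (l, z) : ℝ) - s' (l, z)|)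
    (fun _ _ => abs_nonneg _) (Finset.mem_range.mpr (by omega))

theorem abs_sig_sub_le {s s' : ℝ} (hs : |s| ≤ 1 / 5) (hs' : |s'| ≤ 1 / 5) (v v' : I) :
    |(sig s v : ℝ) - sig s' v'| ≤ 5 / 4 * |(v : ℝ) - v'| + 5 / 16 * |s - s'| := by
  have h1 := sig_lip2 hs v v'
  have h2 := sig_lip hs hs' v'
  calc |(sig s v : ℝ) - sig s' v'|
      = |((sig s v : ℝ) - sig s v') + ((sig s v' : ℝ) - sig s' v')| := by congr 1; ring
    _ ≤ _ := (abs_add_le _ _).trans (add_le_add h1 h2)

theorem sum_three (k : ℕ) :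
    ∑ l ∈ Finset.range (k + 1), (3 : ℝ) ^ (l + 1) = 3 / 2 * 3 ^ (k + 1) - 3 / 2 := by
  induction k with
  | zero => norm_num
  | succ k ih => rw [Finset.sum_range_succ, ih]; ring

theorem picard_lip {a : ℝ} (ha0 : 0 ≤ a) (ha : a ≤ 1 / 5) {μ : Measure (V → Bool)}
    [IsProbabilityMeasure μ] {κ H : V → V → ℝ} {C : ℝ} (hκ0 : ∀ v w, 0 ≤ κ v w)
    (hH0 : ∀ v w, 0 ≤ H v w) (hH1 : ∀ v, 1 ≤ H v v) {D : Finset V}
    (hconv : ∀ (v z : V), ∑ w ∈ D, κ v w * H w z ≤ C * H v z)
    (hlip : ∀ (v : V) (Y Y' : V → ℝ),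
      |mean μ D v Y - mean μ D v Y'| ≤ ∑ w ∈ D, κ v w * |Y w - Y' w|)
    (hC0 : 0 ≤ C) (hC : a ^ 2 * C ≤ 1 / 2) (U : V → I) (s s' : ℕ × V → I) (n k : ℕ) (v : V)
    (hv : v ∈ D) :
    |(picard a μ D U s n (k, v) : ℝ) - picard a μ D U s' n (k, v)| ≤
      3 ^ (k + 1) * ∑ z ∈ D, H v z * vari s s' k z := by
  induction n generalizing k v with
  | zero =>
    simp only [picard, sub_self, abs_zero]
    exact mul_nonneg (by positivity)
      (Finset.sum_nonneg fun z _ => mul_nonneg (hH0 _ _) (vari_nonneg _ _ _ _))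
  | succ n ih =>
    set S : V → ℝ := fun w => ∑ z ∈ D, H w z * vari s s' k z with hS
    have hS0 : ∀ w, 0 ≤ S w := fun w =>
      Finset.sum_nonneg fun z _ => mul_nonneg (hH0 _ _) (vari_nonneg _ _ _ _)
    set x := picard a μ D U s n with hx
    set x' := picard a μ D U s' n with hx'
    -- previous bounds, in terms of `S`
    have hprev : ∀ l ≤ k, ∀ w ∈ D, |ell a (x (l, w)) - ell a (x' (l, w))| ≤
        3 * a * (3 ^ (l + 1) * S w) := by
      intro l hl w hw
      refine (ell_lip ha0 ha _ _).trans ?_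
      have h1 := ih l w hw
      have h2 : ∑ z ∈ D, H w z * vari s s' l z ≤ S w := by
        apply Finset.sum_le_sum
        intro z _
        exact mul_le_mul_of_nonneg_left (vari_mono s s' hl z) (hH0 _ _)
      have h3 : |(x (l, w) : ℝ) - x' (l, w)| ≤ 3 ^ (l + 1) * S w :=
        h1.trans (mul_le_mul_of_nonneg_left h2 (by positivity))
      exact mul_le_mul_of_nonneg_left h3 (by positivity)
    have hfield : ∀ w ∈ D, |field a U x (k, v) w - field a U x' (k, v) w| ≤
        3 * a * ((3 / 2 * 3 ^ (k + 1) - 3 / 2) * S w) := by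
      intro w hw
      unfold field
      simp only
      have e : ∀ (p q p' q' : ℝ), |(p + q) - (p' + q')| ≤ |p - p'| + |q - q'| := by
        intro p q p' q'
        have : (p + q) - (p' + q') = (p - p') + (q - q') := by ring
        rw [this]; exact abs_add_le _ _
      refine (e _ _ _ _).trans ?_
      have h1 : |(∑ i ∈ Finset.range k, ell a (x (i, w))) -
          ∑ i ∈ Finset.range k, ell a (x' (i, w))| ≤
          ∑ i ∈ Finset.range k, 3 * a * (3 ^ (i + 1) * S w) := by
        rw [← Finset.sum_sub_distrib]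
        refine (Finset.abs_sum_le_sum_abs _ _).trans (Finset.sum_le_sum fun i hi => ?_)
        exact hprev i (Finset.mem_range.mp hi).le w hw
      have h2 : |(if U w < U v then ell a (x (k, w)) else 0) -
          (if U w < U v then ell a (x' (k, w)) else 0)| ≤ 3 * a * (3 ^ (k + 1) * S w) := by
        split_ifs
        · exact hprev k le_rfl w hw
        · simp only [sub_self, abs_zero]
          have := hS0 w
          positivity
      refine (add_le_add h1 h2).trans (le_of_eq ?_)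
      rw [← Finset.sum_range_succ (fun i => 3 * a * (3 ^ (i + 1) * S w)), ← Finset.mul_sum,
        ← Finset.sum_mul, sum_three]
    have hmean := hlip v (field a U x (k, v)) (field a U x' (k, v))
    have hconv2 : ∑ w ∈ D, κ v w * S w ≤ C * S v := by
      calc ∑ w ∈ D, κ v w * S w = ∑ z ∈ D, (∑ w ∈ D, κ v w * H w z) * vari s s' k z := by
            simp only [hS, Finset.mul_sum, Finset.sum_mul]
            rw [Finset.sum_comm]
            exact Finset.sum_congr rfl fun z _ => Finset.sum_congr rfl fun w _ => by ring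
        _ ≤ ∑ z ∈ D, (C * H v z) * vari s s' k z := by
            apply Finset.sum_le_sum
            intro z _
            exact mul_le_mul_of_nonneg_right (hconv v z) (vari_nonneg _ _ _ _)
        _ = C * S v := by
            simp only [hS, Finset.mul_sum]
            exact Finset.sum_congr rfl fun z _ => by ring
    have h3k : (1 : ℝ) ≤ 3 ^ (k + 1) := one_le_pow₀ (by norm_num)
    have hmean2 : |mean μ D v (field a U x (k, v)) - mean μ D v (field a U x' (k, v))| ≤
        3 * a * (3 / 2 * 3 ^ (k + 1) - 3 / 2) * (C * S v) := by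
      refine hmean.trans ?_
      calc ∑ w ∈ D, κ v w * |field a U x (k, v) w - field a U x' (k, v) w|
          ≤ ∑ w ∈ D, κ v w * (3 * a * ((3 / 2 * 3 ^ (k + 1) - 3 / 2) * S w)) := by
            apply Finset.sum_le_sum
            intro w hw
            exact mul_le_mul_of_nonneg_left (hfield w hw) (hκ0 _ _)
        _ = 3 * a * (3 / 2 * 3 ^ (k + 1) - 3 / 2) * ∑ w ∈ D, κ v w * S w := by
            rw [Finset.mul_sum]
            exact Finset.sum_congr rfl fun w _ => by ring
        _ ≤ _ := by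
            apply mul_le_mul_of_nonneg_left hconv2
            have : 0 ≤ (3 / 2 * 3 ^ (k + 1) - 3 / 2 : ℝ) := by linarith
            positivity
    have hpar : |param a μ D U x (k, v) - param a μ D U x' (k, v)| ≤
        a * (3 * a * (3 / 2 * 3 ^ (k + 1) - 3 / 2) * (C * S v)) := by
      unfold param
      rw [← mul_sub, abs_mul, abs_of_nonneg ha0]
      exact mul_le_mul_of_nonneg_left hmean2 ha0
    have hsig := abs_sig_sub_le (abs_param_le ha0 ha μ D U x (k, v))
      (abs_param_le ha0 ha μ D U x' (k, v)) (s (k, v)) (s' (k, v))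
    have hs : |(s (k, v) : ℝ) - s' (k, v)| ≤ S v := by
      calc |(s (k, v) : ℝ) - s' (k, v)| ≤ vari s s' k v := le_vari _ _ _ _
        _ = 1 * vari s s' k v := (one_mul _).symm
        _ ≤ H v v * vari s s' k v := mul_le_mul_of_nonneg_right (hH1 v) (vari_nonneg _ _ _ _)
        _ ≤ S v := Finset.single_le_sum (f := fun z => H v z * vari s s' k z)
            (fun z _ => mul_nonneg (hH0 _ _) (vari_nonneg _ _ _ _)) hv
    change |(sig (param a μ D U x (k, v)) (s (k, v)) : ℝ) -
      sig (param a μ D U x' (k, v)) (s' (k, v))| ≤ 3 ^ (k + 1) * S v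
    refine hsig.trans ?_
    have hSv := hS0 v
    calc 5 / 4 * |(s (k, v) : ℝ) - s' (k, v)| +
          5 / 16 * |param a μ D U x (k, v) - param a μ D U x' (k, v)|
        ≤ 5 / 4 * S v + 5 / 16 * (a * (3 * a * (3 / 2 * 3 ^ (k + 1) - 3 / 2) * (C * S v))) := by
          gcongr
      _ = 5 / 4 * S v + 15 / 16 * (a ^ 2 * C) * ((3 / 2 * 3 ^ (k + 1) - 3 / 2) * S v) := by ring
      _ ≤ 5 / 4 * S v + 15 / 16 * (1 / 2) * ((3 / 2 * 3 ^ (k + 1) - 3 / 2) * S v) := by
          have : 0 ≤ (3 / 2 * 3 ^ (k + 1) - 3 / 2 : ℝ) * S v :=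
            mul_nonneg (by linarith) hSv
          gcongr
      _ ≤ 3 ^ (k + 1) * S v := by
          have h3 : (3 : ℝ) ≤ 3 ^ (k + 1) := by
            calc (3 : ℝ) = 3 ^ 1 := by norm_num
              _ ≤ 3 ^ (k + 1) := pow_le_pow_right₀ (by norm_num) (by omega)
          nlinarith

/-- The influence coefficients. -/
noncomputable def coef (H : V → V → ℝ) (k : ℕ) (v : V) (j : ℕ × V) : ℝ :=
  3 ^ (k + 1) * H v j.2

/-- The sites of the rounds `0, ..., k` in `D`. -/
def sites (k : ℕ) (D : Finset V) : Finset (ℕ × V) := Finset.range (k + 1) ×ˢ D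

theorem sol_lip {a : ℝ} (ha0 : 0 ≤ a) (ha : a ≤ 1 / 5) {μ : Measure (V → Bool)}
    [IsProbabilityMeasure μ] {κ H : V → V → ℝ} {C : ℝ} (hκ0 : ∀ v w, 0 ≤ κ v w)
    (hH0 : ∀ v w, 0 ≤ H v w) (hH1 : ∀ v, 1 ≤ H v v) {D : Finset V}
    (hconv : ∀ (v z : V), ∑ w ∈ D, κ v w * H w z ≤ C * H v z)
    (hlip : ∀ (v : V) (Y Y' : V → ℝ),
      |mean μ D v Y - mean μ D v Y'| ≤ ∑ w ∈ D, κ v w * |Y w - Y' w|)
    (hC0 : 0 ≤ C) (hC : a ^ 2 * C ≤ 1 / 2) (U : V → I) (s s' : ℕ × V → I) (k : ℕ) (v : V)
    (hv : v ∈ D) :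
    |(sol a μ D U s (k, v) : ℝ) - sol a μ D U s' (k, v)| ≤
      ∑ j ∈ sites k D, coef H k v j * |(s j : ℝ) - s' j| := by
  refine (picard_lip ha0 ha hκ0 hH0 hH1 hconv hlip hC0 hC U s s' _ k v hv).trans (le_of_eq ?_)
  unfold sites coef vari
  rw [Finset.sum_product_right, Finset.mul_sum]
  apply Finset.sum_congr rfl
  intro z _
  rw [Finset.mul_sum, Finset.mul_sum]
  exact Finset.sum_congr rfl fun l _ => by ring

end Vale.Agent.P161
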