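import Vale.Agent.P161.Innov

/-!
# Orthogonality of the posterior means
-/

open MeasureTheory Set Filter Topology
open scoped unitInterval ENNReal

namespace Vale.Agent.P161

universe u

variable {V : Type u}

theorem measurable_prod_dens (a : ℝ) (A : Finset (ℕ × V)) :
    Measurable (fun p : (ℕ × V → I) × (V → Bool) => ∏ j ∈ A, dens a (p.2 j.2) (p.1 j)) := by
  refine Finset.measurable_fun_prod _ fun j _ => ?_
  unfold dens
  have h1 : Measurable (fun p : (ℕ × V → I) × (V → Bool) => sg (p.2 j.2)) :=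
    measurable_sg.comp ((measurable_pi_apply j.2).comp measurable_snd)
  have h2 : Measurable (fun p : (ℕ × V → I) × (V → Bool) => ((p.1 j : I) : ℝ)) :=
    measurable_subtype_coe.comp ((measurable_pi_apply j).comp measurable_fst)
  exact ((h1.const_mul a).mul ((h2.const_mul 2).const_sub 1)).const_add 1

theorem integral_PP_nonneg {a : ℝ} (ha0 : 0 ≤ a) (ha : a ≤ 1 / 5) (μ : Measure (V → Bool))
    [IsProbabilityMeasure μ] (A : Finset (ℕ × V)) {G : (V → Bool) → (ℕ × V → I) → ℝ}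
    (hG : Measurable (Function.uncurry G)) (h0 : ∀ τ x, 0 ≤ G τ x) {M : ℝ}
    (hM : ∀ τ x, |G τ x| ≤ M) (hdep : ∀ τ, DependsOn (G τ) (A : Set (ℕ × V))) :
    ∫ ω, G ω.1 (xs a ω) ∂(PP μ) =
      ∫ x, ∫ τ, G τ x * ∏ j ∈ A, dens a (τ j.2) (x j) ∂μ ∂(iid (ℕ × V)) := by
  have hjoint : Measurable (fun p : (ℕ × V → I) × (V → Bool) =>
      G p.2 p.1 * ∏ j ∈ A, dens a (p.2 j.2) (p.1 j)) :=
    (hG.comp measurable_swap).mul (measurable_prod_dens a A)
  have hpos : ∀ τ x, 0 ≤ G τ x * ∏ j ∈ A, dens a (τ j.2) (x j) := fun τ x =>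
    mul_nonneg (h0 τ x) (Finset.prod_nonneg fun _ _ => (dens_pos ha0 ha _ _).le)
  rw [integral_eq_lintegral_of_nonneg_ae (ae_of_all _ fun ω => h0 _ _)
    (hG.comp (measurable_fst.prodMk (measurable_xs a))).aestronglyMeasurable,
    integral_eq_lintegral_of_nonneg_ae (ae_of_all _ fun x => integral_nonneg fun τ => hpos τ x)
    (hjoint.stronglyMeasurable.integral_prod_right (ν := μ)).aestronglyMeasurable,
    lintegral_PP ha0 ha μ A (G := fun τ x => ENNReal.ofReal (G τ x)) hG.ennreal_ofReal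
      (fun τ x x' h => by
        show ENNReal.ofReal (G τ x) = ENNReal.ofReal (G τ x')
        rw [hdep τ h])]
  congr 1
  apply lintegral_congr
  intro x
  rw [ofReal_integral_eq_lintegral_ofReal]
  · apply lintegral_congr
    intro τ
    rw [ENNReal.ofReal_mul (h0 τ x), ENNReal.ofReal_prod_of_nonneg
      fun j _ => (dens_pos ha0 ha _ _).le]
  · exact integrable_prod_dens a μ A x (F := fun τ => G τ x) hG.of_uncurry_right
      (fun τ => hM τ x)
  · exact ae_of_all _ fun τ => hpos τ x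

theorem integral_PP {a : ℝ} (ha0 : 0 ≤ a) (ha : a ≤ 1 / 5) (μ : Measure (V → Bool))
    [IsProbabilityMeasure μ] (A : Finset (ℕ × V)) {G : (V → Bool) → (ℕ × V → I) → ℝ}
    (hG : Measurable (Function.uncurry G)) {M : ℝ}
    (hM : ∀ τ x, |G τ x| ≤ M) (hdep : ∀ τ, DependsOn (G τ) (A : Set (ℕ × V))) :
    ∫ ω, G ω.1 (xs a ω) ∂(PP μ) =
      ∫ x, ∫ τ, G τ x * ∏ j ∈ A, dens a (τ j.2) (x j) ∂μ ∂(iid (ℕ × V)) := by
  have hM0 : 0 ≤ M := (abs_nonneg _).trans (hM (fun _ => true) (fun _ => 0))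
  have h1 := integral_PP_nonneg ha0 ha μ A (G := fun τ x => G τ x + M)
    (hG.add measurable_const) (fun τ x => by have := (abs_le.mp (hM τ x)).1; linarith)
    (M := M + M) (fun τ x => by
      refine (abs_add_le _ _).trans (add_le_add (hM τ x) ?_)
      rw [abs_of_nonneg hM0]) (fun τ x x' h => by
        show G τ x + M = G τ x' + M
        rw [hdep τ h])
  have h2 := integral_PP_nonneg ha0 ha μ A (G := fun _ _ => M) measurable_const
    (fun _ _ => hM0) (M := M) (fun _ _ => by rw [abs_of_nonneg hM0])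
    (fun τ x x' h => rfl)
  have hi1 : Integrable (fun ω : (V → Bool) × (ℕ × V → I) => G ω.1 (xs a ω)) (PP μ) :=
    Integrable.of_bound (hG.comp (measurable_fst.prodMk (measurable_xs a))).aestronglyMeasurable
      M (ae_of_all _ fun ω => hM _ _)
  rw [integral_add hi1 (integrable_const M)] at h1
  have hjoint : Measurable (fun p : (ℕ × V → I) × (V → Bool) =>
      G p.2 p.1 * ∏ j ∈ A, dens a (p.2 j.2) (p.1 j)) :=
    (hG.comp measurable_swap).mul (measurable_prod_dens a A)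
  have hjoint2 : Measurable (fun p : (ℕ × V → I) × (V → Bool) =>
      M * ∏ j ∈ A, dens a (p.2 j.2) (p.1 j)) := (measurable_prod_dens a A).const_mul M
  have hbd : ∀ (K : (V → Bool) → ℝ), (∀ τ, |K τ| ≤ M) → ∀ x : ℕ × V → I,
      |∫ τ, K τ * ∏ j ∈ A, dens a (τ j.2) (x j) ∂μ| ≤ M * ∏ _j ∈ A, (1 + |a|) := by
    intro K hK x
    have := norm_integral_le_of_norm_le_const (μ := μ) (C := M * ∏ _j ∈ A, (1 + |a|))
      (f := fun τ => K τ * ∏ j ∈ A, dens a (τ j.2) (x j)) (ae_of_all _ fun τ => by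
        rw [Real.norm_eq_abs, abs_mul, Finset.abs_prod]
        exact mul_le_mul (hK τ) (Finset.prod_le_prod (fun _ _ => abs_nonneg _)
          fun j _ => abs_dens_le _ _ _) (Finset.prod_nonneg fun _ _ => abs_nonneg _) hM0)
    simpa using this
  have hj1 : Integrable (fun x => ∫ τ, G τ x * ∏ j ∈ A, dens a (τ j.2) (x j) ∂μ)
      (iid (ℕ × V)) :=
    Integrable.of_bound
      (hjoint.stronglyMeasurable.integral_prod_right (ν := μ)).aestronglyMeasurable _
      (ae_of_all _ fun x => hbd (fun τ => G τ x) (fun τ => hM τ x) x)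
  have hj2 : Integrable (fun x => ∫ τ, M * ∏ j ∈ A, dens a (τ j.2) (x j) ∂μ)
      (iid (ℕ × V)) :=
    Integrable.of_bound
      (hjoint2.stronglyMeasurable.integral_prod_right (ν := μ)).aestronglyMeasurable _
      (ae_of_all _ fun x => hbd (fun _ => M) (fun τ => by rw [abs_of_nonneg hM0]) x)
  have h3 : ∀ x : ℕ × V → I, ∫ τ, (G τ x + M) * ∏ j ∈ A, dens a (τ j.2) (x j) ∂μ =
      (∫ τ, G τ x * ∏ j ∈ A, dens a (τ j.2) (x j) ∂μ) +
        ∫ τ, M * ∏ j ∈ A, dens a (τ j.2) (x j) ∂μ := by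
    intro x
    rw [← integral_add (integrable_prod_dens a μ A x (F := fun τ => G τ x) hG.of_uncurry_right
      (fun τ => hM τ x)) (integrable_prod_dens a μ A x (F := fun _ => M) measurable_const
      (M := M) (fun τ => by rw [abs_of_nonneg hM0]))]
    apply integral_congr_ae
    exact ae_of_all _ fun τ => by simp only; ring
  simp_rw [h3] at h1
  rw [integral_add hj1 hj2] at h1
  rw [← h2] at h1
  linarith

/-- The posterior mean at the site `i`. -/
noncomputable def pm (a : ℝ) (μ : Measure (V → Bool)) (D : Finset V) (U : V → I) (i : ℕ × V)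
    (x : ℕ × V → I) : ℝ := mean μ D i.2 (field a U x i)

theorem measurable_pm (a : ℝ) (μ : Measure (V → Bool)) [IsProbabilityMeasure μ]
    (D : Finset V) (U : V → I) (i : ℕ × V) : Measurable (pm a μ D U i) :=
  (measurable_mean μ D i.2).comp (measurable_field a measurable_const measurable_id i)

theorem abs_pm_le (a : ℝ) (μ : Measure (V → Bool)) [IsProbabilityMeasure μ]
    (D : Finset V) (U : V → I) (i : ℕ × V) (x : ℕ × V → I) : |pm a μ D U i x| ≤ 1 :=
  abs_mean_le _ _ _ _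

theorem dependsOn_pm (a : ℝ) (μ : Measure (V → Bool)) (D : Finset V) (U : V → I) (i : ℕ × V) :
    DependsOn (pm a μ D U i) (before U D i : Set (ℕ × V)) := by
  intro x x' h
  exact mean_congr μ i.2 (field_congr a U D i fun j hj => h j (Finset.mem_coe.mpr hj))

/-- Orthogonality. -/
theorem ortho {a : ℝ} (ha0 : 0 ≤ a) (ha : a ≤ 1 / 5) (μ : Measure (V → Bool))
    [IsProbabilityMeasure μ] (D : Finset V) (U : V → I) (i : ℕ × V) {φ : (ℕ × V → I) → ℝ}
    (hφ : Measurable φ) {M : ℝ} (hM : ∀ x, |φ x| ≤ M)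
    (hdep : DependsOn φ (before U D i : Set (ℕ × V))) :
    ∫ ω, sg (ω.1 i.2) * φ (xs a ω) ∂(PP μ) = ∫ ω, pm a μ D U i (xs a ω) * φ (xs a ω) ∂(PP μ) := by
  have h1 := integral_PP ha0 ha μ (before U D i) (G := fun τ x => sg (τ i.2) * φ x)
    ((measurable_sg.comp ((measurable_pi_apply i.2).comp measurable_fst)).mul
      (hφ.comp measurable_snd)) (M := M) (fun τ x => by
        rw [abs_mul, abs_sg, one_mul]; exact hM x)
    (fun τ x x' h => by
      show sg (τ i.2) * φ x = sg (τ i.2) * φ x'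
      rw [hdep h])
  have h2 := integral_PP ha0 ha μ (before U D i) (G := fun τ x => pm a μ D U i x * φ x)
    (((measurable_pm a μ D U i).mul hφ).comp measurable_snd) (M := 1 * M) (fun τ x => by
        rw [abs_mul]
        exact mul_le_mul (abs_pm_le a μ D U i x) (hM x) (abs_nonneg _) zero_le_one)
    (fun τ x x' h => by
      show pm a μ D U i x * φ x = pm a μ D U i x' * φ x'
      rw [hdep h, dependsOn_pm a μ D U i h])
  rw [h1, h2]
  apply integral_congr_ae
  refine ae_of_all _ fun x => ?_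
  simp only
  have e1 : ∀ τ : V → Bool, sg (τ i.2) * φ x * ∏ j ∈ before U D i, dens a (τ j.2) (x j) =
      φ x * (sg (τ i.2) * ∏ j ∈ before U D i, dens a (τ j.2) (x j)) := fun τ => by ring
  simp_rw [e1]
  rw [integral_const_mul, integral_sg_before ha0 ha, integral_const_mul]
  unfold pm Lk
  ring

theorem integrable_bdd {Ω : Type*} [MeasurableSpace Ω] {P : Measure Ω} [IsProbabilityMeasure P]
    {F : Ω → ℝ} (hF : Measurable F) {M : ℝ} (hM : ∀ ω, |F ω| ≤ M) : Integrable F P :=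
  Integrable.of_bound hF.aestronglyMeasurable M (ae_of_all _ hM)

theorem integral_pm_sub_sq {a : ℝ} (ha0 : 0 ≤ a) (ha : a ≤ 1 / 5) (μ : Measure (V → Bool))
    [IsProbabilityMeasure μ] {D D' : Finset V} (hD : D ⊆ D') (U : V → I) (i : ℕ × V) :
    ∫ ω, (pm a μ D' U i (xs a ω) - pm a μ D U i (xs a ω)) ^ 2 ∂(PP μ) =
      (∫ ω, pm a μ D' U i (xs a ω) ^ 2 ∂(PP μ)) - ∫ ω, pm a μ D U i (xs a ω) ^ 2 ∂(PP μ) := by
  have h1 := ortho ha0 ha μ D U i (measurable_pm a μ D U i) (abs_pm_le a μ D U i)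
    (dependsOn_pm a μ D U i)
  have hsub : before U D i ⊆ before U D' i := by
    intro j hj
    rw [mem_before] at hj ⊢
    exact ⟨hD hj.1, hj.2⟩
  have h2 := ortho ha0 ha μ D' U i (measurable_pm a μ D U i) (abs_pm_le a μ D U i)
    (fun x x' h => dependsOn_pm a μ D U i fun j hj => h j (Finset.coe_subset.mpr hsub hj))
  have hm : ∀ D, Measurable (fun ω : (V → Bool) × (ℕ × V → I) => pm a μ D U i (xs a ω)) :=
    fun D => (measurable_pm a μ D U i).comp (measurable_xs a)
  have hb : ∀ (D : Finset V) (ω : (V → Bool) × (ℕ × V → I)), |pm a μ D U i (xs a ω)| ≤ 1 :=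
    fun D ω => abs_pm_le a μ D U i _
  have hb2 : ∀ (D D' : Finset V) (ω : (V → Bool) × (ℕ × V → I)),
      |pm a μ D U i (xs a ω) * pm a μ D' U i (xs a ω)| ≤ 1 := by
    intro D D' ω
    rw [abs_mul]
    exact mul_le_one₀ (hb D ω) (abs_nonneg _) (hb D' ω)
  have e : ∀ ω : (V → Bool) × (ℕ × V → I),
      (pm a μ D' U i (xs a ω) - pm a μ D U i (xs a ω)) ^ 2 =
      pm a μ D' U i (xs a ω) * pm a μ D' U i (xs a ω) +
        (pm a μ D U i (xs a ω) * pm a μ D U i (xs a ω) -
          2 * (pm a μ D' U i (xs a ω) * pm a μ D U i (xs a ω))) := fun ω => by ring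
  have hI1 : ∀ D D' : Finset V, Integrable (fun ω : (V → Bool) × (ℕ × V → I) =>
      pm a μ D U i (xs a ω) * pm a μ D' U i (xs a ω)) (PP μ) := fun D D' =>
    integrable_bdd ((hm D).mul (hm D')) (hb2 D D')
  simp_rw [e]
  have hI2 : Integrable (fun ω : (V → Bool) × (ℕ × V → I) =>
      pm a μ D U i (xs a ω) * pm a μ D U i (xs a ω) -
          2 * (pm a μ D' U i (xs a ω) * pm a μ D U i (xs a ω))) (PP μ) :=
    (hI1 D D).sub ((hI1 D' D).const_mul 2)
  rw [integral_add (hI1 D' D') hI2,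
    integral_sub (hI1 D D) ((hI1 D' D).const_mul 2), integral_const_mul, ← h2, h1]
  simp_rw [pow_two]
  ring

/-- The posterior means form a Cauchy net in `L²`. -/
theorem exists_pm_cauchy {a : ℝ} (ha0 : 0 ≤ a) (ha : a ≤ 1 / 5) (μ : Measure (V → Bool))
    [IsProbabilityMeasure μ] (U : V → I) (i : ℕ × V) {ε : ℝ} (hε : 0 < ε) :
    ∃ D₀ : Finset V, ∀ D D' : Finset V, D₀ ⊆ D → D ⊆ D' →
      ∫ ω, (pm a μ D' U i (xs a ω) - pm a μ D U i (xs a ω)) ^ 2 ∂(PP μ) ≤ ε := by
  set r : Finset V → ℝ := fun D => ∫ ω, pm a μ D U i (xs a ω) ^ 2 ∂(PP μ) with hr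
  have hmono : Monotone r := by
    intro D D' h
    have h1 := integral_pm_sub_sq ha0 ha μ h U i
    have h2 : 0 ≤ ∫ ω, (pm a μ D' U i (xs a ω) - pm a μ D U i (xs a ω)) ^ 2 ∂(PP μ) :=
      integral_nonneg fun ω => sq_nonneg _
    rw [h1] at h2
    simp only [hr]
    linarith
  have hbdd : BddAbove (Set.range r) := by
    refine ⟨1, ?_⟩
    rintro _ ⟨D, rfl⟩
    have h1 : r D ≤ ∫ _ω, (1 : ℝ) ∂(PP μ) := by
      apply integral_mono
      · refine integrable_bdd (((measurable_pm a μ D U i).comp (measurable_xs a)).pow_const 2)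
          (M := 1) fun ω => ?_
        rw [abs_pow]
        exact pow_le_one₀ (abs_nonneg _) (abs_pm_le a μ D U i _)
      · exact integrable_const _
      · intro ω
        have := abs_pm_le a μ D U i (xs a ω)
        simp only
        rw [← sq_abs]
        exact pow_le_one₀ (abs_nonneg _) this
    simpa using h1
  obtain ⟨D₀, hD₀⟩ := exists_lt_of_lt_ciSup (f := r) (b := (⨆ D, r D) - ε) (by linarith)
  refine ⟨D₀, fun D D' h0 h1 => ?_⟩
  rw [integral_pm_sub_sq ha0 ha μ h1 U i]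
  have h2 : r D' ≤ ⨆ D, r D := le_ciSup hbdd D'
  have h3 : r D₀ ≤ r D := hmono h0
  simp only [hr] at h2 h3 hD₀ ⊢
  linarith

end Vale.Agent.P161
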