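import Vale.Agent.P161.Signal

/-!
# The finite-volume sampler
-/

open MeasureTheory Set Filter Topology
open scoped unitInterval ENNReal

namespace Vale.Agent.P161

universe u

variable {V : Type u}

/-! ### Posterior means -/

theorem measurable_sg : Measurable sg := measurable_of_finite _

theorem measurable_wt (D : Finset V) (Y : V → ℝ) : Measurable (wt D Y) := by
  unfold wt
  refine Real.measurable_exp.comp (Finset.measurable_fun_sum _ fun w _ => ?_)
  exact (measurable_sg.comp (measurable_pi_apply w)).const_mul _

theorem wt_pos (D : Finset V) (Y : V → ℝ) (τ : V → Bool) : 0 < wt D Y τ := Real.exp_pos _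

theorem wt_le (D : Finset V) (Y : V → ℝ) (τ : V → Bool) :
    wt D Y τ ≤ Real.exp (∑ w ∈ D, |Y w|) := by
  unfold wt
  apply Real.exp_le_exp.mpr
  apply Finset.sum_le_sum
  intro w _
  calc Y w * sg (τ w) ≤ |Y w * sg (τ w)| := le_abs_self _
    _ = |Y w| := by rw [abs_mul, abs_sg, mul_one]

section Mean

variable (μ : Measure (V → Bool)) [IsProbabilityMeasure μ]

theorem integrable_mul_wt (D : Finset V) (Y : V → ℝ) {F : (V → Bool) → ℝ} (hF : Measurable F)
    {M : ℝ} (hM : ∀ τ, |F τ| ≤ M) : Integrable (fun τ => F τ * wt D Y τ) μ := by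
  refine Integrable.of_bound (hF.mul (measurable_wt D Y)).aestronglyMeasurable
    (M * Real.exp (∑ w ∈ D, |Y w|)) (ae_of_all _ fun τ => ?_)
  rw [Real.norm_eq_abs, abs_mul, abs_of_pos (wt_pos D Y τ)]
  have h0 : 0 ≤ M := (abs_nonneg _).trans (hM τ)
  exact mul_le_mul (hM τ) (wt_le D Y τ) (wt_pos D Y τ).le h0

theorem integrable_wt (D : Finset V) (Y : V → ℝ) : Integrable (fun τ => wt D Y τ) μ := by
  have := integrable_mul_wt μ D Y (F := fun _ => 1) measurable_const (M := 1) (by simp)
  simpa using this

theorem Zf_pos (D : Finset V) (Y : V → ℝ) : 0 < Zf μ D Y := by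
  unfold Zf
  rw [integral_pos_iff_support_of_nonneg (fun τ => (wt_pos D Y τ).le) (integrable_wt μ D Y)]
  have : Function.support (fun τ => wt D Y τ) = univ := by
    ext τ; simp [(wt_pos D Y τ).ne']
  rw [this]
  simp

theorem abs_tilt_le (D : Finset V) (Y : V → ℝ) {F : (V → Bool) → ℝ} (hF : Measurable F)
    {M : ℝ} (hM : ∀ τ, |F τ| ≤ M) : |tilt μ D Y F| ≤ M := by
  unfold tilt
  rw [abs_div, abs_of_pos (Zf_pos μ D Y), div_le_iff₀ (Zf_pos μ D Y)]
  calc |∫ τ, F τ * wt D Y τ ∂μ| ≤ ∫ τ, |F τ * wt D Y τ| ∂μ := abs_integral_le_integral_abs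
    _ ≤ ∫ τ, M * wt D Y τ ∂μ := by
        apply integral_mono (integrable_mul_wt μ D Y hF hM).abs ((integrable_wt μ D Y).const_mul M)
        intro τ
        simp only
        rw [abs_mul, abs_of_pos (wt_pos D Y τ)]
        exact mul_le_mul_of_nonneg_right (hM τ) (wt_pos D Y τ).le
    _ = M * Zf μ D Y := by rw [integral_const_mul]; rfl

theorem abs_mean_le (D : Finset V) (v : V) (Y : V → ℝ) : |mean μ D v Y| ≤ 1 :=
  abs_tilt_le μ D Y (measurable_sg.comp (measurable_pi_apply v)) fun τ => (abs_sg _).le

end Mean

theorem wt_congr {D : Finset V} {Y Y' : V → ℝ} (h : ∀ w ∈ D, Y w = Y' w) :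
    wt D Y = wt D Y' := by
  funext τ
  unfold wt
  rw [Finset.sum_congr rfl fun w hw => by rw [h w hw]]

theorem mean_congr (μ : Measure (V → Bool)) {D : Finset V} (v : V) {Y Y' : V → ℝ}
    (h : ∀ w ∈ D, Y w = Y' w) : mean μ D v Y = mean μ D v Y' := by
  unfold mean tilt Zf
  rw [wt_congr h]

theorem measurable_mean (μ : Measure (V → Bool)) [IsProbabilityMeasure μ] (D : Finset V) (v : V) :
    Measurable (fun Y : V → ℝ => mean μ D v Y) := by
  unfold mean tilt Zf
  have h1 : Measurable (fun p : (V → ℝ) × (V → Bool) => wt D p.1 p.2) := by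
    unfold wt
    refine Real.measurable_exp.comp (Finset.measurable_fun_sum _ fun w _ => ?_)
    exact ((measurable_pi_apply w).comp measurable_fst).mul
      (measurable_sg.comp ((measurable_pi_apply w).comp measurable_snd))
  have h2 : Measurable (fun p : (V → ℝ) × (V → Bool) => sg (p.2 v) * wt D p.1 p.2) :=
    (measurable_sg.comp ((measurable_pi_apply v).comp measurable_snd)).mul h1
  exact (h2.stronglyMeasurable.integral_prod_right (ν := μ)).measurable.div
    (h1.stronglyMeasurable.integral_prod_right (ν := μ)).measurable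

/-! ### The Picard iteration -/

open Classical in
/-- The field seen when the signal `(k, v)` is produced from the previous signals. -/
noncomputable def field (a : ℝ) (U : V → I) (x : ℕ × V → I) (j : ℕ × V) : V → ℝ := fun w =>
  (∑ i ∈ Finset.range j.1, ell a (x (i, w))) + (if U w < U j.2 then ell a (x (j.1, w)) else 0)

/-- The mixture parameter at the site `j`. -/
noncomputable def param (a : ℝ) (μ : Measure (V → Bool)) (D : Finset V) (U : V → I)
    (x : ℕ × V → I) (j : ℕ × V) : ℝ :=
  a * mean μ D j.2 (field a U x j)

/-- Picard iterates. -/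
noncomputable def picard (a : ℝ) (μ : Measure (V → Bool)) (D : Finset V) (U : V → I)
    (s : ℕ × V → I) : ℕ → ℕ × V → I
  | 0 => fun _ => 0
  | n + 1 => fun j => sig (param a μ D U (picard a μ D U s n) j) (s j)

/-- The finite-volume sampler. -/
noncomputable def sol (a : ℝ) (μ : Measure (V → Bool)) (D : Finset V) (U : V → I)
    (s : ℕ × V → I) (j : ℕ × V) : I := picard a μ D U s ((j.1 + 1) * D.card) j

theorem abs_param_le {a : ℝ} (ha0 : 0 ≤ a) (ha : a ≤ 1 / 5) (μ : Measure (V → Bool))
    [IsProbabilityMeasure μ] (D : Finset V) (U : V → I) (x : ℕ × V → I) (j : ℕ × V) :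
    |param a μ D U x j| ≤ 1 / 5 := by
  unfold param
  rw [abs_mul, abs_of_nonneg ha0]
  have := abs_mean_le μ D j.2 (field a U x j)
  calc a * |mean μ D j.2 (field a U x j)| ≤ 1 / 5 * 1 := by gcongr
    _ = 1 / 5 := by ring

theorem measurable_field {Ω : Type*} [MeasurableSpace Ω] (a : ℝ) {U : Ω → V → I}
    {x : Ω → ℕ × V → I} (hU : Measurable U) (hx : Measurable x) (j : ℕ × V) :
    Measurable (fun ω => field a (U ω) (x ω) j) := by
  rw [measurable_pi_iff]
  intro w
  unfold field
  refine Measurable.add ?_ ?_
  · exact Finset.measurable_fun_sum _ fun i _ =>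
      (measurable_ell a).comp ((measurable_pi_apply (i, w)).comp hx)
  · exact Measurable.ite (measurableSet_lt ((measurable_pi_apply w).comp hU)
      ((measurable_pi_apply j.2).comp hU))
      ((measurable_ell a).comp ((measurable_pi_apply (j.1, w)).comp hx)) measurable_const

theorem measurable_param {Ω : Type*} [MeasurableSpace Ω] (a : ℝ) (μ : Measure (V → Bool))
    [IsProbabilityMeasure μ] (D : Finset V) {U : Ω → V → I}
    {x : Ω → ℕ × V → I} (hU : Measurable U) (hx : Measurable x) (j : ℕ × V) :
    Measurable (fun ω => param a μ D (U ω) (x ω) j) := by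
  unfold param
  exact ((measurable_mean μ D j.2).comp (measurable_field a hU hx j)).const_mul a

theorem measurable_picard {Ω : Type*} [MeasurableSpace Ω] (a : ℝ) (μ : Measure (V → Bool))
    [IsProbabilityMeasure μ] (D : Finset V) {U : Ω → V → I}
    {s : Ω → ℕ × V → I} (hU : Measurable U) (hs : Measurable s) (n : ℕ) :
    Measurable (fun ω => picard a μ D (U ω) (s ω) n) := by
  induction n with
  | zero => exact measurable_const
  | succ n ih =>
    rw [measurable_pi_iff]
    intro j
    exact measurable_sig.comp ((measurable_param a μ D hU ih j).prodMk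
      ((measurable_pi_apply j).comp hs))

theorem measurable_sol {Ω : Type*} [MeasurableSpace Ω] (a : ℝ) (μ : Measure (V → Bool))
    [IsProbabilityMeasure μ] (D : Finset V) {U : Ω → V → I}
    {s : Ω → ℕ × V → I} (hU : Measurable U) (hs : Measurable s) :
    Measurable (fun ω => sol a μ D (U ω) (s ω)) := by
  rw [measurable_pi_iff]
  intro j
  exact (measurable_pi_apply j).comp (measurable_picard a μ D hU hs _)

/-! ### Exactness -/

open Classical in
theorem picard_eq {a : ℝ} {μ : Measure (V → Bool)} {D : Finset V} {U : V → I}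
    {s x : ℕ × V → I} (h : ∀ k, ∀ v ∈ D, x (k, v) = sig (param a μ D U x (k, v)) (s (k, v)))
    (n k : ℕ) (v : V) (hv : v ∈ D) (hn : k * D.card + (D.filter (fun w => U w < U v)).card < n) :
    picard a μ D U s n (k, v) = x (k, v) := by
  induction n generalizing k v with
  | zero => omega
  | succ n ih =>
    change sig (param a μ D U (picard a μ D U s n) (k, v)) (s (k, v)) = x (k, v)
    rw [h k v hv]
    congr 1
    unfold param
    congr 1
    apply mean_congr
    intro w hw
    have hcard : (D.filter (fun w' => U w' < U w)).card < D.card := by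
      apply Finset.card_lt_card
      refine ⟨Finset.filter_subset _ _, fun hsub => ?_⟩
      have := Finset.mem_filter.mp (hsub hw)
      exact lt_irrefl _ this.2
    unfold field
    simp only
    congr 1
    · apply Finset.sum_congr rfl
      intro i hi
      rw [ih i w hw]
      have hik : i + 1 ≤ k := Finset.mem_range.mp hi
      have : (i + 1) * D.card ≤ k * D.card := Nat.mul_le_mul_right _ hik
      have : i * D.card + D.card ≤ k * D.card := by rw [← Nat.succ_mul]; exact this
      omega
    · split_ifs with hU
      · rw [ih k w hw]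
        have : (D.filter (fun w' => U w' < U w)).card < (D.filter (fun w' => U w' < U v)).card := by
          apply Finset.card_lt_card
          refine ⟨fun w' hw' => ?_, fun hsub => ?_⟩
          · have := Finset.mem_filter.mp hw'
            exact Finset.mem_filter.mpr ⟨this.1, this.2.trans hU⟩
          · have := Finset.mem_filter.mp (hsub (Finset.mem_filter.mpr ⟨hw, hU⟩))
            exact lt_irrefl _ this.2
        omega
      · rfl

theorem sol_eq {a : ℝ} {μ : Measure (V → Bool)} {D : Finset V} {U : V → I}
    {s x : ℕ × V → I} (h : ∀ k, ∀ v ∈ D, x (k, v) = sig (param a μ D U x (k, v)) (s (k, v)))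
    (k : ℕ) (v : V) (hv : v ∈ D) : sol a μ D U s (k, v) = x (k, v) := by
  classical
  apply picard_eq h _ _ _ hv
  have hcard : (D.filter (fun w' => U w' < U v)).card < D.card := by
    apply Finset.card_lt_card
    refine ⟨Finset.filter_subset _ _, fun hsub => ?_⟩
    have := Finset.mem_filter.mp (hsub hv)
    exact lt_irrefl _ this.2
  have : (k + 1) * D.card = k * D.card + D.card := Nat.succ_mul _ _
  simp only
  omega

/-! ### Equivariance -/

/-- Translation of a labelling of the sites. -/
def translateS {A : Type*} (g : V ≃ V) (x : ℕ × V → A) : ℕ × V → A :=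
  fun j => x (j.1, g.symm j.2)

theorem measurable_translate {A : Type*} [MeasurableSpace A] (g : V ≃ V) :
    Measurable (translate g : (V → A) → V → A) := by
  unfold translate; fun_prop

theorem measurable_translateS {A : Type*} [MeasurableSpace A] (g : V ≃ V) :
    Measurable (translateS g : (ℕ × V → A) → ℕ × V → A) := by
  unfold translateS; fun_prop

theorem wt_translate (g : V ≃ V) (D : Finset V) (Y : V → ℝ) (τ : V → Bool) :
    wt (D.map g.toEmbedding) (translate g Y) (translate g τ) = wt D Y τ := by
  unfold wt translate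
  rw [Finset.sum_map]
  simp

theorem mean_translate {μ : Measure (V → Bool)} {g : V ≃ V}
    (hg : Measure.map (translate g) μ = μ) (D : Finset V) (v : V) (Y : V → ℝ) :
    mean μ (D.map g.toEmbedding) (g v) (translate g Y) = mean μ D v Y := by
  have hm : Measurable (translate g : (V → Bool) → V → Bool) := measurable_translate g
  unfold mean tilt Zf
  have e1 : ∫ τ, sg (τ (g v)) * wt (D.map g.toEmbedding) (translate g Y) τ ∂μ =
      ∫ τ, sg (τ v) * wt D Y τ ∂μ := by
    conv_lhs => rw [← hg]
    rw [integral_map hm.aemeasurable]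
    · apply integral_congr_ae
      refine ae_of_all _ fun τ => ?_
      simp only
      rw [wt_translate]
      simp [translate]
    · exact ((measurable_sg.comp (measurable_pi_apply (g v))).mul
        (measurable_wt _ _)).aestronglyMeasurable
  have e2 : ∫ τ, wt (D.map g.toEmbedding) (translate g Y) τ ∂μ = ∫ τ, wt D Y τ ∂μ := by
    conv_lhs => rw [← hg]
    rw [integral_map hm.aemeasurable]
    · apply integral_congr_ae
      refine ae_of_all _ fun τ => ?_
      simp only
      rw [wt_translate]
    · exact (measurable_wt _ _).aestronglyMeasurable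
  rw [e1, e2]

theorem field_translate (a : ℝ) (g : V ≃ V) (U : V → I) (x : ℕ × V → I) (k : ℕ) (v : V) :
    field a (translate g U) (translateS g x) (k, g v) = translate g (field a U x (k, v)) := by
  funext w
  unfold field translate translateS
  simp

theorem picard_translate (a : ℝ) {μ : Measure (V → Bool)} {g : V ≃ V}
    (hg : Measure.map (translate g) μ = μ) (D : Finset V) (U : V → I) (s : ℕ × V → I) (n : ℕ) :
    picard a μ (D.map g.toEmbedding) (translate g U) (translateS g s) n =
      translateS g (picard a μ D U s n) := by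
  induction n with
  | zero => rfl
  | succ n ih =>
    funext j
    obtain ⟨k, v⟩ := j
    obtain ⟨v, rfl⟩ := g.surjective v
    change sig (param a μ (D.map g.toEmbedding) (translate g U)
      (picard a μ (D.map g.toEmbedding) (translate g U) (translateS g s) n) (k, g v))
      (translateS g s (k, g v)) = translateS g (picard a μ D U s (n + 1)) (k, g v)
    rw [ih]
    unfold param
    simp only
    rw [field_translate, mean_translate hg]
    simp only [translateS, Equiv.symm_apply_apply]
    rfl

theorem sol_translate (a : ℝ) {μ : Measure (V → Bool)} {g : V ≃ V}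
    (hg : Measure.map (translate g) μ = μ) (D : Finset V) (U : V → I) (s : ℕ × V → I) :
    sol a μ (D.map g.toEmbedding) (translate g U) (translateS g s) =
      translateS g (sol a μ D U s) := by
  funext j
  unfold sol
  rw [picard_translate a hg, Finset.card_map]
  rfl

end Vale.Agent.P161
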