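import Vale.Agent.P161.Defs

/-!
# Signals: the quantile function of a linear density and the log-likelihood
-/

open MeasureTheory Set Filter Topology
open scoped unitInterval ENNReal

namespace Vale.Agent.P161

/-- The inverse of `z ↦ z + s (z - z ^ 2)` on `[0,1]`. -/
noncomputable def quant (s v : ℝ) : ℝ := 2 * v / (1 + s + Real.sqrt ((1 + s) ^ 2 - 4 * s * v))

/-- The signal produced from the seed `v` when the mixture parameter is `s`. -/
noncomputable def sig (s : ℝ) (v : I) : I := Set.projIcc 0 1 zero_le_one (quant s v)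


/-- The quadratic distribution function. -/
noncomputable def cdfq (s z : ℝ) : ℝ := z + s * (z - z ^ 2)

theorem quant_aux {s v : ℝ} (hs : |s| ≤ 1 / 5) (hv0 : 0 ≤ v) (hv1 : v ≤ 1) :
    0 ≤ (1 + s) ^ 2 - 4 * s * v ∧ 0 < 1 + s + Real.sqrt ((1 + s) ^ 2 - 4 * s * v) := by
  obtain ⟨h1, h2⟩ := abs_le.mp hs
  have hd : 0 ≤ (1 + s) ^ 2 - 4 * s * v := by
    rcases le_total 0 s with h | h
    · nlinarith [mul_nonneg h (sub_nonneg.mpr hv1), sq_nonneg (1 - s)]
    · nlinarith [mul_nonneg (neg_nonneg.mpr h) hv0, sq_nonneg (1 + s)]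
  refine ⟨hd, ?_⟩
  have := Real.sqrt_nonneg ((1 + s) ^ 2 - 4 * s * v)
  linarith

theorem quant_spec {s v : ℝ} (hs : |s| ≤ 1 / 5) (hv0 : 0 ≤ v) (hv1 : v ≤ 1) :
    quant s v + s * (quant s v - quant s v ^ 2) = v ∧ 0 ≤ quant s v ∧ quant s v ≤ 1 := by
  obtain ⟨hd, hp⟩ := quant_aux hs hv0 hv1
  obtain ⟨h1, h2⟩ := abs_le.mp hs
  set r := Real.sqrt ((1 + s) ^ 2 - 4 * s * v) with hr
  have hr2 : r ^ 2 = (1 + s) ^ 2 - 4 * s * v := Real.sq_sqrt hd
  have hr0 : 0 ≤ r := Real.sqrt_nonneg _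
  have hq : quant s v * (1 + s + r) = 2 * v := by
    unfold quant
    rw [← hr]
    field_simp
  have hpos : 0 ≤ quant s v := by
    unfold quant
    rw [← hr]
    positivity
  -- `s q = ((1 + s) - r) / 2`
  have hsq : 2 * s * quant s v = 1 + s - r := by
    have : (2 * s * quant s v - (1 + s - r)) * (1 + s + r) = 0 := by
      have e1 : (2 * s * quant s v) * (1 + s + r) = 4 * s * v := by
        calc (2 * s * quant s v) * (1 + s + r) = 2 * s * (quant s v * (1 + s + r)) := by ring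
          _ = 4 * s * v := by rw [hq]; ring
      have e2 : (1 + s - r) * (1 + s + r) = 4 * s * v := by
        calc (1 + s - r) * (1 + s + r) = (1 + s) ^ 2 - r ^ 2 := by ring
          _ = 4 * s * v := by rw [hr2]; ring
      linarith [e1, e2, sub_mul (2 * s * quant s v) (1 + s - r) (1 + s + r)]
    rcases mul_eq_zero.mp this with h | h
    · linarith
    · linarith
  have hspec : quant s v + s * (quant s v - quant s v ^ 2) = v := by
    have e : 2 * v = quant s v * (1 + s + r) := hq.symm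
    have e' : r = 1 + s - 2 * s * quant s v := by linarith
    rw [e'] at e
    linarith [e]
  refine ⟨hspec, hpos, ?_⟩
  -- upper bound: the cdf at `q > 1` would exceed `1`
  by_contra hlt
  push Not at hlt
  have hrpos : 2 * s * quant s v ≤ 1 + s := by linarith
  have : (quant s v - 1) * (1 - s * quant s v) > 0 := by
    apply mul_pos (by linarith)
    nlinarith
  nlinarith

theorem cdfq_sub (s z z' : ℝ) :
    cdfq s z - cdfq s z' = (z - z') * (1 + s * (1 - z - z')) := by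
  unfold cdfq; ring

theorem cdfq_sub_abs {s z z' : ℝ} (hs : |s| ≤ 1 / 5) (hz0 : 0 ≤ z) (hz1 : z ≤ 1)
    (hz0' : 0 ≤ z') (hz1' : z' ≤ 1) :
    4 / 5 * |z - z'| ≤ |cdfq s z - cdfq s z'| := by
  rw [cdfq_sub, abs_mul]
  have : 4 / 5 ≤ |1 + s * (1 - z - z')| := by
    have h2 : |s * (1 - z - z')| ≤ 1 / 5 := by
      rw [abs_mul]
      have : |1 - z - z'| ≤ 1 := by rw [abs_le]; constructor <;> linarith
      calc |s| * |1 - z - z'| ≤ 1 / 5 * 1 := by gcongr
        _ = 1 / 5 := by ring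
    have := (abs_le.mp h2).1
    rw [le_abs]; left; linarith
  nlinarith [abs_nonneg (z - z')]

theorem sig_coe {s : ℝ} (hs : |s| ≤ 1 / 5) (v : I) : (sig s v : ℝ) = quant s v := by
  obtain ⟨_, h1, h2⟩ := quant_spec hs v.2.1 v.2.2
  unfold sig
  rw [Set.projIcc_of_mem zero_le_one ⟨h1, h2⟩]

theorem sig_spec {s : ℝ} (hs : |s| ≤ 1 / 5) (v : I) :
    (sig s v : ℝ) + s * ((sig s v : ℝ) - (sig s v : ℝ) ^ 2) = v := by
  rw [sig_coe hs]
  exact (quant_spec hs v.2.1 v.2.2).1

theorem sig_cdfq {s : ℝ} (hs : |s| ≤ 1 / 5) (v : I) : cdfq s (sig s v) = v := sig_spec hs v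

theorem sig_lip {s s' : ℝ} (hs : |s| ≤ 1 / 5) (hs' : |s'| ≤ 1 / 5) (v : I) :
    |(sig s v : ℝ) - sig s' v| ≤ 5 / 16 * |s - s'| := by
  set z : ℝ := (sig s v : ℝ) with hz
  set z' : ℝ := (sig s' v : ℝ) with hz'
  have e1 : cdfq s z = v := sig_cdfq hs v
  have e2 : cdfq s' z' = v := sig_cdfq hs' v
  have hz0 : 0 ≤ z := (sig s v).2.1
  have hz1 : z ≤ 1 := (sig s v).2.2
  have hz0' : 0 ≤ z' := (sig s' v).2.1
  have hz1' : z' ≤ 1 := (sig s' v).2.2
  have h := cdfq_sub_abs hs hz0 hz1 hz0' hz1'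
  have h3 : cdfq s z - cdfq s z' = (s' - s) * (z' - z' ^ 2) := by
    have : cdfq s z' = cdfq s' z' + (s - s') * (z' - z' ^ 2) := by unfold cdfq; ring
    rw [e1, this, e2]; ring
  rw [h3, abs_mul] at h
  have h4 : |z' - z' ^ 2| ≤ 1 / 4 := by
    rw [abs_le]
    constructor
    · nlinarith
    · nlinarith [sq_nonneg (z' - 1 / 2)]
  have h5 : |s' - s| * |z' - z' ^ 2| ≤ |s' - s| * (1 / 4) := by gcongr
  rw [abs_sub_comm s' s] at h h5
  linarith

theorem measurable_quant : Measurable (fun p : ℝ × ℝ => quant p.1 p.2) := by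
  unfold quant
  fun_prop

theorem measurable_sig : Measurable (fun p : ℝ × I => sig p.1 p.2) := by
  unfold sig
  have h : Measurable (Set.projIcc (0:ℝ) 1 zero_le_one) := continuous_projIcc.measurable
  refine h.comp ?_
  exact measurable_quant.comp (by fun_prop : Measurable (fun p : ℝ × I => (p.1, (p.2 : ℝ))))

theorem setLIntegral_dens {s : ℝ} (hs : |s| ≤ 1 / 5) (x : I) :
    ∫⁻ z in Iic x, ENNReal.ofReal (1 + s * (1 - 2 * (z : ℝ))) = ENNReal.ofReal (cdfq s x) := by
  have h1 : (Iic x : Set I) = ((↑) : I → ℝ) ⁻¹' (Iic (x : ℝ)) := by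
    ext z; simp
  have hmp := unitInterval.measurePreserving_coe
  rw [h1, hmp.setLIntegral_comp_preimage_emb unitInterval.measurableEmbedding_coe
    (fun t : ℝ => ENNReal.ofReal (1 + s * (1 - 2 * t))) (Iic (x : ℝ)),
    Measure.restrict_restrict measurableSet_Iic]
  have h2 : Iic (x : ℝ) ∩ I = Icc 0 (x : ℝ) := by
    ext t
    simp only [mem_inter_iff, mem_Iic, mem_Icc]
    constructor
    · rintro ⟨h, h', _⟩; exact ⟨h', h⟩
    · rintro ⟨h, h'⟩; exact ⟨h', h, h'.trans x.2.2⟩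
  rw [h2, ← Measure.restrict_congr_set (Ioc_ae_eq_Icc (μ := volume) (a := (0 : ℝ)) (b := (x : ℝ)))]
  have hnn : ∀ t ∈ Ioc (0 : ℝ) x, 0 ≤ 1 + s * (1 - 2 * t) := by
    intro t ht
    have ht1 : t ≤ 1 := ht.2.trans x.2.2
    have h3 : |s * (1 - 2 * t)| ≤ 1 / 5 := by
      rw [abs_mul]
      have : |1 - 2 * t| ≤ 1 := by rw [abs_le]; constructor <;> linarith [ht.1]
      calc |s| * |1 - 2 * t| ≤ 1 / 5 * 1 := by gcongr
        _ = 1 / 5 := by ring
    have := (abs_le.mp h3).1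
    linarith
  rw [← ofReal_integral_eq_lintegral_ofReal]
  · congr 1
    rw [← intervalIntegral.integral_of_le x.2.1]
    have : ∀ t ∈ Set.uIcc (0 : ℝ) x, HasDerivAt (fun t => cdfq s t) (1 + s * (1 - 2 * t)) t := by
      intro t _
      unfold cdfq
      have := ((hasDerivAt_id' t).add (((hasDerivAt_id' t).sub ((hasDerivAt_id' t).pow 2)).const_mul s))
      exact this.congr_deriv (by simp)
    rw [intervalIntegral.integral_eq_sub_of_hasDerivAt this]
    · simp [cdfq]
    · exact (by fun_prop : Continuous fun t : ℝ => 1 + s * (1 - 2 * t)).intervalIntegrable _ _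
  · exact ((by fun_prop : Continuous fun t : ℝ => 1 + s * (1 - 2 * t)).integrableOn_Icc
      (a := 0) (b := (x : ℝ))).mono_set Ioc_subset_Icc_self
  · rw [EventuallyLE, ae_restrict_iff' measurableSet_Ioc]
    exact ae_of_all _ hnn

theorem cdfq_le_iff {s : ℝ} (hs : |s| ≤ 1 / 5) (z x : I) :
    (z : ℝ) ≤ x ↔ cdfq s z ≤ cdfq s x := by
  have h2 : |s * (1 - (z : ℝ) - x)| ≤ 1 / 5 := by
    rw [abs_mul]
    have : |1 - (z : ℝ) - x| ≤ 1 := by
      rw [abs_le]; constructor <;> linarith [z.2.1, z.2.2, x.2.1, x.2.2]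
    calc |s| * |1 - (z : ℝ) - x| ≤ 1 / 5 * 1 := by gcongr
      _ = 1 / 5 := by ring
  have h3 := (abs_le.mp h2).1
  have h4 := cdfq_sub s z x
  constructor
  · intro h
    nlinarith
  · intro h
    by_contra hlt
    push Not at hlt
    have : 0 < ((z : ℝ) - x) * (1 + s * (1 - z - x)) := mul_pos (by linarith) (by linarith)
    linarith

theorem cdfq_mem {s : ℝ} (hs : |s| ≤ 1 / 5) (x : I) : cdfq s x ∈ Icc (0 : ℝ) 1 := by
  have h0 : cdfq s 0 = 0 := by simp [cdfq]
  have h1 : cdfq s 1 = 1 := by simp [cdfq]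
  constructor
  · rw [← h0]
    exact (cdfq_le_iff hs 0 x).mp x.2.1
  · rw [← h1]
    exact (cdfq_le_iff hs x 1).mp x.2.2

theorem map_sig {s : ℝ} (hs : |s| ≤ 1 / 5) :
    Measure.map (sig s) (volume : Measure I) =
      (volume : Measure I).withDensity (fun z => ENNReal.ofReal (1 + s * (1 - 2 * (z : ℝ)))) := by
  have hm : Measurable (sig s) := measurable_sig.of_uncurry_left
  have hp : IsProbabilityMeasure (Measure.map (sig s) (volume : Measure I)) :=
    Measure.isProbabilityMeasure_map hm.aemeasurable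
  refine Measure.ext_of_Iic _ _ fun x => ?_
  rw [Measure.map_apply hm measurableSet_Iic, withDensity_apply _ measurableSet_Iic,
    setLIntegral_dens hs]
  have : (sig s) ⁻¹' (Iic x) = Iic (⟨cdfq s x, cdfq_mem hs x⟩ : I) := by
    ext v
    simp only [mem_preimage, mem_Iic, ← Subtype.coe_le_coe]
    rw [cdfq_le_iff hs, sig_cdfq hs]
  rw [this, unitInterval.volume_Iic]

theorem lintegral_sig {s : ℝ} (hs : |s| ≤ 1 / 5) {F : I → ℝ≥0∞} (hF : Measurable F) :
    ∫⁻ v : I, F (sig s v) = ∫⁻ z : I, F z * ENNReal.ofReal (1 + s * (1 - 2 * (z : ℝ))) := by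
  have hm : Measurable (sig s) := measurable_sig.of_uncurry_left
  have hd : Measurable (fun z : I => ENNReal.ofReal (1 + s * (1 - 2 * (z : ℝ)))) := by fun_prop
  rw [← lintegral_map hF hm, map_sig hs, lintegral_withDensity_eq_lintegral_mul _ hd hF]
  simp [mul_comm]


theorem cdfq_sub_abs_le {s z z' : ℝ} (hs : |s| ≤ 1 / 5) (hz0 : 0 ≤ z) (hz1 : z ≤ 1)
    (hz0' : 0 ≤ z') (hz1' : z' ≤ 1) :
    |cdfq s z - cdfq s z'| ≤ 6 / 5 * |z - z'| := by
  rw [cdfq_sub, abs_mul, mul_comm]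
  have : |1 + s * (1 - z - z')| ≤ 6 / 5 := by
    have h2 : |s * (1 - z - z')| ≤ 1 / 5 := by
      rw [abs_mul]
      have : |1 - z - z'| ≤ 1 := by rw [abs_le]; constructor <;> linarith
      calc |s| * |1 - z - z'| ≤ 1 / 5 * 1 := by gcongr
        _ = 1 / 5 := by ring
    have := (abs_le.mp h2)
    rw [abs_le]; constructor <;> linarith [this.1, this.2]
  gcongr

theorem sig_lip2 {s : ℝ} (hs : |s| ≤ 1 / 5) (v v' : I) :
    |(sig s v : ℝ) - sig s v'| ≤ 5 / 4 * |(v : ℝ) - v'| := by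
  have h := cdfq_sub_abs hs (sig s v).2.1 (sig s v).2.2 (sig s v').2.1 (sig s v').2.2
  rw [sig_cdfq hs, sig_cdfq hs] at h
  linarith

/-- The distribution function as a map of the unit interval. -/
noncomputable def cdfI (s : ℝ) (z : I) : I := Set.projIcc 0 1 zero_le_one (cdfq s z)

theorem cdfI_coe {s : ℝ} (hs : |s| ≤ 1 / 5) (z : I) : (cdfI s z : ℝ) = cdfq s z := by
  unfold cdfI
  rw [Set.projIcc_of_mem zero_le_one (cdfq_mem hs z)]

theorem measurable_cdfI : Measurable (fun p : ℝ × I => cdfI p.1 p.2) := by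
  unfold cdfI cdfq
  have h : Measurable (Set.projIcc (0:ℝ) 1 zero_le_one) := continuous_projIcc.measurable
  exact h.comp (by fun_prop)

theorem cdfI_sig {s : ℝ} (hs : |s| ≤ 1 / 5) (v : I) : cdfI s (sig s v) = v := by
  apply Subtype.ext
  rw [cdfI_coe hs, sig_cdfq hs]

theorem sig_cdfI {s : ℝ} (hs : |s| ≤ 1 / 5) (z : I) : sig s (cdfI s z) = z := by
  have h := cdfq_sub_abs hs (sig s (cdfI s z)).2.1 (sig s (cdfI s z)).2.2 z.2.1 z.2.2
  rw [sig_cdfq hs, cdfI_coe hs, sub_self, abs_zero] at h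
  apply Subtype.ext
  have h1 : |((sig s (cdfI s z) : I) : ℝ) - z| ≤ 0 := by linarith
  have h2 := abs_eq_zero.mp (le_antisymm h1 (abs_nonneg _))
  linarith

theorem cdfI_lip {s s' : ℝ} (hs : |s| ≤ 1 / 5) (hs' : |s'| ≤ 1 / 5) (z : I) :
    |(cdfI s z : ℝ) - cdfI s' z| ≤ 1 / 4 * |s - s'| := by
  rw [cdfI_coe hs, cdfI_coe hs']
  have e : cdfq s z - cdfq s' z = (s - s') * (z - z ^ 2) := by unfold cdfq; ring
  rw [e, abs_mul, mul_comm]
  have h4 : |(z : ℝ) - z ^ 2| ≤ 1 / 4 := by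
    have h0 := z.2.1
    have h1 := z.2.2
    rw [abs_le]
    constructor
    · nlinarith
    · nlinarith [sq_nonneg ((z : ℝ) - 1 / 2)]
  gcongr

/-! ### Densities and log likelihood ratios -/

/-- The density (at `z`) of a signal of strength `a` about the spin `b`. -/
noncomputable def dens (a : ℝ) (b : Bool) (z : I) : ℝ := 1 + a * sg b * (1 - 2 * (z : ℝ))

/-- Half of the log likelihood ratio of a signal. -/
noncomputable def ell (a : ℝ) (z : I) : ℝ :=
  (Real.log (1 + a * (1 - 2 * (z : ℝ))) - Real.log (1 - a * (1 - 2 * (z : ℝ)))) / 2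

/-- The common factor of the two densities. -/
noncomputable def cden (a : ℝ) (z : I) : ℝ :=
  Real.sqrt ((1 + a * (1 - 2 * (z : ℝ))) * (1 - a * (1 - 2 * (z : ℝ))))

theorem abs_sg (b : Bool) : |sg b| = 1 := by cases b <;> simp [sg]

theorem sg_sq (b : Bool) : sg b * sg b = 1 := by cases b <;> simp [sg]

theorem abs_aux {a : ℝ} (ha0 : 0 ≤ a) (ha : a ≤ 1 / 5) (z : I) :
    |a * (1 - 2 * (z : ℝ))| ≤ 1 / 5 := by
  have h0 := z.2.1
  have h1 := z.2.2
  rw [abs_mul, abs_of_nonneg ha0]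
  have : |1 - 2 * (z : ℝ)| ≤ 1 := by rw [abs_le]; constructor <;> linarith
  calc a * |1 - 2 * (z : ℝ)| ≤ 1 / 5 * 1 := by gcongr
    _ = 1 / 5 := by ring

theorem cden_pos {a : ℝ} (ha0 : 0 ≤ a) (ha : a ≤ 1 / 5) (z : I) : 0 < cden a z := by
  have h := abs_le.mp (abs_aux ha0 ha z)
  unfold cden
  apply Real.sqrt_pos.mpr
  apply mul_pos <;> linarith [h.1, h.2]

theorem dens_pos {a : ℝ} (ha0 : 0 ≤ a) (ha : a ≤ 1 / 5) (b : Bool) (z : I) :
    0 < dens a b z := by
  have h := abs_le.mp (abs_aux ha0 ha z)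
  unfold dens
  cases b
  · simp only [sg, Bool.false_eq_true, if_false]
    linarith [h.1, h.2]
  · simp only [sg, if_true]
    linarith [h.1, h.2]

theorem dens_eq {a : ℝ} (ha0 : 0 ≤ a) (ha : a ≤ 1 / 5) (b : Bool) (z : I) :
    dens a b z = cden a z * Real.exp (ell a z * sg b) := by
  have h := abs_le.mp (abs_aux ha0 ha z)
  set y : ℝ := a * (1 - 2 * (z : ℝ)) with hy
  have h1 : 0 < 1 + y := by linarith [h.1]
  have h2 : 0 < 1 - y := by linarith [h.2]
  have hc : cden a z = Real.exp ((Real.log (1 + y) + Real.log (1 - y)) / 2) := by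
    unfold cden
    rw [← hy, ← Real.log_mul h1.ne' h2.ne', Real.exp_half, Real.exp_log (mul_pos h1 h2)]
  rw [hc, ← Real.exp_add]
  unfold ell dens
  rw [← hy]
  cases b
  · simp only [sg, Bool.false_eq_true, if_false]
    have : (Real.log (1 + y) + Real.log (1 - y)) / 2 + (Real.log (1 + y) - Real.log (1 - y)) / 2 * -1
      = Real.log (1 - y) := by ring
    rw [this, Real.exp_log h2, hy]
    ring
  · simp only [sg, if_true]
    have : (Real.log (1 + y) + Real.log (1 - y)) / 2 + (Real.log (1 + y) - Real.log (1 - y)) / 2 * 1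
      = Real.log (1 + y) := by ring
    rw [this, Real.exp_log h1, hy]
    ring

theorem ell_lip {a : ℝ} (ha0 : 0 ≤ a) (ha : a ≤ 1 / 5) (z z' : I) :
    |ell a z - ell a z'| ≤ 3 * a * |(z : ℝ) - z'| := by
  set g : ℝ → ℝ := fun t => (Real.log (1 + a * (1 - 2 * t)) - Real.log (1 - a * (1 - 2 * t))) / 2
    with hg
  have key := Convex.norm_image_sub_le_of_norm_hasDerivWithin_le (f := g)
    (f' := fun t => ((-2 * a) / (1 + a * (1 - 2 * t)) - (2 * a) / (1 - a * (1 - 2 * t))) / 2)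
    (s := Icc (0 : ℝ) 1) (C := 3 * a) ?_ ?_ (convex_Icc 0 1) z'.2 z.2
  · rw [Real.norm_eq_abs, Real.norm_eq_abs] at key
    exact key
  · intro t ht
    have h := abs_le.mp (abs_aux ha0 ha ⟨t, ht⟩)
    simp only at h
    have h1 : (1 + a * (1 - 2 * t)) ≠ 0 := by
      have : 0 < 1 + a * (1 - 2 * t) := by linarith [h.1]
      exact this.ne'
    have h2 : (1 - a * (1 - 2 * t)) ≠ 0 := by
      have : 0 < 1 - a * (1 - 2 * t) := by linarith [h.2]
      exact this.ne'
    have d1 : HasDerivAt (fun t : ℝ => 1 + a * (1 - 2 * t)) (-2 * a) t := by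
      have := ((((hasDerivAt_id' t).const_mul (2 : ℝ)).const_sub 1).const_mul a).const_add 1
      exact this.congr_deriv (by ring)
    have d2 : HasDerivAt (fun t : ℝ => 1 - a * (1 - 2 * t)) (2 * a) t := by
      have := ((((hasDerivAt_id' t).const_mul (2 : ℝ)).const_sub 1).const_mul a).const_sub 1
      exact this.congr_deriv (by ring)
    exact (((d1.log h1).sub (d2.log h2)).div_const 2).hasDerivWithinAt
  · intro t ht
    have h := abs_le.mp (abs_aux ha0 ha ⟨t, ht⟩)
    simp only at h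
    set y : ℝ := a * (1 - 2 * t) with hy
    have h1 : 0 < 1 + y := by linarith [h.1]
    have h2 : 0 < 1 - y := by linarith [h.2]
    have e : ((-2 * a) / (1 + y) - (2 * a) / (1 - y)) / 2 =
        -((2 * a) / ((1 + y) * (1 - y))) := by
      have h1' := h1.ne'
      have h2' := h2.ne'
      field_simp
      ring
    rw [e, norm_neg, Real.norm_eq_abs, abs_of_nonneg (by positivity), div_le_iff₀ (by positivity)]
    have : 2 / 3 ≤ (1 + y) * (1 - y) := by nlinarith [h.1, h.2]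
    nlinarith

theorem abs_ell_le {a : ℝ} (ha0 : 0 ≤ a) (ha : a ≤ 1 / 5) (z : I) : |ell a z| ≤ 3 / 2 * a := by
  have h := ell_lip ha0 ha z ⟨1 / 2, by norm_num, by norm_num⟩
  have e : ell a ⟨1 / 2, by norm_num, by norm_num⟩ = 0 := by
    unfold ell
    norm_num
  rw [e, sub_zero] at h
  have h2 : |(z : ℝ) - 1 / 2| ≤ 1 / 2 := by
    rw [abs_le]; constructor <;> linarith [z.2.1, z.2.2]
  have h3 : |(z : ℝ) - ((⟨1 / 2, by norm_num, by norm_num⟩ : I) : ℝ)| ≤ 1 / 2 := h2
  nlinarith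

theorem measurable_ell (a : ℝ) : Measurable (ell a) := by
  unfold ell
  fun_prop

theorem measurable_dens (a : ℝ) (b : Bool) : Measurable (dens a b) := by
  unfold dens
  fun_prop

end Vale.Agent.P161
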