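import Vale.Agent.P161.Defs

/-!
# Uniqueness and automorphism invariance of the free Ising measure
-/

open MeasureTheory Set Filter Topology
open scoped unitInterval ENNReal

namespace Vale.Agent.P161

universe u

variable {V : Type u}

namespace UniqueAux

lemma map_restrict_eq_of_subset {μ ν : Measure (V → Bool)} {A D : Finset V} (hAD : A ⊆ D)
    (h : μ.map (D.restrict : (V → Bool) → (D → Bool)) = ν.map D.restrict) :
    μ.map (A.restrict : (V → Bool) → (A → Bool)) = ν.map A.restrict := by
  have hD : Measurable (D.restrict : (V → Bool) → (D → Bool)) := Finset.measurable_restrict D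
  have hDA : Measurable (Finset.restrict₂ (π := fun _ : V => Bool) hAD) :=
    Finset.measurable_restrict₂ hAD
  have e : (A.restrict : (V → Bool) → (A → Bool)) =
      Finset.restrict₂ (π := fun _ : V => Bool) hAD ∘ D.restrict := by
    rfl
  rw [e, ← Measure.map_map hDA hD, ← Measure.map_map hDA hD, h]

lemma map_restrict_connected {G : SimpleGraph V} {θ : ℝ}
    {μ ν : Measure (V → Bool)} (hμ : IsFreeIsing G θ μ) (hν : IsFreeIsing G θ ν) (D : Finset V)
    (hD : (G.induce (D : Set V)).Connected) :
    μ.map (D.restrict : (V → Bool) → (D → Bool)) = ν.map D.restrict := by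
  classical
  have := hμ.prob
  have := hν.prob
  have hm : Measurable (D.restrict : (V → Bool) → (D → Bool)) := Finset.measurable_restrict D
  rw [Measure.ext_iff_singleton]
  intro a
  rw [Measure.map_apply hm (measurableSet_singleton a),
    Measure.map_apply hm (measurableSet_singleton a)]
  let η : V → Bool := fun v => if h : v ∈ D then a ⟨v, h⟩ else false
  have hset : (D.restrict : (V → Bool) → (D → Bool)) ⁻¹' {a} = {τ | ∀ v ∈ D, τ v = η v} := by
    ext τ
    simp only [Set.mem_preimage, Set.mem_singleton_iff, Set.mem_ofPred_eq]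
    constructor
    · intro h v hv
      simp only [η, hv, dif_pos]
      rw [← h]
      rfl
    · intro h
      funext v
      have := h v v.2
      simp only [η, v.2, dif_pos] at this
      exact this
  rw [hset]
  have h1 := hμ.cylinder D hD η
  have h2 := hν.cylinder D hD η
  have h3 : μ.real {τ | ∀ v ∈ D, τ v = η v} = ν.real {τ | ∀ v ∈ D, τ v = η v} := h1.trans h2.symm
  exact (measureReal_eq_measureReal_iff (measure_ne_top _ _) (measure_ne_top _ _)).1 h3

end UniqueAux

theorem isFreeIsing_unique {G : SimpleGraph V} (hG : G.Connected) {θ : ℝ}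
    {μ ν : Measure (V → Bool)} (hμ : IsFreeIsing G θ μ) (hν : IsFreeIsing G θ ν) : μ = ν := by
  classical
  have := hμ.prob
  have := hν.prob
  have key : ∀ A : Finset V, μ.map (A.restrict : (V → Bool) → (A → Bool)) = ν.map A.restrict := by
    intro A
    obtain ⟨v₀⟩ := hG.nonempty
    obtain ⟨D, hD, hDc⟩ := G.extend_finset_to_connected hG.preconnected
      (t := insert v₀ A) ⟨v₀, Finset.mem_insert_self _ _⟩
    exact UniqueAux.map_restrict_eq_of_subset ((Finset.subset_insert _ _).trans hD)
      (UniqueAux.map_restrict_connected hμ hν D hDc)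
  have h1 : IsProjectiveLimit μ (fun A : Finset V => ν.map (A.restrict : (V → Bool) → (A → Bool))) :=
    fun A => key A
  have h2 : IsProjectiveLimit ν (fun A : Finset V => ν.map (A.restrict : (V → Bool) → (A → Bool))) :=
    fun A => rfl
  have : ∀ A : Finset V, IsFiniteMeasure (ν.map (A.restrict : (V → Bool) → (A → Bool))) :=
    fun A => inferInstance
  exact h1.unique h2

theorem isFreeIsing_translate {G : SimpleGraph V} {θ : ℝ}
    {μ : Measure (V → Bool)} (hμ : IsFreeIsing G θ μ) (g : G ≃g G) :
    IsFreeIsing G θ (μ.map (translate g.toEquiv)) := by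
  classical
  have := hμ.prob
  have hm : Measurable (translate g.toEquiv : (V → Bool) → (V → Bool)) :=
    measurable_pi_lambda _ fun v => measurable_pi_apply _
  refine ⟨Measure.isProbabilityMeasure_map hm.aemeasurable, ?_⟩
  intro D hD η
  set D' : Finset V := D.map g.symm.toEquiv.toEmbedding with hD'
  have hmem : ∀ v, v ∈ D ↔ g.symm v ∈ D' := by
    intro v
    rw [hD', Finset.mem_map]
    constructor
    · intro h
      exact ⟨v, h, rfl⟩
    · rintro ⟨w, hw, hwv⟩
      have : w = v := g.symm.toEquiv.injective hwv
      exact this ▸ hw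
  have hmeas : MeasurableSet {τ : V → Bool | ∀ v ∈ D, τ v = η v} := by
    have : {τ : V → Bool | ∀ v ∈ D, τ v = η v} = ⋂ v ∈ D, (fun τ : V → Bool => τ v) ⁻¹' {η v} := by
      ext τ; simp
    rw [this]
    exact Finset.measurableSet_biInter _ fun v _ =>
      measurable_pi_apply v (measurableSet_singleton _)
  rw [map_measureReal_apply hm hmeas]
  have hpre : translate g.toEquiv ⁻¹' {τ : V → Bool | ∀ v ∈ D, τ v = η v} =
      {τ : V → Bool | ∀ w ∈ D', τ w = η (g w)} := by
    ext τ
    simp only [Set.mem_preimage, Set.mem_ofPred_eq, translate]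
    constructor
    · intro h w hw
      have hw' : g w ∈ D := by
        rw [hmem]; simpa using hw
      have h1 := h (g w) hw'
      have h2 : g.toEquiv.symm (g w) = w := g.toEquiv.symm_apply_apply w
      rwa [h2] at h1
    · intro h v hv
      have h1 := h (g.symm v) ((hmem v).1 hv)
      have h2 : g (g.symm v) = v := g.apply_symm_apply v
      rw [h2] at h1
      exact h1
  rw [hpre]
  have hDc : (G.induce (D' : Set V)).Connected := by
    have e : G.induce (D : Set V) ≃g G.induce (D' : Set V) :=
      { toEquiv := g.symm.toEquiv.subtypeEquiv (fun a => by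
          have := hmem a
          simpa using this)
        map_rel_iff' := by
          intro a b
          exact g.symm.map_adj_iff (v := (a : V)) (w := (b : V)) }
    exact (SimpleGraph.Iso.connected_iff e).1 hD
  rw [hμ.cylinder D' hDc (fun w => η (g w))]
  congr 1
  symm
  refine Finset.prod_nbij' (fun e => Sym2.map g.symm e) (fun e => Sym2.map g e) ?_ ?_ ?_ ?_ ?_
  · intro e he
    induction e with
    | _ a b =>
      simp only [Finset.mem_filter, Finset.mk_mem_sym2_iff, SimpleGraph.mem_edgeSet,
        Sym2.map_mk] at he ⊢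
      exact ⟨⟨(hmem a).1 he.1.1, (hmem b).1 he.1.2⟩, g.symm.map_adj_iff.2 he.2⟩
  · intro e he
    induction e with
    | _ a b =>
      simp only [Finset.mem_filter, Finset.mk_mem_sym2_iff, SimpleGraph.mem_edgeSet,
        Sym2.map_mk] at he ⊢
      exact ⟨⟨(hmem _).2 (by simpa using he.1.1), (hmem _).2 (by simpa using he.1.2)⟩,
        g.map_adj_iff.2 he.2⟩
  · intro e he
    induction e with
    | _ a b => simp
  · intro e he
    induction e with
    | _ a b => simp
  · intro e he
    induction e with
    | _ a b => simp [edgeFactor]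

end Vale.Agent.P161
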